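import Vale.Agent.P195.Maps

/-! Vanishing against projectives and the computation with coefficients in the main module. -/

open CategoryTheory Abelian Limits

universe u

set_option backward.isDefEq.respectTransparency false

namespace Vale.Agent.AR

variable {k : Type u} [Field k]

section general

variable {R S : Type u} [Ring R] [Ring S]

lemma flat_nat (F F' : ModuleCat.{u} S ⥤ ModuleCat.{u} R)
    (G G' : ModuleCat.{u} R ⥤ ModuleCat.{u} S) [G.Additive]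
    [PreservesFiniteLimits G] [PreservesFiniteColimits G] [G'.Additive]
    [PreservesFiniteLimits G'] [PreservesFiniteColimits G']
    (η : ∀ M : ModuleCat.{u} S, M ⟶ G.obj (F.obj M))
    (η' : ∀ M : ModuleCat.{u} S, M ⟶ G'.obj (F'.obj M)) (τ : G ⟶ G') {M : ModuleCat.{u} S}
    (φ : F'.obj M ⟶ F.obj M) (h : η' M ≫ G'.map φ = η M ≫ τ.app _) {W : ModuleCat.{u} R} {n : ℕ}
    (e : Ext (F.obj M) W n) :
    flat F' G' η' M W n ((Ext.mk₀ φ).comp e (zero_add n)) =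
      (flat F G η M W n e).comp (Ext.mk₀ (τ.app W)) (add_zero n) := by
  rw [flat_apply, flat_apply, Ext.mapExactFunctor_comp, Ext.mapExactFunctor_mk₀,
    Ext.mk₀_comp_mk₀_assoc, h, ← Ext.mk₀_comp_mk₀_assoc, ← mapExt_natTrans]
  exact (Ext.comp_assoc_of_third_deg_zero _ _ _ _).symm

lemma ext_zero_of_iso {N A B : ModuleCat.{u} R} (θ : A ⟶ B) (hθ : IsIso θ) {n : ℕ}
    (h : ∀ e : Ext N A n, e = 0) (e : Ext N B n) : e = 0 := by
  have : e = (e.comp (Ext.mk₀ (inv θ)) (add_zero n)).comp (Ext.mk₀ θ) (add_zero n) := by simp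
  rw [this, h (e.comp _ _), Ext.zero_comp]

variable [Algebra k R] [Algebra k S]

variable (F : ModuleCat.{u} S ⥤ ModuleCat.{u} R)
    (G : ModuleCat.{u} R ⥤ ModuleCat.{u} S) [G.Additive]
    [PreservesFiniteLimits G] [PreservesFiniteColimits G]
    (η : ∀ M : ModuleCat.{u} S, M ⟶ G.obj (F.obj M))

lemma flat_smul [G.Linear k] {M : ModuleCat.{u} S} {W : ModuleCat.{u} R} {n : ℕ} (c : k)
    (e : Ext (F.obj M) W n) : flat F G η M W n (c • e) = c • flat F G η M W n e := by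
  rw [flat_apply, flat_apply, Functor.mapExactFunctor_smul, Ext.comp_smul]

lemma van_of_contr (k : Type u) [Field k] [Algebra k R] {A : ModuleCat.{u} R} {N : ModuleCat.{u} S} {σ : A ⟶ F.obj N}
    {π : F.obj N ⟶ A} (h : SE σ π) (τ : G ⟶ G) (hτ : η N ≫ G.map (π ≫ σ) = η N ≫ τ.app _)
    (hb : ∀ n, Function.Bijective (flat F G η N (ModuleCat.of R R) n))
    (s : G.obj (ModuleCat.of R R) ⟶ G.obj (ModuleCat.of R R))
    (hs : τ.app _ ≫ s + s ≫ τ.app _ = 𝟙 _) (hG : FP (G.obj (ModuleCat.of R R))) {p : ℕ}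
    (hN : Van N p) : Van A p := by
  apply van_of_self
  intro n hn e
  refine (h.les k (ModuleCat.of R R)).res_inj (fun a ha => h.g_inj0 a ha) ?_ n e ?_
  · intro n d hd
    have key : ∀ d : Ext (F.obj N) (ModuleCat.of R R) n,
        flat F G η N _ n ((h.les k _).res n ((h.les k _).tr n d)) =
          (flat F G η N _ n d).comp (Ext.mk₀ (τ.app _)) (add_zero n) := by
      intro d
      rw [← flat_nat F F G G η η τ _ hτ, ← Ext.mk₀_comp_mk₀_assoc]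
      rfl
    obtain ⟨d', hd'⟩ := (hb n).2 ((flat F G η N _ n d).comp (Ext.mk₀ s) (add_zero n))
    refine ⟨d', (hb n).1 ?_⟩
    have h2 := key d
    rw [hd, map_zero] at h2
    rw [key, hd', Ext.comp_assoc_of_third_deg_zero, Ext.mk₀_comp_mk₀]
    conv_rhs => rw [← Ext.comp_mk₀_id (flat F G η N _ n d), ← hs, Ext.mk₀_add, Ext.comp_add,
      ← Ext.mk₀_comp_mk₀, ← Ext.comp_assoc_of_third_deg_zero, ← h2, Ext.zero_comp, zero_add]
  · apply (injective_iff_map_eq_zero _).1 (hb n).1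
    exact hN n hn _ hG _

lemma span_base [G.Linear k] {A : ModuleCat.{u} R} {N : ModuleCat.{u} S} {σ : A ⟶ F.obj N}
    {π : F.obj N ⟶ A} (h : SE σ π) {Z : ModuleCat.{u} R} (a0 : A ⟶ Z)
    (hθ : IsIso (η N ≫ G.map (π ≫ a0)))
    (hb : ∀ n, Function.Injective (flat F G η N Z n))
    (hend : ∀ f : N ⟶ N, ∃ c : k, f = c • 𝟙 N) (hself : ∀ n, 0 < n → ∀ e : Ext N N n, e = 0)
    (t : ℕ) (b : Ext A Z (0 + t)) : ∃ c : k, b = c • (h.les k Z).pw (ν := 0) (Ext.mk₀ a0) t := by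
  refine (h.les k Z).span_pw (Ext.mk₀ a0) ?_ ?_ t b
  · intro b
    obtain ⟨f, rfl⟩ := (Ext.mk₀_bijective _ _).2 b
    obtain ⟨c, hc⟩ := hend (η N ≫ G.map (π ≫ f) ≫ inv (η N ≫ G.map (π ≫ a0)))
    refine ⟨c, ?_⟩
    rw [← sub_eq_zero]
    apply h.g_inj0
    apply (injective_iff_map_eq_zero _).1 (hb 0)
    rw [sub_eq_add_neg, Ext.comp_add, Ext.comp_neg, Ext.comp_smul, Ext.mk₀_comp_mk₀,
      Ext.mk₀_comp_mk₀, map_add, map_neg, flat_smul, flat_mk₀, flat_mk₀, ← Ext.mk₀_smul,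
      add_neg_eq_zero]
    congr 1
    rw [← Category.assoc, IsIso.comp_inv_eq] at hc
    rw [hc, Linear.smul_comp, Category.id_comp]
  · intro n d
    apply (injective_iff_map_eq_zero _).1 (hb (n + 1))
    exact ext_zero_of_iso _ hθ (hself _ (by omega)) _

end general

variable {D : Type u} [Ring D] [Algebra k D]

/-- the hypotheses of the main step -/
structure Hyp (δ : Dat k D) (N : ModuleCat.{u} D) (p : ℕ) : Prop where
  l0 : δ.lam ≠ 0
  hl : ∀ j : ℕ, δ.lam ^ (j + 1) ≠ 1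
  fin : Module.Finite D N
  finF : Module.Finite D (δ.F.obj N)
  exa : Exa δ.F
  fpL : FP δ.L
  nz : 𝟙 N ≠ 0
  endo : ∀ f : N ⟶ N, ∃ c : k, f = c • 𝟙 N
  self : ∀ n, 0 < n → ∀ e : Ext N N n, e = 0
  van : Van N p
  vanF : Van (δ.F.obj N) p

variable (δ : Dat k D) (N : ModuleCat.{u} D)

lemma etaX_pX : etaX δ N ≫ (GX δ).map ((piX δ N).real ≫ pX δ N) = (Zr δ N).ofX :=
  ModuleCat.hom_ext (LinearMap.ext fun _ => Cor.ext (Rep.Car.ext rfl rfl (sub_self _)))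

lemma etaY_ioY : etaY δ N ≫ (GY δ).map ((piY δ N).real ≫ (ioY δ N).real) = (Zr δ N).ofY :=
  ModuleCat.hom_ext (LinearMap.ext fun _ => Cor.ext (Rep.Car.ext rfl rfl rfl))

lemma etaX_nx : etaX δ N ≫ (GX δ).map ((piX δ N).real ≫ (sigX δ N).real) =
    etaX δ N ≫ (nxX δ).app _ := by
  refine ModuleCat.hom_ext (LinearMap.ext fun w => Cor.ext ?_)
  change (⟨(0, w), (0, 0), ((0, 0), (0, δ.t • 0))⟩ : (TXr δ N).Car) =
    Lam.xX δ • (⟨(w, 0), 0, 0⟩ : (TXr δ N).Car)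
  ext <;> simp

lemma etaY_nx : etaY δ N ≫ (GY δ).map ((piY δ N).real ≫ (sigY δ N).real) =
    etaY δ N ≫ (nxY δ).app _ := by
  refine ModuleCat.hom_ext (LinearMap.ext fun w => Cor.ext ?_)
  change (⟨0, 0, (0, w)⟩ : (TYr δ N).Car) = Lam.xY δ • (⟨0, 0, (w, 0)⟩ : (TYr δ N).Car)
  ext <;> simp

lemma etaY_gt1 : etaY δ N ≫ (GY δ).map (gt1 δ N).real = etaX δ N ≫ (ng1 δ).app _ := by
  refine ModuleCat.hom_ext (LinearMap.ext fun w => Cor.ext ?_)
  change (⟨0, 0, ((w, 0), (0, 0))⟩ : (TXr δ N).Car) =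
    Lam.g1 δ • (⟨(w, 0), 0, 0⟩ : (TXr δ N).Car)
  ext <;> simp

lemma etaY_gt2 : etaY δ N ≫ (GY δ).map (gt2 δ N).real = etaX δ N ≫ (ng2 δ).app _ := by
  refine ModuleCat.hom_ext (LinearMap.ext fun w => Cor.ext ?_)
  change (⟨0, 0, ((0, w), (0, 0))⟩ : (TXr δ N).Car) =
    Lam.g2 δ • (⟨(w, 0), 0, 0⟩ : (TXr δ N).Car)
  ext <;> simp

lemma ofX_ng1 : (Zr δ N).ofX ≫ (ng1 δ).app _ = (Zr δ N).ofY := by
  refine ModuleCat.hom_ext (LinearMap.ext fun w => Cor.ext ?_)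
  change Lam.g1 δ • (⟨w, 0, 0⟩ : (Zr δ N).Car) = ⟨0, 0, w⟩
  ext <;> simp

lemma ofX_ng2 : (Zr δ N).ofX ≫ (ng2 δ).app _ = -(Zr δ N).ofY := by
  refine ModuleCat.hom_ext (LinearMap.ext fun w => Cor.ext ?_)
  change Lam.g2 δ • (⟨w, 0, 0⟩ : (Zr δ N).Car) = -⟨0, 0, w⟩
  ext <;> simp

lemma sigY_comp (f : (TYr δ N).real ⟶ (Zr δ N).real) : (sigY δ N).real ≫ f = 0 := by
  refine ModuleCat.hom_ext (LinearMap.ext fun w => ?_)
  have h1 : (sigY δ N).real.hom w = Lam.xY δ • (⟨0, 0, (w.y, 0)⟩ : (TYr δ N).Car) := by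
    change (⟨0, 0, (0, w.y)⟩ : (TYr δ N).Car) = _
    ext <;> simp
  have h2 : ∀ z : (Zr δ N).Car, Lam.xY δ • z = 0 := fun z => by ext <;> simp
  change f.hom ((sigY δ N).real.hom w) = 0
  rw [h1, map_smul]
  exact h2 _

variable {δ N} [IsNoetherianRing D] {p : ℕ} (H : Hyp δ N p)

namespace Hyp

include H

lemma van_iY : Van (iYr δ N).real p := by
  obtain ⟨s, hs⟩ := contr_Y δ
  exact van_of_contr (TY δ) (GY δ) (etaY δ) k (seY δ N) (nxY δ) (etaY_nx δ N)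
    (fun n => flY_bij δ H.fin _ n) s hs (fp_GY δ H.fpL) H.van

lemma van_jX : Van (jXr δ N).real p := by
  obtain ⟨s, hs⟩ := contr_X δ
  exact van_of_contr (TX δ) (GX δ) (etaX δ) k (seX δ N H.l0) (nxX δ) (etaX_nx δ N)
    (fun n => flX_bij δ H.fin _ n) s hs (fp_GX δ) H.van

lemma van_JV : Van (JVr δ N).real p := by
  apply van_of_self
  intro n hn e
  apply (injective_iff_map_eq_zero _).1 (flV_bij δ H.exa H.fin _ n).1
  exact H.van n hn _ (fp_GV δ) _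

lemma van_TYF : Van (TYr δ (δ.F.obj N)).real p := by
  apply van_of_self
  intro n hn e
  apply (injective_iff_map_eq_zero _).1 (flY_bij δ H.finF _ n).1
  exact H.vanF n hn _ (fp_GY δ H.fpL) _

lemma van_Z : Van (Zr δ N).real (p + 2) :=
  (seZ δ N).van_right ((seV δ N).van_right H.van_TYF (H.van_JV.mono (by omega)))
    (((seB δ N).van_right H.van_iY (H.van_jX.mono (by omega))).mono (by omega))

lemma baseX (t : ℕ) (b : Ext (jXr δ N).real (Zr δ N).real (0 + t)) :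
    ∃ c : k, b = c • ((seX δ N H.l0).les k _).pw (ν := 0) (Ext.mk₀ (pX δ N)) t :=
  span_base (TX δ) (GX δ) (etaX δ) (seX δ N H.l0) (pX δ N)
    (by rw [etaX_pX]; exact Rep.isIso_ofX _) (fun n => (flX_bij δ H.fin _ n).1) H.endo H.self t b

lemma baseY (t : ℕ) (b : Ext (iYr δ N).real (Zr δ N).real (0 + t)) :
    ∃ c : k, b = c • ((seY δ N).les k _).pw (ν := 0) (Ext.mk₀ (ioY δ N).real) t :=
  span_base (TY δ) (GY δ) (etaY δ) (seY δ N) (ioY δ N).real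
    (by rw [etaY_ioY]; exact Rep.isIso_ofY _) (fun n => (flY_bij δ H.fin _ n).1) H.endo H.self t b

lemma baseY_ne (t : ℕ) : ((seY δ N).les k _).pw (ν := 0) (Ext.mk₀ (ioY δ N).real) t ≠ 0 := by
  refine LES.pw_ne_zero _ _ ?_ ?_ ?_ t
  · intro h
    rw [Ext.mk₀_eq_zero_iff] at h
    apply H.nz
    refine ModuleCat.hom_ext (LinearMap.ext fun w => ?_)
    exact congrArg (fun f : (iYr δ N).real ⟶ (Zr δ N).real => (f.hom ⟨0, 0, w⟩).y) h
  · intro d
    obtain ⟨f, rfl⟩ := (Ext.mk₀_bijective _ _).2 d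
    change (Ext.mk₀ _).comp (Ext.mk₀ f) (zero_add 0) = 0
    rw [Ext.mk₀_comp_mk₀, sigY_comp, Ext.mk₀_zero]
  · intro n d
    apply (injective_iff_map_eq_zero _).1 (flY_bij δ H.fin _ (n + 1)).1
    exact ext_zero_of_iso _ (Rep.isIso_ofY (Zr δ N)) (H.self _ (by omega)) _

end Hyp

end Vale.Agent.AR
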