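import Mathlib.Algebra.Homology.DerivedCategory.Ext.MapBijective
import Mathlib.Algebra.Category.ModuleCat.Ext.DimensionShifting
import Mathlib.Algebra.Category.ModuleCat.Algebra
import Mathlib.RingTheory.Finiteness.Projective
import Mathlib.RingTheory.Noetherian.Basic
import Mathlib.RingTheory.Finiteness.Prod
import Mathlib.Tactic.Abel
import Mathlib.Tactic.Module
import Mathlib.Tactic.NoncommRing

/-! General homological lemmas: finitely generated projectives, syzygies, dimension shifting. -/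

open CategoryTheory Abelian Limits

universe u

namespace Vale.Agent.AR

variable {R : Type u} [Ring R]

/-- finitely generated projective -/
def FP (P : ModuleCat.{u} R) : Prop := Module.Finite R P ∧ Projective P

lemma FP.self : FP (ModuleCat.of R R) :=
  ⟨inferInstanceAs (Module.Finite R R), (IsProjective.iff_projective R).1 inferInstance⟩

lemma FP.sum {A B C : ModuleCat.{u} R} (i1 : A ⟶ C) (i2 : B ⟶ C) (p1 : C ⟶ A) (p2 : C ⟶ B)
    (h : p1 ≫ i1 + p2 ≫ i2 = 𝟙 C) (hA : FP A) (hB : FP B) : FP C := by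
  obtain ⟨fA, pA⟩ := hA
  obtain ⟨fB, pB⟩ := hB
  refine ⟨?_, ?_⟩
  · have : Module.Finite R (A × B) := Module.Finite.prod
    refine Module.Finite.of_surjective (i1.hom.coprod i2.hom) fun c => ⟨(p1 c, p2 c), ?_⟩
    have := congrArg (fun f : C ⟶ C => f.hom c) h
    simpa using this
  · refine ⟨fun {E X} f e _ => ?_⟩
    refine ⟨p1 ≫ Projective.factorThru (i1 ≫ f) e + p2 ≫ Projective.factorThru (i2 ≫ f) e, ?_⟩
    simp only [Preadditive.add_comp, Category.assoc, Projective.factorThru_comp]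
    rw [← Category.assoc, ← Category.assoc, ← Preadditive.add_comp, h, Category.id_comp]

lemma FP.retract {A C : ModuleCat.{u} R} (i : A ⟶ C) (p : C ⟶ A)
    (h : p ≫ i = 𝟙 C) (hA : FP A) : FP C :=
  FP.sum i 0 p 0 (by simpa using h) hA hA

lemma FP.prod {A B : ModuleCat.{u} R} (hA : FP A) (hB : FP B) :
    FP (ModuleCat.of R (A × B)) :=
  FP.sum (ModuleCat.ofHom (LinearMap.inl R A B)) (ModuleCat.ofHom (LinearMap.inr R A B))
    (ModuleCat.ofHom (LinearMap.fst R A B)) (ModuleCat.ofHom (LinearMap.snd R A B))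
    (by ext <;> simp) hA hB

lemma FP.induction {Q : ModuleCat.{u} R → Prop} (h0 : Q (ModuleCat.of R R))
    (hsum : ∀ (A B C : ModuleCat.{u} R) (i1 : A ⟶ C) (i2 : B ⟶ C) (p1 : C ⟶ A) (p2 : C ⟶ B),
      p1 ≫ i1 + p2 ≫ i2 = 𝟙 C → Q A → Q B → Q C) (P : ModuleCat.{u} R) (hP : FP P) : Q P := by
  have hfin : ∀ n : ℕ, Q (ModuleCat.of R (Fin n → R)) := by
    intro n
    induction n with
    | zero =>
      refine hsum _ _ _ 0 0 0 0 ?_ h0 h0
      apply ModuleCat.hom_ext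
      apply LinearMap.ext
      intro x
      exact Subsingleton.elim _ _
    | succ n ih =>
      let e := Fin.consLinearEquiv R (fun _ : Fin (n + 1) => R)
      refine hsum (ModuleCat.of R R) (ModuleCat.of R (Fin n → R)) _
        (ModuleCat.ofHom (e.toLinearMap ∘ₗ LinearMap.inl R _ _))
        (ModuleCat.ofHom (e.toLinearMap ∘ₗ LinearMap.inr R _ _))
        (ModuleCat.ofHom (LinearMap.fst R _ _ ∘ₗ e.symm.toLinearMap))
        (ModuleCat.ofHom (LinearMap.snd R _ _ ∘ₗ e.symm.toLinearMap)) ?_ h0 ih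
      apply ModuleCat.hom_ext
      apply LinearMap.ext
      intro x
      simp only [ModuleCat.hom_add, ModuleCat.hom_comp, ModuleCat.hom_ofHom, LinearMap.add_apply,
        LinearMap.comp_apply, LinearEquiv.coe_coe, ModuleCat.hom_id, LinearMap.id_apply,
        LinearMap.fst_apply, LinearMap.snd_apply, LinearMap.inl_apply, LinearMap.inr_apply]
      rw [← map_add]
      simp
  obtain ⟨fP, pP⟩ := hP
  have : Module.Projective R P := (IsProjective.iff_projective P).2 pP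
  obtain ⟨n, f, g, -, -, hfg⟩ := Module.Finite.exists_comp_eq_id_of_projective R P
  refine hsum _ _ _ (ModuleCat.ofHom f) 0 (ModuleCat.ofHom g) 0 ?_ (hfin n) (hfin n)
  apply ModuleCat.hom_ext
  simpa using hfg

/-- an additive functor sending the ring to a f.g. projective preserves f.g. projectives -/
lemma FP.map {S : Type u} [Ring S] (G : ModuleCat.{u} R ⥤ ModuleCat.{u} S) [G.Additive]
    (h : FP (G.obj (ModuleCat.of R R))) {P : ModuleCat.{u} R} (hP : FP P) : FP (G.obj P) := by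
  refine FP.induction (Q := fun P => FP (G.obj P)) h ?_ P hP
  intro A B C i1 i2 p1 p2 h hA hB
  refine FP.sum (G.map i1) (G.map i2) (G.map p1) (G.map p2) ?_ hA hB
  rw [← G.map_comp, ← G.map_comp, ← G.map_add, h, G.map_id]

/-- `Ext^n(M, P) = 0` for all `n > p` and all f.g. projective `P`. -/
def Van (M : ModuleCat.{u} R) (p : ℕ) : Prop :=
  ∀ n, p < n → ∀ P : ModuleCat.{u} R, FP P → ∀ e : Ext M P n, e = 0

lemma van_of_self {M : ModuleCat.{u} R} {p : ℕ}
    (h : ∀ n, p < n → ∀ e : Ext M (ModuleCat.of R R) n, e = 0) : Van M p := by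
  intro n hn P hP
  refine FP.induction (Q := fun P => ∀ e : Ext M P n, e = 0) (h n hn) ?_ P hP
  intro A B C i1 i2 p1 p2 h hA hB e
  rw [← e.comp_mk₀_id, ← h, Ext.mk₀_add, Ext.comp_add, ← Ext.mk₀_comp_mk₀, ← Ext.mk₀_comp_mk₀,
    ← Ext.comp_assoc_of_third_deg_zero, ← Ext.comp_assoc_of_third_deg_zero, hA (e.comp _ _),
    hB (e.comp _ _)]
  simp

lemma Van.mono {M : ModuleCat.{u} R} {p q : ℕ} (h : Van M p) (hpq : p ≤ q) : Van M q :=
  fun n hn => h n (by omega)

lemma van_of_projective {M : ModuleCat.{u} R} (h : Projective M) : Van M 0 := by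
  intro n hn P _ e
  obtain ⟨m, rfl⟩ : ∃ m, n = m + 1 := ⟨n - 1, by omega⟩
  exact e.eq_zero_of_projective

lemma ext_zero_of_proj {M U : ModuleCat.{u} R} (h : Projective M) {n : ℕ} (hn : 0 < n)
    (e : Ext M U n) : e = 0 := by
  obtain ⟨m, rfl⟩ : ∃ m, n = m + 1 := ⟨n - 1, by omega⟩
  exact e.eq_zero_of_projective

/-- short exact sequence of modules -/
structure SE {A B C : ModuleCat.{u} R} (f : A ⟶ B) (g : B ⟶ C) : Prop where
  inj : Function.Injective f.hom
  exa : Function.Exact f.hom g.hom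
  surj : Function.Surjective g.hom

namespace SE

variable {A B C : ModuleCat.{u} R} {f : A ⟶ B} {g : B ⟶ C} (h : SE f g)

include h in
lemma zero : f ≫ g = 0 := ModuleCat.hom_ext h.exa.linearMap_comp_eq_zero

lemma shortExact : (ShortComplex.mk f g h.zero).ShortExact :=
  ModuleCat.shortComplex_shortExact _ h.exa h.inj h.surj

lemma of_shortExact {T : ShortComplex (ModuleCat.{u} R)} (hT : T.ShortExact) : SE T.f T.g :=
  ⟨hT.moduleCat_injective_f, (ShortComplex.ShortExact.moduleCat_exact_iff_function_exact _).1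
    hT.exact, hT.moduleCat_surjective_g⟩

/-- the extension class -/
noncomputable def cls : Ext C A 1 := h.shortExact.extClass

lemma cls_nat {A' B' C' : ModuleCat.{u} R} {f' : A' ⟶ B'} {g' : B' ⟶ C'} (h' : SE f' g')
    (τ₁ : A ⟶ A') (τ₂ : B ⟶ B') (τ₃ : C ⟶ C') (h12 : τ₁ ≫ f' = f ≫ τ₂)
    (h23 : τ₂ ≫ g' = g ≫ τ₃) :
    h.cls.comp (Ext.mk₀ τ₁) (add_zero 1) = (Ext.mk₀ τ₃).comp h'.cls (zero_add 1) :=
  ShortComplex.ShortExact.extClass_naturality h.shortExact h'.shortExact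
    { τ₁ := τ₁, τ₂ := τ₂, τ₃ := τ₃, comm₁₂ := h12, comm₂₃ := h23 }

lemma cls_nat' {A' B' C' : ModuleCat.{u} R} {f' : A' ⟶ B'} {g' : B' ⟶ C'} (h' : SE f' g')
    (τ₁ : A ⟶ A') (τ₂ : B ⟶ B') (τ₃ : C ⟶ C') (h12 : τ₁ ≫ f' = f ≫ τ₂)
    (h23 : τ₂ ≫ g' = g ≫ τ₃) {U : ModuleCat.{u} R} {m n : ℕ} (hn : 1 + m = n)
    (y : Ext A' U m) :
    h.cls.comp ((Ext.mk₀ τ₁).comp y (zero_add m)) hn =
      (Ext.mk₀ τ₃).comp (h'.cls.comp y hn) (zero_add n) := by
  rw [← Ext.comp_assoc_of_second_deg_zero, h.cls_nat h' τ₁ τ₂ τ₃ h12 h23]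
  exact Ext.comp_assoc _ _ _ _ _ (by omega)

variable (U : ModuleCat.{u} R)

lemma ex1 {m n : ℕ} (hn : 1 + m = n) (x : Ext A U m) (hx : h.cls.comp x hn = 0) :
    ∃ y : Ext B U m, (Ext.mk₀ f).comp y (zero_add m) = x :=
  Ext.contravariant_sequence_exact₁ h.shortExact U x hn hx

include h in
lemma ex2 {n : ℕ} (x : Ext B U n) (hx : (Ext.mk₀ f).comp x (zero_add n) = 0) :
    ∃ y : Ext C U n, (Ext.mk₀ g).comp y (zero_add n) = x :=
  Ext.contravariant_sequence_exact₂ h.shortExact U x hx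

lemma ex3 {m n : ℕ} (hn : 1 + m = n) (x : Ext C U n) (hx : (Ext.mk₀ g).comp x (zero_add n) = 0) :
    ∃ y : Ext A U m, h.cls.comp y hn = x :=
  Ext.contravariant_sequence_exact₃ h.shortExact U x hx hn

lemma co1 {m n : ℕ} (hn : m + 1 = n) (x : Ext U A n) (hx : x.comp (Ext.mk₀ f) (add_zero n) = 0) :
    ∃ y : Ext U C m, y.comp h.cls hn = x :=
  Ext.covariant_sequence_exact₁ U h.shortExact x hx hn

lemma co3 {m n : ℕ} (hn : m + 1 = n) (x : Ext U C m) (hx : x.comp h.cls hn = 0) :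
    ∃ y : Ext U B m, y.comp (Ext.mk₀ g) (add_zero m) = x :=
  Ext.covariant_sequence_exact₃ U h.shortExact x hn hx

variable {U}

lemma g_cls {m n : ℕ} (hn : 1 + m = n) (x : Ext A U m) :
    (Ext.mk₀ g).comp (h.cls.comp x hn) (zero_add n) = 0 :=
  h.shortExact.comp_extClass_assoc x hn

lemma cls_f {m n : ℕ} (hn : 1 + m = n) (x : Ext B U m) :
    h.cls.comp ((Ext.mk₀ f).comp x (zero_add m)) hn = 0 :=
  h.shortExact.extClass_comp_assoc x

include h in
lemma f_g {n : ℕ} (x : Ext C U n) :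
    (Ext.mk₀ f).comp ((Ext.mk₀ g).comp x (zero_add n)) (zero_add n) = 0 := by
  rw [Ext.mk₀_comp_mk₀_assoc, h.zero, Ext.mk₀_zero, Ext.zero_comp]

include h in
lemma g_inj0 (x : Ext C U 0) (hx : (Ext.mk₀ g).comp x (zero_add 0) = 0) : x = 0 := by
  have : Epi g := (ModuleCat.epi_iff_surjective g).2 h.surj
  exact (injective_iff_map_eq_zero _).1 (Ext.precomp_mk₀_injective_of_epi U g) x hx

variable (U)

/-- connecting map in the first variable is onto if the next group of the middle term vanishes -/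
lemma delta_surj {m n : ℕ} (hn : 1 + m = n) (h2 : ∀ e : Ext B U n, e = 0) (x : Ext C U n) :
    ∃ y : Ext A U m, h.cls.comp y hn = x :=
  h.ex3 U hn x (h2 _)

lemma delta_inj {m n : ℕ} (hn : 1 + m = n) (h2 : ∀ e : Ext B U m, e = 0) (y : Ext A U m)
    (hy : h.cls.comp y hn = 0) : y = 0 := by
  obtain ⟨z, rfl⟩ := h.ex1 U hn y hy
  rw [h2 z, Ext.comp_zero]

include h in
lemma mid_zero {n : ℕ} (h1 : ∀ e : Ext A U n, e = 0) (h3 : ∀ e : Ext C U n, e = 0)
    (x : Ext B U n) : x = 0 := by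
  obtain ⟨z, rfl⟩ := h.ex2 U x (h1 _)
  rw [h3 z, Ext.comp_zero]

include h in
lemma right_zero {m n : ℕ} (hn : 1 + m = n) (h1 : ∀ e : Ext A U m, e = 0)
    (h2 : ∀ e : Ext B U n, e = 0) (x : Ext C U n) : x = 0 := by
  obtain ⟨y, rfl⟩ := h.delta_surj U hn h2 x
  rw [h1 y, Ext.comp_zero]

include h in
lemma left_zero {m n : ℕ} (hn : 1 + m = n) (h2 : ∀ e : Ext B U m, e = 0)
    (h3 : ∀ e : Ext C U n, e = 0) (x : Ext A U m) : x = 0 :=
  h.delta_inj U hn h2 x (h3 _)

include h in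
lemma van_right {p : ℕ} (h1 : Van A p) (h2 : Van B (p + 1)) : Van C (p + 1) := by
  intro n hn P hP
  obtain ⟨m, rfl⟩ : ∃ m, n = 1 + m := ⟨n - 1, by omega⟩
  exact h.right_zero P rfl (h1 m (by omega) P hP) (h2 _ hn P hP)

include h in
lemma van_mid {p : ℕ} (h1 : Van A p) (h3 : Van C p) : Van B p :=
  fun n hn P hP => h.mid_zero P (h1 n hn P hP) (h3 n hn P hP)

include h in
lemma van_left {p : ℕ} (h2 : Van B p) (h3 : Van C (p + 1)) : Van A p :=
  fun n hn P hP => h.left_zero P (n := 1 + n) rfl (h2 n hn P hP) (h3 _ (by omega) P hP)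

include h in
lemma fp_mid (hA : FP A) (hC : FP C) : FP B := by
  have := hC.2
  have : Epi g := (ModuleCat.epi_iff_surjective g).2 h.surj
  have hs := h.shortExact.splittingOfProjective
  exact FP.sum f hs.s hs.r g hs.id hA hC

include h in
lemma fp_left (hB : FP B) (hC : FP C) : FP A := by
  have := hC.2
  have hs := h.shortExact.splittingOfProjective
  exact FP.retract hs.r f hs.f_r hB

include h in
lemma finite_mid (hA : Module.Finite R A) (hC : Module.Finite R C) : Module.Finite R B :=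
  Module.Finite.of_exact h.exa h.surj

lemma ker {M N : ModuleCat.{u} R} (p : M ⟶ N) (hp : Function.Surjective p.hom) :
    SE (ModuleCat.ofHom (LinearMap.ker p.hom).subtype) p :=
  ⟨Subtype.val_injective, LinearMap.exact_subtype_ker_map p.hom, hp⟩

end SE

/-- `W` is a `ν`-th syzygy of `M` (via f.g. projectives), with class `κ`. -/
inductive IsSyz (M : ModuleCat.{u} R) : (ν : ℕ) → (W : ModuleCat.{u} R) → Ext M W ν → Prop
  | zero (W : ModuleCat.{u} R) (f : M ⟶ W) (hf : IsIso f) : IsSyz M 0 W (Ext.mk₀ f)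
  | succ (ν : ℕ) (W' P W : ModuleCat.{u} R) (f : W' ⟶ P) (g : P ⟶ W) (hS : SE f g) (hP : FP P)
      (κ : Ext M W ν) (h : IsSyz M ν W κ) :
      IsSyz M (ν + 1) W' (κ.comp hS.cls rfl)

/-- preservation of short exact sequences -/
def Exa {S : Type u} [Ring S] (F : ModuleCat.{u} R ⥤ ModuleCat.{u} S) : Prop :=
  ∀ ⦃A B C : ModuleCat.{u} R⦄ ⦃f : A ⟶ B⦄ ⦃g : B ⟶ C⦄, SE f g → SE (F.map f) (F.map g)

lemma Exa.lim_colim {S : Type u} [Ring S] {F : ModuleCat.{u} R ⥤ ModuleCat.{u} S} [F.Additive]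
    (h : Exa F) : PreservesFiniteLimits F ∧ PreservesFiniteColimits F := by
  have := ((Functor.exact_tfae F).out 0 3).mp
    (fun T hT => (h (SE.of_shortExact hT)).shortExact)
  exact this

lemma Exa.of_lim {S : Type u} [Ring S] (F : ModuleCat.{u} R ⥤ ModuleCat.{u} S) [F.Additive]
    [PreservesFiniteLimits F] [PreservesFiniteColimits F] : Exa F :=
  fun _ _ _ _ _ h => SE.of_shortExact (h.shortExact.map_of_exact F)

lemma SE.map_cls {S : Type u} [Ring S] (G : ModuleCat.{u} R ⥤ ModuleCat.{u} S) [G.Additive]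
    [PreservesFiniteLimits G] [PreservesFiniteColimits G] {A B C : ModuleCat.{u} R} {f : A ⟶ B}
    {g : B ⟶ C} (h : SE f g) : h.cls.mapExactFunctor G = (Exa.of_lim G h).cls :=
  Ext.mapExactFunctor_extClass G h.shortExact

namespace IsSyz

variable {M : ModuleCat.{u} R}

lemma pre_surj {ν : ℕ} {W : ModuleCat.{u} R} {κ : Ext M W ν} (h : IsSyz M ν W κ)
    (U : ModuleCat.{u} R) (m n : ℕ) (hn : ν + m = n) (x : Ext M U n) :
    ∃ y : Ext W U m, κ.comp y hn = x := by
  induction h generalizing m n with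
  | zero W f hf =>
    obtain rfl : m = n := by omega
    refine ⟨(Ext.mk₀ (inv f)).comp x (zero_add _), ?_⟩
    simp
  | succ ν W' P W f g hS hP κ h ih =>
    obtain ⟨y, rfl⟩ := ih (1 + m) n (by omega) x
    obtain ⟨z, rfl⟩ := hS.delta_surj U (m := m) rfl (ext_zero_of_proj hP.2 (by omega)) y
    exact ⟨z, Ext.comp_assoc _ _ _ _ _ (by omega)⟩

lemma pre_inj {ν : ℕ} {W : ModuleCat.{u} R} {κ : Ext M W ν} (h : IsSyz M ν W κ)
    (U : ModuleCat.{u} R) (m n : ℕ) (hm : 0 < m) (hn : ν + m = n) (y : Ext W U m)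
    (hy : κ.comp y hn = 0) : y = 0 := by
  induction h generalizing m n with
  | zero W f hf =>
    obtain rfl : m = n := by omega
    have : (Ext.mk₀ (inv f)).comp ((Ext.mk₀ f).comp y (zero_add _)) (zero_add _) = y := by simp
    rw [← this, hy, Ext.comp_zero]
  | succ ν W' P W f g hS hP κ h ih =>
    rw [Ext.comp_assoc _ _ _ _ (rfl : 1 + m = 1 + m) (by omega)] at hy
    exact hS.delta_inj U rfl (ext_zero_of_proj hP.2 hm) y (ih _ _ (by omega) _ _ hy)

lemma factor {ν : ℕ} {W : ModuleCat.{u} R} {κ : Ext M W ν} (h : IsSyz M ν W κ)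
    {U : ModuleCat.{u} R} (φ : W ⟶ U) (hφ : κ.comp (Ext.mk₀ φ) (add_zero _) = 0) :
    ∃ (P : ModuleCat.{u} R) (_ : FP P) (i : W ⟶ P) (ψ : P ⟶ U), φ = i ≫ ψ := by
  cases h with
  | zero W f hf =>
    refine ⟨_, FP.self, 0, 0, ?_⟩
    rw [Ext.mk₀_comp_mk₀, Ext.mk₀_eq_zero_iff] at hφ
    simpa using hφ
  | succ ν W' P W f g hS hP κ h =>
    rw [Ext.comp_assoc_of_third_deg_zero] at hφ
    have := h.pre_inj U 1 _ (by omega) rfl _ hφ
    obtain ⟨z, hz⟩ := hS.ex1 U (add_zero 1) (Ext.mk₀ φ) this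
    obtain ⟨ψ, rfl⟩ := (Ext.mk₀_bijective _ _).2 z
    refine ⟨_, hP, f, ψ, ?_⟩
    rw [Ext.mk₀_comp_mk₀] at hz
    exact ((Ext.mk₀_bijective _ _).1 hz).symm

lemma post_zero {ν : ℕ} {W : ModuleCat.{u} R} {κ : Ext M W ν} (h : IsSyz M ν W κ)
    {U : ModuleCat.{u} R} (φ : W ⟶ U) (hφ : κ.comp (Ext.mk₀ φ) (add_zero _) = 0)
    {N : ModuleCat.{u} R} {p : ℕ} (hN : Van N p) {n : ℕ} (hn : p < n) (e : Ext N W n) :
    e.comp (Ext.mk₀ φ) (add_zero _) = 0 := by
  obtain ⟨P, hP, i, ψ, rfl⟩ := h.factor φ hφ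
  rw [← Ext.mk₀_comp_mk₀, ← Ext.comp_assoc_of_third_deg_zero, hN n hn P hP (e.comp _ _),
    Ext.zero_comp]

lemma post_surj {ν : ℕ} {W : ModuleCat.{u} R} {κ : Ext M W ν} (h : IsSyz M ν W κ)
    {N : ModuleCat.{u} R} {p : ℕ} (hN : Van N p) (t n : ℕ) (ht : p < t) (hn : t + ν = n)
    (x : Ext N W n) : ∃ y : Ext N M t, y.comp κ hn = x := by
  induction h generalizing n with
  | zero W f hf =>
    obtain rfl : t = n := by omega
    refine ⟨x.comp (Ext.mk₀ (inv f)) (add_zero _), ?_⟩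
    simp
  | succ ν W' P W f g hS hP κ h ih =>
    obtain ⟨y, rfl⟩ := hS.co1 N (m := t + ν) (by omega) x (hN n (by omega) _ hP _)
    obtain ⟨z, rfl⟩ := ih _ rfl y
    exact ⟨z, (Ext.comp_assoc _ _ _ _ _ (by omega)).symm⟩

lemma post_inj {ν : ℕ} {W : ModuleCat.{u} R} {κ : Ext M W ν} (h : IsSyz M ν W κ)
    {N : ModuleCat.{u} R} {p : ℕ} (hN : Van N p) (t n : ℕ) (ht : p < t) (hn : t + ν = n)
    (y : Ext N M t) (hy : y.comp κ hn = 0) : y = 0 := by
  induction h generalizing n with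
  | zero W f hf =>
    obtain rfl : t = n := by omega
    have : (y.comp (Ext.mk₀ f) (add_zero _)).comp (Ext.mk₀ (inv f)) (add_zero _) = y := by simp
    rw [← this, hy, Ext.zero_comp]
  | succ ν W' P W f g hS hP κ h ih =>
    rw [← Ext.comp_assoc _ _ _ (rfl : t + ν = t + ν) _ (by omega)] at hy
    obtain ⟨z, hz⟩ := hS.co3 N _ _ hy
    rw [hN _ (by omega) _ hP z, Ext.zero_comp] at hz
    exact ih _ rfl hz.symm

lemma precomp {ν : ℕ} {W : ModuleCat.{u} R} {κ : Ext M W ν} (h : IsSyz M ν W κ)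
    {M' : ModuleCat.{u} R} (θ : M' ⟶ M) (hθ : IsIso θ) :
    IsSyz M' ν W ((Ext.mk₀ θ).comp κ (zero_add _)) := by
  induction h with
  | zero W f hf =>
    rw [Ext.mk₀_comp_mk₀]
    exact IsSyz.zero _ _ inferInstance
  | succ ν W' P W f g hS hP κ h ih =>
    rw [← Ext.comp_assoc _ _ _ (zero_add _) rfl (by omega)]
    exact IsSyz.succ ν _ _ _ f g hS hP _ ih

lemma map {ν : ℕ} {W : ModuleCat.{u} R} {κ : Ext M W ν} (h : IsSyz M ν W κ)
    {S : Type u} [Ring S] (G : ModuleCat.{u} R ⥤ ModuleCat.{u} S) [G.Additive]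
    [PreservesFiniteLimits G] [PreservesFiniteColimits G]
    (hG : FP (G.obj (ModuleCat.of R R))) :
    IsSyz (G.obj M) ν (G.obj W) (κ.mapExactFunctor G) := by
  induction h with
  | zero W f hf =>
    rw [Ext.mapExactFunctor_mk₀]
    exact IsSyz.zero _ _ inferInstance
  | succ ν W' P W f g hS hP κ h ih =>
    rw [Ext.mapExactFunctor_comp, SE.map_cls]
    exact IsSyz.succ ν _ _ _ _ _ _ (FP.map G hG hP) _ ih

end IsSyz

lemma exists_fp_cover [IsNoetherianRing R] (M : ModuleCat.{u} R) (hM : Module.Finite R M) :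
    ∃ (A P : ModuleCat.{u} R) (f : A ⟶ P) (g : P ⟶ M), SE f g ∧ FP P ∧ Module.Finite R A := by
  obtain ⟨n, f, hf⟩ := Module.Finite.exists_fin' R M
  refine ⟨_, ModuleCat.of R (Fin n → R), _, _, SE.ker (N := M) (ModuleCat.ofHom f) hf,
    ⟨?_, ?_⟩, ?_⟩
  · exact inferInstanceAs (Module.Finite R (Fin n → R))
  · exact (IsProjective.iff_projective (Fin n → R)).1 inferInstance
  · exact inferInstanceAs (Module.Finite R (LinearMap.ker f))

lemma exists_isSyz [IsNoetherianRing R] (M : ModuleCat.{u} R) (hM : Module.Finite R M) (ν : ℕ) :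
    ∃ (W : ModuleCat.{u} R) (κ : Ext M W ν), IsSyz M ν W κ ∧ Module.Finite R W := by
  induction ν with
  | zero => exact ⟨M, _, IsSyz.zero M (𝟙 M) inferInstance, hM⟩
  | succ ν ih =>
    obtain ⟨W, κ, h, hW⟩ := ih
    obtain ⟨A, P, f, g, hS, hP, h1⟩ := exists_fp_cover W hW
    exact ⟨_, _, IsSyz.succ ν _ _ _ f g hS hP κ h, h1⟩

section functor

variable {S : Type u} [Ring S]

lemma mapExt_natTrans (G G' : ModuleCat.{u} R ⥤ ModuleCat.{u} S) [G.Additive]
    [PreservesFiniteLimits G] [PreservesFiniteColimits G] [G'.Additive]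
    [PreservesFiniteLimits G'] [PreservesFiniteColimits G'] (τ : G ⟶ G')
    {M W : ModuleCat.{u} R} {n : ℕ} (e : Ext M W n) :
    (e.mapExactFunctor G).comp (Ext.mk₀ (τ.app W)) (add_zero _) =
      (Ext.mk₀ (τ.app M)).comp (e.mapExactFunctor G') (zero_add _) := by
  induction n generalizing M with
  | zero =>
    obtain ⟨f, rfl⟩ := (Ext.mk₀_bijective _ _).2 e
    simp only [Ext.mapExactFunctor_mk₀, Ext.mk₀_comp_mk₀, τ.naturality]
  | succ n ih =>
    obtain ⟨A, P, f, g, hS, hP⟩ : ∃ (A P : ModuleCat.{u} R) (f : A ⟶ P) (g : P ⟶ M),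
        SE f g ∧ Projective P :=
      ⟨_, _, _, Projective.π M, SE.ker _ ((ModuleCat.epi_iff_surjective _).1 (Projective.π_epi M)),
        Projective.projective_over M⟩
    obtain ⟨y, rfl⟩ := hS.delta_surj W (add_comm 1 n) (fun e => e.eq_zero_of_projective) e
    rw [Ext.mapExactFunctor_comp, Ext.mapExactFunctor_comp, SE.map_cls, SE.map_cls,
      Ext.comp_assoc_of_third_deg_zero, ih]
    exact SE.cls_nat' _ _ _ (τ.app P) _ (τ.naturality f).symm (τ.naturality g).symm _ _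

variable (F : ModuleCat.{u} S ⥤ ModuleCat.{u} R)
  (G : ModuleCat.{u} R ⥤ ModuleCat.{u} S) [G.Additive]
  [PreservesFiniteLimits G] [PreservesFiniteColimits G]
  (η : ∀ M : ModuleCat.{u} S, M ⟶ G.obj (F.obj M))

/-- the change of rings map on `Ext` -/
noncomputable def flat (M : ModuleCat.{u} S) (W : ModuleCat.{u} R) (n : ℕ) :
    Ext (F.obj M) W n →+ Ext M (G.obj W) n :=
  ((Ext.mk₀ (η M)).precomp (G.obj W) (zero_add n)).comp (G.mapExtAddHom _ _ n)

lemma flat_apply {M : ModuleCat.{u} S} {W : ModuleCat.{u} R} {n : ℕ} (e : Ext (F.obj M) W n) :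
    flat F G η M W n e = (Ext.mk₀ (η M)).comp (e.mapExactFunctor G) (zero_add n) := rfl

lemma flat_mk₀ {M : ModuleCat.{u} S} {W : ModuleCat.{u} R} (f : F.obj M ⟶ W) :
    flat F G η M W 0 (Ext.mk₀ f) = Ext.mk₀ (η M ≫ G.map f) := by
  rw [flat_apply, Ext.mapExactFunctor_mk₀]
  exact Ext.mk₀_comp_mk₀ _ _

lemma flat_comp {M : ModuleCat.{u} S} {W W' : ModuleCat.{u} R} {n m l : ℕ}
    (e : Ext (F.obj M) W n) (e' : Ext W W' m) (h : n + m = l) :
    flat F G η M W' l (e.comp e' h) =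
      (flat F G η M W n e).comp (e'.mapExactFunctor G) h := by
  rw [flat_apply, flat_apply, Ext.mapExactFunctor_comp]
  exact (Ext.comp_assoc _ _ _ _ _ (by omega)).symm

variable (hη : ∀ ⦃M M' : ModuleCat.{u} S⦄ (f : M ⟶ M'), η M ≫ G.map (F.map f) = f ≫ η M')

include hη

lemma flat_map_comp {M M' : ModuleCat.{u} S} {W : ModuleCat.{u} R} {n : ℕ} (f : M' ⟶ M)
    (e : Ext (F.obj M) W n) :
    flat F G η M' W n ((Ext.mk₀ (F.map f)).comp e (zero_add n)) =
      (Ext.mk₀ f).comp (flat F G η M W n e) (zero_add n) := by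
  rw [flat_apply, flat_apply, Ext.mapExactFunctor_comp, Ext.mapExactFunctor_mk₀,
    Ext.mk₀_comp_mk₀_assoc, Ext.mk₀_comp_mk₀_assoc, hη]

lemma flat_cls_comp (hF : Exa F) {A B C : ModuleCat.{u} S} {f : A ⟶ B} {g : B ⟶ C} (hT : SE f g)
    {W : ModuleCat.{u} R} {m n : ℕ} (h : 1 + m = n) (e : Ext (F.obj A) W m) :
    flat F G η C W n ((hF hT).cls.comp e h) = hT.cls.comp (flat F G η A W m e) h := by
  rw [flat_apply, flat_apply, Ext.mapExactFunctor_comp, SE.map_cls]
  exact (SE.cls_nat' _ _ _ (η B) _ (hη f) (hη g) _ _).symm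

variable [F.Additive]

lemma flat_zero_bij_fp
    (h0 : ∀ W, Function.Bijective (flat F G η (ModuleCat.of S S) W 0))
    {M : ModuleCat.{u} S} (hM : FP M) (W : ModuleCat.{u} R) :
    Function.Bijective (flat F G η M W 0) := by
  refine FP.induction (Q := fun M => Function.Bijective (flat F G η M W 0)) (h0 W) ?_ M hM
  intro A B C i1 i2 p1 p2 h hA hB
  have hF : F.map p1 ≫ F.map i1 + F.map p2 ≫ F.map i2 = 𝟙 _ := by
    rw [← F.map_comp, ← F.map_comp, ← F.map_add, h, F.map_id]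
  constructor
  · rw [injective_iff_map_eq_zero]
    intro e he
    have h1 : (Ext.mk₀ (F.map i1)).comp e (zero_add 0) = 0 := by
      apply (injective_iff_map_eq_zero _).1 hA.1
      rw [flat_map_comp F G η hη, he, Ext.comp_zero]
    have h2 : (Ext.mk₀ (F.map i2)).comp e (zero_add 0) = 0 := by
      apply (injective_iff_map_eq_zero _).1 hB.1
      rw [flat_map_comp F G η hη, he, Ext.comp_zero]
    rw [← e.mk₀_id_comp, ← hF, Ext.mk₀_add, Ext.add_comp, ← Ext.mk₀_comp_mk₀_assoc,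
      ← Ext.mk₀_comp_mk₀_assoc, h1, h2]
    simp
  · intro y
    obtain ⟨e1, h1⟩ := hA.2 ((Ext.mk₀ i1).comp y (zero_add 0))
    obtain ⟨e2, h2⟩ := hB.2 ((Ext.mk₀ i2).comp y (zero_add 0))
    refine ⟨(Ext.mk₀ (F.map p1)).comp e1 (zero_add 0) +
      (Ext.mk₀ (F.map p2)).comp e2 (zero_add 0), ?_⟩
    rw [map_add, flat_map_comp F G η hη, flat_map_comp F G η hη, h1, h2, Ext.mk₀_comp_mk₀_assoc,
      Ext.mk₀_comp_mk₀_assoc, ← Ext.add_comp, ← Ext.mk₀_add, h, Ext.mk₀_id_comp]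

lemma flat_zero_inj [IsNoetherianRing S] (hF : Exa F)
    (h0 : ∀ W, Function.Bijective (flat F G η (ModuleCat.of S S) W 0))
    {M : ModuleCat.{u} S} (hM : Module.Finite S M) (W : ModuleCat.{u} R) :
    Function.Injective (flat F G η M W 0) := by
  obtain ⟨A, P, f, g, hT, hP, -⟩ := exists_fp_cover M hM
  rw [injective_iff_map_eq_zero]
  intro e he
  have h1 : (Ext.mk₀ (F.map g)).comp e (zero_add 0) = 0 := by
    apply (injective_iff_map_eq_zero _).1 (flat_zero_bij_fp F G η hη h0 hP W).1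
    rw [flat_map_comp F G η hη, he, Ext.comp_zero]
  exact (hF hT).g_inj0 e h1

theorem flat_bij [IsNoetherianRing S] (hF : Exa F) (hFP : FP (F.obj (ModuleCat.of S S)))
    (h0 : ∀ W, Function.Bijective (flat F G η (ModuleCat.of S S) W 0))
    (W : ModuleCat.{u} R) (n : ℕ) {M : ModuleCat.{u} S} (hM : Module.Finite S M) :
    Function.Bijective (flat F G η M W n) := by
  induction n generalizing M with
  | zero =>
    refine ⟨flat_zero_inj F G η hη hF h0 hM W, fun y => ?_⟩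
    obtain ⟨A, P, f, g, hT, hP, h1⟩ := exists_fp_cover M hM
    obtain ⟨e, he⟩ := (flat_zero_bij_fp F G η hη h0 hP W).2 ((Ext.mk₀ g).comp y (zero_add 0))
    have h2 : (Ext.mk₀ (F.map f)).comp e (zero_add 0) = 0 := by
      apply (injective_iff_map_eq_zero _).1 (flat_zero_inj F G η hη hF h0 h1 W)
      rw [flat_map_comp F G η hη, he, hT.f_g]
    obtain ⟨z, rfl⟩ := (hF hT).ex2 W e h2
    refine ⟨z, ?_⟩
    rw [flat_map_comp F G η hη] at he
    rw [← sub_eq_zero]
    apply hT.g_inj0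
    rw [sub_eq_add_neg, Ext.comp_add, Ext.comp_neg, he, add_neg_cancel]
  | succ n ih =>
    obtain ⟨A, P, f, g, hT, hP, h1⟩ := exists_fp_cover M hM
    have hFP2 : Projective (F.obj P) := (FP.map F hFP hP).2
    constructor
    · rw [injective_iff_map_eq_zero]
      intro e he
      obtain ⟨y, rfl⟩ := (hF hT).delta_surj W (add_comm 1 n)
        (ext_zero_of_proj hFP2 (by omega)) e
      rw [flat_cls_comp F G η hη hF hT] at he
      obtain ⟨z, hz⟩ := hT.ex1 _ _ _ he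
      obtain ⟨z', rfl⟩ := (ih hP.1).2 z
      rw [← flat_map_comp F G η hη] at hz
      rw [← (ih h1).1 hz]
      exact (hF hT).cls_f _ _
    · intro x
      obtain ⟨y, rfl⟩ := hT.delta_surj (G.obj W) (add_comm 1 n)
        (ext_zero_of_proj hP.2 (by omega)) x
      obtain ⟨z, rfl⟩ := (ih h1).2 y
      exact ⟨_, flat_cls_comp F G η hη hF hT _ z⟩

end functor

end Vale.Agent.AR
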