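import Vale.Agent.P195.Basic
import Mathlib.CategoryTheory.Linear.LinearFunctor

/-! Corner functors `W ↦ e W`. -/

open CategoryTheory Abelian Limits

universe u

set_option backward.isDefEq.respectTransparency false

namespace Vale.Agent.AR

lemma smul_hom_apply {k : Type u} [Field k] {R : Type u} [Ring R] [Algebra k R]
    {M N : ModuleCat.{u} R} (c : k) (f : M ⟶ N) (x : M) :
    (c • f).hom x = algebraMap k R c • f.hom x := rfl

variable {D R : Type u} [Ring D] [Ring R] (ι : D →ₙ+* R)

/-- the subgroup `e W` -/
def corSub (W : ModuleCat.{u} R) : AddSubgroup W where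
  carrier := {w | ι 1 • w = w}
  add_mem' := fun {a b} ha hb => by
    simp only [Set.mem_ofPred_eq] at ha hb ⊢
    rw [smul_add, ha, hb]
  zero_mem' := by simp
  neg_mem' := fun {a} ha => by
    simp only [Set.mem_ofPred_eq] at ha ⊢
    rw [smul_neg, ha]

/-- the corner `e W` -/
def Cor (W : ModuleCat.{u} R) : Type u := corSub ι W

namespace Cor

variable {ι} {W : ModuleCat.{u} R}

instance : AddCommGroup (Cor ι W) := inferInstanceAs (AddCommGroup (corSub ι W))

/-- underlying element -/
def val (w : Cor ι W) : W := Subtype.val w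

/-- constructor -/
def mk (w : W) (h : ι 1 • w = w) : Cor ι W := Subtype.mk w h

@[simp] lemma val_mk (w : W) (h : ι 1 • w = w) : (mk w h : Cor ι W).val = w := rfl

@[simp] lemma prop (w : Cor ι W) : ι 1 • w.val = w.val := Subtype.prop w

@[ext] lemma ext {a b : Cor ι W} (h : a.val = b.val) : a = b := Subtype.ext h

@[simp] lemma val_add (a b : Cor ι W) : (a + b).val = a.val + b.val := rfl
@[simp] lemma val_zero : (0 : Cor ι W).val = 0 := rfl
@[simp] lemma val_neg (a : Cor ι W) : (-a).val = -a.val := rfl
@[simp] lemma val_sub (a b : Cor ι W) : (a - b).val = a.val - b.val := rfl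

instance : SMul D (Cor ι W) where
  smul d w := mk (ι d • w.val) (by rw [smul_smul, ← map_mul, one_mul])

@[simp] lemma val_smul (d : D) (a : Cor ι W) : (d • a).val = ι d • a.val := rfl

instance : Module D (Cor ι W) where
  one_smul w := by ext; simp
  mul_smul a b w := by ext; simp [mul_smul]
  smul_zero a := by ext; simp
  smul_add a b c := by ext; simp
  add_smul a b c := by ext; simp [add_smul]
  zero_smul a := by ext; simp

variable (ι W) in
/-- projection onto the corner -/
def proj : W →+ Cor ι W where
  toFun w := mk (ι 1 • w) (by rw [smul_smul, ← map_mul, one_mul])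
  map_zero' := by ext; simp
  map_add' a b := by ext; simp

@[simp] lemma val_proj (w : W) : (proj ι W w).val = ι 1 • w := rfl

end Cor

/-- the corner functor -/
def cor : ModuleCat.{u} R ⥤ ModuleCat.{u} D where
  obj W := ModuleCat.of D (Cor ι W)
  map {W W'} f := ModuleCat.ofHom
    { toFun := fun w => Cor.mk (f.hom w.val) (by rw [← map_smul, Cor.prop])
      map_add' := fun a b => by ext; simp
      map_smul' := fun a b => by ext; simp }

@[simp] lemma cor_map_val {W W' : ModuleCat.{u} R} (f : W ⟶ W') (w : Cor ι W) :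
    Cor.val (ι := ι) (((cor ι).map f).hom w) = f.hom w.val := rfl

instance : (cor ι).Additive where
  map_add := by
    intro W W' f g
    apply ModuleCat.hom_ext
    apply LinearMap.ext
    intro w
    rfl

lemma cor_exa : Exa (cor ι) := by
  intro A B C f g h
  refine ⟨fun a b hab => ?_, fun b => ⟨fun hb => ?_, ?_⟩, fun c => ?_⟩
  · apply Cor.ext
    exact h.inj (congrArg Cor.val hab)
  · obtain ⟨a, ha⟩ := (h.exa (Cor.val b)).1 (congrArg Cor.val hb)
    refine ⟨Cor.proj ι A a, Cor.ext ?_⟩
    rw [cor_map_val, Cor.val_proj, map_smul, ha, Cor.prop]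
  · rintro ⟨a, rfl⟩
    apply Cor.ext
    exact h.exa.apply_apply_eq_zero _
  · obtain ⟨b, hb⟩ := h.surj (Cor.val c)
    refine ⟨Cor.proj ι B b, Cor.ext ?_⟩
    rw [cor_map_val, Cor.val_proj, map_smul, hb, Cor.prop]

instance : PreservesFiniteLimits (cor ι) := (cor_exa ι).lim_colim.1
instance : PreservesFiniteColimits (cor ι) := (cor_exa ι).lim_colim.2

/-- natural transformation given by an element -/
def corMul (ι' : D →ₙ+* R) (γ : R) (h : ∀ d, γ * ι d = ι' d * γ) : cor ι ⟶ cor ι' where
  app W := ModuleCat.ofHom
    { toFun := fun w : Cor ι W => (Cor.mk (γ • w.val) (by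
        rw [smul_smul, ← h, mul_smul, Cor.prop]) : Cor ι' W)
      map_add' := fun a b => by ext; simp
      map_smul' := fun a b => by ext; simp [smul_smul, h] }
  naturality W W' f := by
    apply ModuleCat.hom_ext
    apply LinearMap.ext
    intro w
    apply Cor.ext
    exact (map_smul f.hom γ _).symm

@[simp] lemma corMul_val (ι' : D →ₙ+* R) (γ : R) (h : ∀ d, γ * ι d = ι' d * γ)
    (W : ModuleCat.{u} R) (w : Cor ι W) :
    Cor.val (ι := ι') (((corMul ι ι' γ h).app W).hom w) = γ • w.val := rfl

lemma cor_linear (k : Type u) [Field k] [Algebra k D] [Algebra k R]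
    (h : ∀ c : k, ι (algebraMap k D c) = algebraMap k R c * ι 1) : (cor ι).Linear k where
  map_smul := by
    intro W W' f c
    apply ModuleCat.hom_ext
    apply LinearMap.ext
    intro w
    apply Cor.ext
    change algebraMap k R c • f.hom (Cor.val w) = ι (algebraMap k D c) • f.hom (Cor.val w)
    rw [h, mul_smul, ← map_smul f.hom (ι 1), Cor.prop]

end Vale.Agent.AR
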