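import Vale.Agent.P195.Special

/-! Assembly of the counterexample. -/

open CategoryTheory Abelian Limits

universe u

set_option backward.isDefEq.respectTransparency false

namespace Vale.Agent.AR

variable {k : Type u} [Field k]

lemma pre_iso_surj {R : Type u} [Ring R] {A B U : ModuleCat.{u} R} (θ : A ⟶ B) (hθ : IsIso θ)
    {n : ℕ} (y : Ext A U n) : ∃ z : Ext B U n, (Ext.mk₀ θ).comp z (zero_add n) = y :=
  ⟨(Ext.mk₀ (inv θ)).comp y (zero_add n), by simp⟩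

lemma pre_iso_inj {R : Type u} [Ring R] {A B U : ModuleCat.{u} R} (θ : A ⟶ B) (hθ : IsIso θ)
    {n : ℕ} (z : Ext B U n) (hz : (Ext.mk₀ θ).comp z (zero_add n) = 0) : z = 0 := by
  have : z = (Ext.mk₀ (inv θ)).comp ((Ext.mk₀ θ).comp z (zero_add n)) (zero_add n) := by simp
  rw [this, hz, Ext.comp_zero]

variable {D : Type u} [Ring D] [Algebra k D]

lemma finite_Z0 : Module.Finite D (Z0 D) := inferInstanceAs (Module.Finite D PUnit)

lemma finite_prod {A B : ModuleCat.{u} D} (hA : Module.Finite D A) (hB : Module.Finite D B) :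
    Module.Finite D (ModuleCat.of D (A × B)) := inferInstanceAs (Module.Finite D (A × B))

lemma isIso_ng2 (δ : Dat k D) (N : ModuleCat.{u} D) : IsIso ((ng2 δ).app (Zr δ N).real) := by
  have h1 := Rep.isIso_ofX (Zr δ N)
  have h2 := Rep.isIso_ofY (Zr δ N)
  have h3 : IsIso ((Zr δ N).ofX ≫ (ng2 δ).app (Zr δ N).real) := by
    rw [ofX_ng2]
    exact ⟨-(Zr δ N).toY, by simp [Rep.ofY_toY], by simp [Rep.toY_ofY]⟩
  exact IsIso.of_isIso_comp_left (Zr δ N).ofX _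

section step

variable [Module.Finite k D] [IsNoetherianRing D] {δ : Dat k D} {N : ModuleCat.{u} D} {p : ℕ}

omit [IsNoetherianRing D] in
lemma Hyp.fin_Z (H : Hyp δ N p) : Module.Finite (Lam δ) (Zr δ N).real :=
  Rep.finite_real _ H.fin finite_Z0 H.fin

omit [IsNoetherianRing D] [Module.Finite k D] in
lemma Hyp.nz_Z (H : Hyp δ N p) : 𝟙 (Zr δ N).real ≠ 0 := by
  intro h
  apply H.nz
  refine ModuleCat.hom_ext (LinearMap.ext fun w => ?_)
  exact congrArg (fun f : (Zr δ N).real ⟶ (Zr δ N).real => (f.hom ⟨w, 0, 0⟩).x) h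

lemma Hyp.next (H : Hyp δ N p) (ha : IsIso (δ.a N)) (ε : Dat k (Lam δ)) (h0 : ε.lam = δ.lam)
    (h1 : Module.Finite (Lam δ) (ε.F.obj (Zr δ N).real)) (h2 : Exa ε.F) (h3 : FP ε.L)
    (h4 : Van (ε.F.obj (Zr δ N).real) (p + 2)) : Hyp ε (Zr δ N).real (p + 2) :=
  ⟨h0 ▸ H.l0, h0 ▸ H.hl, H.fin_Z, h1, h2, h3, H.nz_Z, H.endo_Z, H.self_Z ha, H.van_Z, h4⟩

end step

section nonvanishing

variable {δ : Dat k D} (hl : δ.lam ≠ 0) {ε : Dat k (Lam δ)}

lemma sp_c3 {N W : ModuleCat.{u} (Lam ε)} {ν : ℕ} (hν : 2 ≤ ν) (κ : Ext N W ν)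
    (hfp : FP (δ.F.obj ((GX δ).obj (ε.F.obj ((GX ε).obj N)))))
    (h0 : (Ext.mk₀ ((aL δ hl ε).app N)).comp κ (zero_add ν) = 0)
    (yt : Ext ((TY ε).obj ((Cf δ).obj (ε.F.obj ((GX ε).obj N)))) W ν)
    (h1 : (Ext.mk₀ ((pJT δ ε).app N)).comp yt (zero_add ν) =
      (Ext.mk₀ ((aJT δ hl ε).app N)).comp ((Ext.mk₀ ((mu ε).app N)).comp κ (zero_add ν))
        (zero_add ν)) : (Ext.mk₀ ((c3 δ hl ε).app N)).comp yt (zero_add ν) = 0 := by
  have h2 : (Ext.mk₀ ((bL δ hl ε).app N)).comp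
      ((Ext.mk₀ ((c3 δ hl ε).app N)).comp yt (zero_add ν)) (zero_add ν) = 0 := by
    rw [← h0]
    refine (pre_pre (pb_comm (pJT δ ε) (c3 δ hl ε) N).symm yt).trans ?_
    rw [h1, Ext.mk₀_comp_mk₀_assoc, Ext.mk₀_comp_mk₀_assoc, Category.assoc]
    rfl
  obtain ⟨Q, j, hQ, hj⟩ := bL_se δ hl ε N hfp
  obtain ⟨z, hz⟩ := hj.ex3 W (m := ν - 1) (by omega) _ h2
  rw [← hz, ext_zero_of_proj hQ.2 (by omega) z, Ext.comp_zero]

lemma sp_chain {N W : ModuleCat.{u} (Lam ε)} {ν : ℕ}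
    (yt : Ext ((TY ε).obj ((Cf δ).obj (ε.F.obj ((GX ε).obj N)))) W ν)
    (h3 : (Ext.mk₀ ((c3 δ hl ε).app N)).comp yt (zero_add ν) = 0) :
    ((nseFl ε).se N).cls.comp ((seV ε ((GX ε).obj N)).cls.comp
      ((TY_exa ε ((nseSh δ hl).se (ε.F.obj ((GX ε).obj N)))).cls.comp yt (add_comm 1 ν))
      (add_comm 1 (ν + 1))) (add_comm 1 (ν + 1 + 1)) = 0 := by
  have h4 := (E3 δ hl ε).step_cls (c2 δ ε) N (add_comm 1 ν) yt
  have h3' : (Ext.mk₀ (((E3 δ hl ε).step (c2 δ ε)).app N)).comp yt (zero_add ν) = 0 := h3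
  rw [h3', Ext.comp_zero] at h4
  have h5 := ((nseV ε).pre (GX ε)).step_cls (c1 δ ε) N (add_comm 1 (ν + 1))
    (((E3 δ hl ε).se N).cls.comp yt (add_comm 1 ν))
  have h4' : (Ext.mk₀ ((((nseV ε).pre (GX ε)).step (c1 δ ε)).app N)).comp
    (((E3 δ hl ε).se N).cls.comp yt (add_comm 1 ν)) (zero_add _) = 0 := h4.symm
  rw [h4', Ext.comp_zero] at h5
  have h6 := (nseFl ε).step_cls (𝟙 _) N (add_comm 1 (ν + 1 + 1))
    ((((nseV ε).pre (GX ε)).se N).cls.comp (((E3 δ hl ε).se N).cls.comp yt (add_comm 1 ν))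
      (add_comm 1 (ν + 1)))
  have h5' : (Ext.mk₀ (((nseFl ε).step (𝟙 _)).app N)).comp
    ((((nseV ε).pre (GX ε)).se N).cls.comp (((E3 δ hl ε).se N).cls.comp yt (add_comm 1 ν))
      (add_comm 1 (ν + 1))) (zero_add _) = 0 := h5.symm
  rw [h5', Ext.comp_zero] at h6
  exact (Ext.mk₀_id_comp _).symm.trans h6.symm

variable [Module.Finite k D] [Module.Finite k (Lam δ)] [IsNoetherianRing (Lam δ)]

lemma sp_key {N : ModuleCat.{u} (Lam δ)} {q : ℕ} (H2 : Hyp ε N q)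
    (hfp : FP (δ.F.obj ((GX δ).obj (ε.F.obj ((GX ε).obj (Zr ε N).real)))))
    {W : ModuleCat.{u} (Lam ε)} {ν : ℕ} {κ : Ext (Zr ε N).real W ν}
    (h : IsSyz _ ν W κ) (hq : q + 2 ≤ ν)
    (h0 : (Ext.mk₀ ((aL δ hl ε).app (Zr ε N).real)).comp κ (zero_add ν) = 0) :
    ∃ y : Ext ((Cf δ).obj (ε.F.obj ((GX ε).obj (Zr ε N).real))) ((GY ε).obj W) ν,
      (Ext.mk₀ ((Jpn δ).app _)).comp y (zero_add ν) =
      (Ext.mk₀ ((Jan δ hl).app _)).comp ((Ext.mk₀ (ε.a _ ≫ (ng2 ε).app (Zr ε N).real)).comp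
        (κ.mapExactFunctor (GY ε)) (zero_add ν)) (zero_add ν) ∧
      ((nseSh δ hl).se _).cls.comp y (add_comm 1 ν) = 0 := by
  have finM : Module.Finite (Lam δ) (ε.F.obj ((GX ε).obj (Zr ε N).real)) :=
    H2.exa.finite H2.fpL ((cor_exa _).finite (fp_GX ε) H2.fin_Z)
  have finX := (cor_exa _).finite (fp_GX δ) finM
  have finC : Module.Finite (Lam δ) ((Cf δ).obj (ε.F.obj ((GX ε).obj (Zr ε N).real))) :=
    Rep.finite_real _ finite_Z0 finX finX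
  have finJ : Module.Finite (Lam δ) ((Jf δ).obj (ε.F.obj ((GX ε).obj (Zr ε N).real))) :=
    Rep.finite_real _ finite_Z0 finX (finite_prod (finite_prod hfp.1 hfp.1) finX)
  have hκ2 : flY ε _ W ν ((Ext.mk₀ ((mu ε).app (Zr ε N).real)).comp κ (zero_add ν)) =
      (Ext.mk₀ (ε.a _ ≫ (ng2 ε).app (Zr ε N).real)).comp
        (κ.mapExactFunctor (GY ε)) (zero_add ν) := by
    refine (flat_comp (TY ε) (GY ε) (etaY ε) _ κ (zero_add ν)).trans ?_
    rw [flat_mk₀, etaY_mu]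
  obtain ⟨y, hy⟩ := (Rep.J_se (unreal δ (ε.F.obj ((GX ε).obj (Zr ε N).real)))).ex2 ((GY ε).obj W)
    ((Ext.mk₀ ((Jan δ hl).app _)).comp ((Ext.mk₀ (ε.a _ ≫ (ng2 ε).app (Zr ε N).real)).comp
        (κ.mapExactFunctor (GY ε)) (zero_add ν)) (zero_add ν))
    (ext_zero_of_proj (FP.map (TY δ) (fp_TY δ) hfp).2 (by omega) _)
  refine ⟨y, hy, ?_⟩
  obtain ⟨yt, hyt⟩ := (flY_bij ε finC W ν).2 y
  have h3 := sp_c3 hl (by omega) κ hfp h0 yt (by
    apply (flY_bij ε finJ W ν).1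
    refine (flat_map_comp (TY ε) (GY ε) (etaY ε) (etaY_nat ε) _ yt).trans ?_
    refine Eq.trans ?_ (flat_map_comp (TY ε) (GY ε) (etaY ε) (etaY_nat ε) _ _).symm
    rw [hκ2, hyt]
    exact hy)
  have h6 := sp_chain hl yt h3
  rw [← fl_cls, ← v_cls] at h6
  have h7 := (H2.good_syz h hq).inj3 _ _ le_rfl _ h6
  have hi := Rep.isIso_ofX (Zr ε N)
  apply pre_iso_inj (ε.F.map (Zr ε N).ofX) inferInstance
  rw [← hyt, ← flat_cls_comp (TY ε) (GY ε) (etaY ε) (etaY_nat ε) (TY_exa ε)]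
  exact (flat_map_comp (TY ε) (GY ε) (etaY ε) (etaY_nat ε) _ _).symm.trans
    ((congrArg (flY ε _ W (ν + 1)) h7).trans (map_zero _))

variable [IsNoetherianRing D]

theorem sp_ne {N : ModuleCat.{u} D} {p q : ℕ} (H1 : Hyp δ N p) (H2 : Hyp ε (Zr δ N).real q)
    (ha : ∀ M, IsIso (ε.a M))
    (hfp : FP (δ.F.obj ((GX δ).obj (ε.F.obj ((GX ε).obj (Zr ε (Zr δ N).real).real)))))
    {W : ModuleCat.{u} (Lam ε)} {ν : ℕ} {κ : Ext (Zr ε (Zr δ N).real).real W ν}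
    (h : IsSyz _ ν W κ) (hp : p + 2 ≤ ν) (hq : q + 2 ≤ ν) :
    (Ext.mk₀ ((aL δ hl ε).app (Zr ε (Zr δ N).real).real)).comp κ (zero_add ν) ≠ 0 := by
  intro h0
  obtain ⟨y, hy, h8⟩ := sp_key hl H2 hfp h hq h0
  have syz2 := (h.map (GY ε) (fp_GY ε H2.fpL)).precomp
    (ε.a _ ≫ (ng2 ε).app (Zr ε (Zr δ N).real).real) (by
      have := ha ((GX ε).obj (Zr ε (Zr δ N).real).real)
      have := isIso_ng2 ε (Zr δ N).real
      infer_instance)
  have hi := Rep.isIso_ofX (Zr ε (Zr δ N).real)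
  have hi2 := ha (Zr δ N).real
  obtain ⟨a, ha⟩ := nonvanish δ hl N
    (inv (ε.a (Zr δ N).real) ≫ ε.F.map (Zr ε (Zr δ N).real).ofX) _ y hy _ h8
  exact (H1.good_syz (syz2.precomp _ inferInstance) hp).nm a ha

end nonvanishing

variable (D) in
/-- the data with the identity functor -/
def idDat (lam : k) : Dat k D where
  lam := lam
  F := 𝟭 _
  add := inferInstance
  lin c := ModuleCat.hom_ext (LinearMap.ext fun x : D => Algebra.smul_def c x)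
  a M := 𝟙 M
  a_nat _ _ f := by simp

instance (lam : k) : (idDat D lam).F.Linear k := inferInstanceAs ((𝟭 (ModuleCat.{u} D)).Linear k)

lemma idDat_iso (lam : k) (M : ModuleCat.{u} D) : IsIso ((idDat D lam).a M) :=
  inferInstanceAs (IsIso (𝟙 M))

section steps

variable [IsNoetherianRing D] {δ : Dat k D} {N : ModuleCat.{u} D} {p : ℕ} (H : Hyp δ N p)
  {W : ModuleCat.{u} (Lam δ)}

include H

lemma Hyp.one0 (hP : Projective (δ.F.obj N)) {ν : ℕ} {κ : Ext (Zr δ N).real W ν}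
    (h : IsSyz _ ν W κ) (hp : p + 3 ≤ ν) (e : Ext (Zr δ N).real W ν) : ∃ c : k, e = c • κ := by
  obtain ⟨m, rfl⟩ : ∃ m, ν = m + 1 := ⟨ν - 1, by omega⟩
  have G := H.good_syz h (by omega)
  exact G.span0 (G.sV_zero H (m := m - 1) (by omega) le_rfl (ext_zero_of_proj hP (by omega))) e

lemma Hyp.one1 (hP : Projective (δ.F.obj N)) {ν : ℕ} {κ : Ext (Zr δ N).real W ν}
    (h : IsSyz _ ν W κ) (hp : p + 2 ≤ ν) : Le1 k (Ext (Zr δ N).real W (ν + 1)) := by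
  have G := H.good_syz h hp
  exact G.le1 (G.sV_zero H (m := ν - 1) (by omega) (by omega) (ext_zero_of_proj hP (by omega)))

lemma Hyp.one2 (hP : Projective (δ.F.obj N)) {ν : ℕ} {κ : Ext (Zr δ N).real W ν}
    (h : IsSyz _ ν W κ) (hp : p + 2 ≤ ν) {n : ℕ} (hn : ν + 2 ≤ n) (e : Ext (Zr δ N).real W n) :
    e = 0 :=
  (H.good_syz h hp).zero3 H (n := n - 2) (by omega) (by omega) (ext_zero_of_proj hP (by omega)) e

lemma Hyp.two2 (ha : IsIso (δ.a N)) {ν : ℕ} {κ : Ext (Zr δ N).real W ν}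
    (h : IsSyz _ ν W κ) (hp : p + 2 ≤ ν)
    (h0 : ∀ e : Ext N ((GY δ).obj W) ν, ∃ c : k, e = c • kapY δ N κ)
    (e : Ext (Zr δ N).real W (ν + 2)) : e = 0 := by
  refine (H.good_syz h hp).zero2 H (fun y => ?_) e
  obtain ⟨z, rfl⟩ := pre_iso_surj _ ha y
  obtain ⟨c, rfl⟩ := h0 z
  exact ⟨c, Ext.comp_smul _ _ _ _⟩

lemma Hyp.two3 (ha : IsIso (δ.a N)) {ν : ℕ} {κ : Ext (Zr δ N).real W ν}
    (h : IsSyz _ ν W κ) (hp : p + 2 ≤ ν) (h0 : Le1 k (Ext N ((GY δ).obj W) (ν + 1))) :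
    Le1 k (Ext (Zr δ N).real W (ν + 3)) := by
  have h1 : Le1 k (Ext (δ.F.obj N) ((GY δ).obj W) (ν + 1)) :=
    h0.of_surj (preL k (Ext.mk₀ (δ.a N)) _ (zero_add _)).toAddMonoidHom
      (fun c x => Ext.comp_smul _ _ (zero_add _) _) (pre_iso_surj _ ha)
  have h2 : Le1 k (Ext (TYr δ (δ.F.obj N)).real W (ν + 1)) :=
    h1.of_inj (flY δ _ W (ν + 1)) (flat_smul (TY δ) (GY δ) (etaY δ))
      ((injective_iff_map_eq_zero _).1 (flY_bij δ H.finF W _).1)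
  exact h2.of_surj ((preL k (seZ δ N).cls W (by omega : 1 + (ν + 2) = ν + 3)) ∘ₗ
    (preL k (seV δ N).cls W (by omega : 1 + (ν + 1) = ν + 2))).toAddMonoidHom
    (fun c x => map_smul ((preL k (seZ δ N).cls W (by omega : 1 + (ν + 2) = ν + 3)) ∘ₗ
      (preL k (seV δ N).cls W (by omega : 1 + (ν + 1) = ν + 2))) c x)
    ((H.good_syz h hp).surj3 (by omega) (by omega) (by omega))

lemma Hyp.two4 (ha : IsIso (δ.a N)) {ν : ℕ} {κ : Ext (Zr δ N).real W ν}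
    (h : IsSyz _ ν W κ) (hp : p + 2 ≤ ν) {n m : ℕ} (hn : ν ≤ n) (hm : n + 2 = m)
    (h0 : ∀ e : Ext N ((GY δ).obj W) n, e = 0) (e : Ext (Zr δ N).real W m) : e = 0 := by
  refine (H.good_syz h hp).zero3 H hm hn (fun y => ?_) e
  obtain ⟨z, rfl⟩ := pre_iso_surj _ ha y
  rw [h0 z, Ext.comp_zero]

end steps

section three

variable [Module.Finite k D] [IsNoetherianRing D] {δ : Dat k D} {ε : Dat k (Lam δ)}
  [Module.Finite k (Lam δ)] [IsNoetherianRing (Lam δ)] [Module.Finite k (Lam ε)]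
  [IsNoetherianRing (Lam ε)] [δ.F.Linear k] [ε.F.Linear k] {N : ModuleCat.{u} D}
  (H1 : Hyp δ N 0) (H2 : Hyp ε (Zr δ N).real 2) (hP : Projective (δ.F.obj N))
  (ha : ∀ M, IsIso (ε.a M))
  (hfp : FP (δ.F.obj ((GX δ).obj (ε.F.obj ((GX ε).obj (Zr ε (Zr δ N).real).real)))))

include H1 H2 ha hfp in
lemma hyp3 : Hyp (spDat δ H1.l0 ε ε.lam) (Zr ε (Zr δ N).real).real 4 :=
  H2.next (ha _) _ rfl (finite_LL δ H1.l0 ε H2.fin_Z hfp) (LL_exa δ H1.l0 ε H1.exa H2.exa)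
    (fp_LL δ H1.l0 ε H1.fpL H2.fpL) fun n hn P hP =>
      LL_zero δ H1.l0 ε H2.fin_Z hfp (by omega) rfl (H2.van_Z _ (by omega) P hP)

section two

variable {W : ModuleCat.{u} (Lam ε)} {ν : ℕ} {κ : Ext (Zr ε (Zr δ N).real).real W ν}
  (h : IsSyz _ ν W κ) (hν : 4 ≤ ν)

include H1 H2 hP ha h hν

lemma z2_two (e : Ext (Zr ε (Zr δ N).real).real W (ν + 2)) : e = 0 :=
  H2.two2 (ha _) h hν (H1.one0 hP (isSyz_kapY _ _ κ H2.fpL h) (by omega)) e

lemma z2_three : Le1 k (Ext (Zr ε (Zr δ N).real).real W (ν + 3)) :=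
  H2.two3 (ha _) h hν (H1.one1 hP (isSyz_kapY _ _ κ H2.fpL h) (by omega))

lemma z2_four {m : ℕ} (hm : ν + 4 ≤ m) (e : Ext (Zr ε (Zr δ N).real).real W m) : e = 0 :=
  H2.two4 (ha _) h hν (n := m - 2) (by omega) (by omega)
    (H1.one2 hP (isSyz_kapY _ _ κ H2.fpL h) (by omega) (by omega)) e

end two

include H1 H2 hP ha hfp

theorem z3_zero {W : ModuleCat.{u} (Lam (spDat δ H1.l0 ε ε.lam))} {ν : ℕ}
    {κ : Ext (Zr (spDat δ H1.l0 ε ε.lam) (Zr ε (Zr δ N).real).real).real W ν}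
    (h : IsSyz _ ν W κ) (hν : 6 ≤ ν) {n : ℕ} (hn : ν < n)
    (e : Ext (Zr (spDat δ H1.l0 ε ε.lam) (Zr ε (Zr δ N).real).real).real W n) : e = 0 := by
  have H := hyp3 H1 H2 ha hfp
  have G := H.good_syz h hν
  have h' := isSyz_kapY _ _ κ H.fpL h
  have hne := sp_ne H1.l0 H1 H2 ha hfp h' (by omega) (by omega)
  obtain rfl | rfl | h3 : n = ν + 1 ∨ n = ν + 2 ∨ ν + 3 ≤ n := by omega
  · refine G.zero1 (G.sV_zero H (m := ν - 1) (by omega) (by omega) ?_) hne e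
    exact LL_zero δ H1.l0 ε H.fin hfp (m := ν + 2) (by omega) (by omega)
      (z2_two H1 H2 hP ha h' (by omega))
  · refine G.zero2 H (fun y => ?_) e
    exact LL_le1 δ H1.l0 ε H.fin hfp (m := ν + 3) (by omega) (by omega)
      (z2_three H1 H2 hP ha h' (by omega)) _ y hne
  · refine G.zero3 H (n := n - 2) (by omega) (by omega) ?_ e
    exact LL_zero δ H1.l0 ε H.fin hfp (by omega) rfl
      (z2_four H1 H2 hP ha h' (by omega) (by omega))

theorem counter_aux : ∃ (A : Type u) (_ : Ring A) (_ : Algebra k A) (_ : Module.Finite k A)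
    (M : ModuleCat.{u} A), Module.Finite A M ∧
    (∀ i, 0 < i → (∀ e : Ext M M i, e = 0) ∧ ∀ e : Ext M (ModuleCat.of A A) i, e = 0) ∧
    ¬ Projective M := by
  have H := hyp3 H1 H2 ha hfp
  have hf : Module.Finite k (Lam (spDat δ H1.l0 ε ε.lam)) := Lam.finite _ H.fpL.1
  have : IsNoetherianRing (Lam (spDat δ H1.l0 ε ε.lam)) := IsNoetherianRing.of_finite k _
  obtain ⟨W, κ, h, hW⟩ := exists_isSyz _ H.fin_Z 6
  refine ⟨_, inferInstance, inferInstance, hf, W, hW, fun i hi => ⟨fun e => ?_,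
    fun e => ?_⟩, H.not_proj h le_rfl hW⟩
  · exact h.pre_inj W i _ hi rfl e (z3_zero H1 H2 hP ha hfp h le_rfl (by omega) _)
  · exact h.pre_inj _ i _ hi rfl e (H.van_Z _ (by omega) _ FP.self _)

end three

section concrete

lemma fp_field {M : ModuleCat.{u} k} (h : Module.Finite k M) : FP M :=
  have := Module.Free.of_divisionRing k M
  ⟨h, (IsProjective.iff_projective M).1 Module.Projective.of_free⟩

variable {lam : k} (l0 : lam ≠ 0) (hl : ∀ j : ℕ, lam ^ (j + 1) ≠ 1)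

include l0 hl

lemma hyp1 : Hyp (idDat k lam) (ModuleCat.of k k) 0 := by
  refine ⟨l0, hl, FP.self.1, FP.self.1, Exa.id, FP.self, ?_, ?_,
    fun n hn => ext_zero_of_proj FP.self.2 hn, van_of_projective FP.self.2,
    van_of_projective FP.self.2⟩
  · intro h
    exact one_ne_zero (congrArg (fun f : ModuleCat.of k k ⟶ ModuleCat.of k k => f.hom 1) h)
  · intro f
    refine ⟨f.hom 1, ModuleCat.hom_ext (LinearMap.ext_ring ?_)⟩
    exact (mul_one (f.hom 1)).symm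

theorem counterexample : ∃ (A : Type u) (_ : Ring A) (_ : Algebra k A) (_ : Module.Finite k A)
    (M : ModuleCat.{u} A), Module.Finite A M ∧
    (∀ i, 0 < i → (∀ e : Ext M M i, e = 0) ∧ ∀ e : Ext M (ModuleCat.of A A) i, e = 0) ∧
    ¬ Projective M := by
  have H1 := hyp1 l0 hl
  have : Module.Finite k (Lam (idDat k lam)) := Lam.finite _ FP.self.1
  have : IsNoetherianRing (Lam (idDat k lam)) := IsNoetherianRing.of_finite k _
  have : Module.Finite k (Lam (idDat (Lam (idDat k lam)) lam)) := Lam.finite _ FP.self.1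
  have : IsNoetherianRing (Lam (idDat (Lam (idDat k lam)) lam)) := IsNoetherianRing.of_finite k _
  have H2 : Hyp (idDat (Lam (idDat k lam)) lam) _ 2 :=
    H1.next (idDat_iso _ _) _ rfl H1.fin_Z Exa.id FP.self H1.van_Z
  exact counter_aux H1 H2 FP.self.2 (idDat_iso _) (fp_field (H1.exa.finite H1.fpL
    ((cor_exa _).finite (fp_GX _) (H2.exa.finite H2.fpL ((cor_exa _).finite (fp_GX _) H2.fin_Z)))))

end concrete

end Vale.Agent.AR
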