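import Vale.Agent.P195.Base

/-! The main step: cohomology of the main module with coefficients in its syzygies. -/

open CategoryTheory Abelian Limits

universe u

set_option backward.isDefEq.respectTransparency false

namespace Vale.Agent.AR

variable {k : Type u} [Field k]

/-- dimension at most one -/
def Le1 (k : Type u) [Field k] (V : Type u) [AddCommGroup V] [Module k V] : Prop :=
  ∀ a b : V, a ≠ 0 → ∃ c : k, b = c • a

lemma Le1.of_span {V : Type u} [AddCommGroup V] [Module k V] (v : V)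
    (h : ∀ b, ∃ c : k, b = c • v) : Le1 k V := by
  intro a b ha
  obtain ⟨c, rfl⟩ := h a
  obtain ⟨d, rfl⟩ := h b
  have hc : c ≠ 0 := fun h => ha (by rw [h, zero_smul])
  exact ⟨d * c⁻¹, by rw [smul_smul, mul_assoc, inv_mul_cancel₀ hc, mul_one]⟩

lemma Le1.of_inj {V V' : Type u} [AddCommGroup V] [Module k V] [AddCommGroup V'] [Module k V']
    (h : Le1 k V) (f : V' →+ V) (hf : ∀ (c : k) x, f (c • x) = c • f x)
    (hi : ∀ x, f x = 0 → x = 0) : Le1 k V' := by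
  intro a b ha
  obtain ⟨c, hc⟩ := h (f a) (f b) (fun h => ha (hi a h))
  refine ⟨c, sub_eq_zero.1 (hi _ ?_)⟩
  rw [map_sub, hf, hc, sub_self]

lemma Le1.of_surj {V V' : Type u} [AddCommGroup V] [Module k V] [AddCommGroup V'] [Module k V']
    (h : Le1 k V) (f : V →+ V') (hf : ∀ (c : k) x, f (c • x) = c • f x)
    (hs : ∀ y, ∃ x, f x = y) : Le1 k V' := by
  intro a b ha
  obtain ⟨a, rfl⟩ := hs a
  obtain ⟨b, rfl⟩ := hs b
  obtain ⟨c, rfl⟩ := h a b (fun h => ha (by rw [h, map_zero]))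
  exact ⟨c, hf c a⟩

section general

variable {R : Type u} [Ring R]

lemma IsSyz.post_bij {N A B : ModuleCat.{u} R} {ν : ℕ} {κA : Ext N A ν} {κB : Ext N B ν}
    (hA : IsSyz N ν A κA) (hB : IsSyz N ν B κB) (g : A ⟶ B)
    (hg : κA.comp (Ext.mk₀ g) (add_zero ν) = κB) {N' : ModuleCat.{u} R} {p n : ℕ}
    (hN : Van N' p) (hn : p < n) :
    Function.Bijective (fun e : Ext N' A n => e.comp (Ext.mk₀ g) (add_zero n)) := by
  obtain ⟨y, hy⟩ := hB.pre_surj A 0 ν (add_zero ν) κA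
  obtain ⟨ψ, rfl⟩ := (Ext.mk₀_bijective _ _).2 y
  have h1 : ∀ e : Ext N' A n,
      (e.comp (Ext.mk₀ g) (add_zero n)).comp (Ext.mk₀ ψ) (add_zero n) = e := by
    intro e
    have := hA.post_zero (g ≫ ψ + -𝟙 A) (by
      rw [Ext.mk₀_add, Ext.mk₀_neg, Ext.comp_add, Ext.comp_neg, ← Ext.mk₀_comp_mk₀,
        ← Ext.comp_assoc_of_third_deg_zero, hg, hy, Ext.comp_mk₀_id, add_neg_cancel]) hN hn e
    rwa [Ext.mk₀_add, Ext.mk₀_neg, Ext.comp_add, Ext.comp_neg, ← Ext.mk₀_comp_mk₀,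
      ← Ext.comp_assoc_of_third_deg_zero, Ext.comp_mk₀_id, add_neg_eq_zero] at this
  have h2 : ∀ e : Ext N' B n,
      (e.comp (Ext.mk₀ ψ) (add_zero n)).comp (Ext.mk₀ g) (add_zero n) = e := by
    intro e
    have := hB.post_zero (ψ ≫ g + -𝟙 B) (by
      rw [Ext.mk₀_add, Ext.mk₀_neg, Ext.comp_add, Ext.comp_neg, ← Ext.mk₀_comp_mk₀,
        ← Ext.comp_assoc_of_third_deg_zero, hy, hg, Ext.comp_mk₀_id, add_neg_cancel]) hN hn e
    rwa [Ext.mk₀_add, Ext.mk₀_neg, Ext.comp_add, Ext.comp_neg, ← Ext.mk₀_comp_mk₀,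
      ← Ext.comp_assoc_of_third_deg_zero, Ext.comp_mk₀_id, add_neg_eq_zero] at this
  exact ⟨Function.LeftInverse.injective
    (g := fun e : Ext N' B n => e.comp (Ext.mk₀ ψ) (add_zero n)) h1,
    fun e => ⟨_, h2 e⟩⟩

end general

variable {D : Type u} [Ring D] [Algebra k D] (δ : Dat k D) (N : ModuleCat.{u} D)

section defs

variable {W : ModuleCat.{u} (Lam δ)} {ν : ℕ} (κ : Ext (Zr δ N).real W ν)

/-- restriction to `jX` -/
noncomputable def kX : Ext (jXr δ N).real W ν := (Ext.mk₀ (pX δ N)).comp κ (zero_add ν)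
/-- restriction to `iY` -/
noncomputable def kY : Ext (iYr δ N).real W ν := (Ext.mk₀ (ioY δ N).real).comp κ (zero_add ν)
/-- the class at the vertex `X` -/
noncomputable def kapX : Ext N ((GX δ).obj W) ν :=
  (Ext.mk₀ (Zr δ N).ofX).comp (κ.mapExactFunctor (GX δ)) (zero_add ν)
/-- the class at the vertex `Y` -/
noncomputable def kapY : Ext N ((GY δ).obj W) ν :=
  (Ext.mk₀ (Zr δ N).ofY).comp (κ.mapExactFunctor (GY δ)) (zero_add ν)

lemma gam1_kX : (Ext.mk₀ (gam1 δ N).real).comp (kX δ N κ) (zero_add ν) = kY δ N κ := by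
  rw [kX, Ext.mk₀_comp_mk₀_assoc, gam1_pX, kY]

lemma gam2_kX : (Ext.mk₀ (gam2 δ N).real).comp (kX δ N κ) (zero_add ν) = -kY δ N κ := by
  rw [kX, Ext.mk₀_comp_mk₀_assoc, gam2_pX, kY, Ext.mk₀_neg, Ext.neg_comp]

lemma kapX_g1 : (kapX δ N κ).comp (Ext.mk₀ ((ng1 δ).app W)) (add_zero ν) = kapY δ N κ := by
  rw [kapX, Ext.comp_assoc_of_third_deg_zero, mapExt_natTrans, Ext.mk₀_comp_mk₀_assoc, ofX_ng1,
    kapY]

lemma kapX_g2 : (kapX δ N κ).comp (Ext.mk₀ ((ng2 δ).app W)) (add_zero ν) = -kapY δ N κ := by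
  rw [kapX, Ext.comp_assoc_of_third_deg_zero, mapExt_natTrans, Ext.mk₀_comp_mk₀_assoc, ofX_ng2,
    kapY, Ext.mk₀_neg, Ext.neg_comp]

lemma flY_abar : flY δ (δ.F.obj N) W ν ((Ext.mk₀ (abar δ N).real).comp (kY δ N κ) (zero_add ν)) =
    (Ext.mk₀ (δ.a N)).comp (kapY δ N κ) (zero_add ν) := by
  rw [kY, kapY, Ext.mk₀_comp_mk₀_assoc, Ext.mk₀_comp_mk₀_assoc]
  refine (flat_comp (TY δ) (GY δ) (etaY δ) _ κ (zero_add ν)).trans ?_
  rw [flat_mk₀]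
  congr 2

lemma isSyz_kapX (h : IsSyz _ ν W κ) : IsSyz N ν _ (kapX δ N κ) :=
  (h.map (GX δ) (fp_GX δ)).precomp _ (Rep.isIso_ofX _)

lemma isSyz_kapY (hL : FP δ.L) (h : IsSyz _ ν W κ) : IsSyz N ν _ (kapY δ N κ) :=
  (h.map (GY δ) (fp_GY δ hL)).precomp _ (Rep.isIso_ofY _)

/-- the outcome of the weight argument -/
structure Good : Prop where
  zb : ∀ n, ν + 2 ≤ n → ∀ e : Ext (Zbr δ N).real W n, e = 0
  zb1 : ∀ e : Ext (Zbr δ N).real W (ν + 1),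
    ∃ c : k, e = c • (seB δ N).cls.comp (kY δ N κ) (add_comm 1 ν)
  zb0 : ∀ e : Ext (Zbr δ N).real W ν, ∃ c : k, e = c • (Ext.mk₀ (qZ δ N).real).comp κ (zero_add ν)
  nm : ∀ a : Ext (jXr δ N).real W ν, (Ext.mk₀ (gam δ N).real).comp a (zero_add ν) ≠ kY δ N κ
  jv : ∀ n, ν ≤ n + 1 → ∀ e : Ext (JVr δ N).real W n, e = 0

lemma good_of (l0 : δ.lam ≠ 0) (hl : ∀ j : ℕ, δ.lam ^ (j + 1) ≠ 1) (T0 : ℕ)
    (hH : ∀ t, t < T0 → (tw δ N l0 W).H (ν + t) ∧ (tw δ N l0 W).H (ν + t + 1))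
    (hA : ∀ t, T0 ≤ t → ∀ a : Ext (jXr δ N).real W (ν + t),
      ∃ c : k, a = c • ((seX δ N l0).les k W).pw (ν := ν) (kX δ N κ) t)
    (hB : ∀ t, T0 ≤ t → ∀ b : Ext (iYr δ N).real W (ν + t),
      ∃ c : k, b = c • ((seY δ N).les k W).pw (ν := ν) (kY δ N κ) t)
    (hne : ∀ t, T0 ≤ t → ((seY δ N).les k W).pw (ν := ν) (kY δ N κ) t ≠ 0)
    (h0 : ∀ e : Ext (Zbr δ N).real W ν, (Ext.mk₀ (qb δ N).real).comp e (zero_add ν) = 0 → e = 0)
    (jv : ∀ n, ν ≤ n + 1 → ∀ e : Ext (JVr δ N).real W n, e = 0) : Good δ N κ := by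
  have hg1 : (tw δ N l0 W).g1 ν (kX δ N κ) = kY δ N κ := gam1_kX δ N κ
  have hg2 : (tw δ N l0 W).g2 ν (kX δ N κ) = -kY δ N κ := gam2_kX δ N κ
  have hinj : ∀ t (e : Ext (Zbr δ N).real W (ν + (t + 1))),
      (Ext.mk₀ (qb δ N).real).comp e (zero_add _) = 0 := by
    intro t e
    refine (tw δ N l0 W).inj_pos hl _ _ hg1 hg2 T0 hH hA hB hne l0 t _ ?_
    rw [tw_phi]
    exact (seB δ N).f_g e
  refine ⟨?_, ?_, ?_, ?_, jv⟩
  · intro n hn e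
    obtain ⟨t, rfl⟩ : ∃ t, n = ν + (t + 1 + 1) := ⟨n - ν - 2, by omega⟩
    obtain ⟨y, rfl⟩ := (seB δ N).ex3 W (m := ν + (t + 1)) (by omega) e (hinj _ e)
    obtain ⟨a, rfl⟩ := (tw δ N l0 W).surj_pos hl _ _ hg1 hg2 T0 hH hB t y
    rw [tw_phi]
    exact (seB δ N).cls_f _ a
  · intro e
    obtain ⟨y, rfl⟩ := (seB δ N).ex3 W (add_comm 1 ν) e (hinj 0 e)
    obtain ⟨a, c, h⟩ := (tw δ N l0 W).span hl _ T0 hH hB 0 0 y
    refine ⟨c, ?_⟩
    have h' : y = (Ext.mk₀ (gam δ N).real).comp a (zero_add ν) + c • kY δ N κ :=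
      h.trans (congrArg (· + c • kY δ N κ) (tw_phi δ N l0 W ν a))
    rw [h', Ext.comp_add, (seB δ N).cls_f, zero_add, Ext.comp_smul]
  · intro e
    obtain ⟨c, hc⟩ := (tw δ N l0 W).ker hl _ _ hg1 hg2 T0 hH hA hB hne l0 0 0
      ((Ext.mk₀ (qb δ N).real).comp e (zero_add ν))
      ((tw_phi δ N l0 W ν _).trans ((seB δ N).f_g e))
    refine ⟨c, sub_eq_zero.1 (h0 _ ?_)⟩
    rw [sub_eq_add_neg, Ext.comp_add, Ext.comp_neg, Ext.comp_smul, Ext.mk₀_comp_mk₀_assoc,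
      add_neg_eq_zero]
    exact hc
  · intro a
    rw [← tw_phi δ N l0]
    exact (tw δ N l0 W).not_mem_range _ _ hg1 hg2 T0 hA hne l0 a

end defs

lemma id_GV_Z : 𝟙 ((GV δ).obj (Zr δ N).real) = 0 := by
  rw [← Rep.toV_ofV]
  exact ModuleCat.hom_ext (LinearMap.ext fun w => map_zero (Zr δ N).ofV.hom)

variable {δ N} [IsNoetherianRing D] {p : ℕ}

lemma Hyp.good_self (H : Hyp δ N p) : Good δ N (Ext.mk₀ (𝟙 (Zr δ N).real)) := by
  have hX : kX δ N (Ext.mk₀ (𝟙 (Zr δ N).real)) = Ext.mk₀ (pX δ N) := Ext.comp_mk₀_id _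
  have hY : kY δ N (Ext.mk₀ (𝟙 (Zr δ N).real)) = Ext.mk₀ (ioY δ N).real := Ext.comp_mk₀_id _
  refine good_of δ N _ H.l0 H.hl 0 (fun t ht => absurd ht (by omega)) ?_ ?_ ?_
    (fun e he => (seB δ N).g_inj0 e he) ?_
  · intro t _ a
    rw [hX]
    exact H.baseX t a
  · intro t _ a
    rw [hY]
    exact H.baseY t a
  · intro t _
    rw [hY]
    exact H.baseY_ne t
  · intro n _ e
    apply (injective_iff_map_eq_zero _).1 (flV_bij δ H.exa H.fin _ n).1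
    rw [← Ext.comp_mk₀_id (flV δ N _ n e), id_GV_Z, Ext.mk₀_zero, Ext.comp_zero]

lemma Hyp.twH (H : Hyp δ N p) {W : ModuleCat.{u} (Lam δ)} {ν : ℕ} {κ : Ext (Zr δ N).real W ν}
    (h : IsSyz _ ν W κ) (n : ℕ) (hn : p < n) : (tw δ N H.l0 W).H n := by
  have h1 : ∀ d, flY δ N W n ((tw δ N H.l0 W).d1 n d) =
      (flX δ N W n d).comp (Ext.mk₀ ((ng1 δ).app W)) (add_zero n) := fun d =>
    flat_nat (TX δ) (TY δ) (GX δ) (GY δ) (etaX δ) (etaY δ) (ng1 δ) _ (etaY_gt1 δ N) d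
  have h2 : ∀ d, flY δ N W n ((tw δ N H.l0 W).d2 n d) =
      (flX δ N W n d).comp (Ext.mk₀ ((ng2 δ).app W)) (add_zero n) := fun d =>
    flat_nat (TX δ) (TY δ) (GX δ) (GY δ) (etaX δ) (etaY δ) (ng2 δ) _ (etaY_gt2 δ N) d
  constructor
  · intro d
    apply (flY_bij δ H.fin W n).1
    rw [map_neg, h1, h2, eq_neg_iff_add_eq_zero, ← Ext.comp_add, ← Ext.mk₀_add]
    refine (isSyz_kapX δ N κ h).post_zero _ ?_ H.van hn _
    rw [Ext.mk₀_add, Ext.comp_add, kapX_g1, kapX_g2, neg_add_cancel]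
  · have h3 := (isSyz_kapX δ N κ h).post_bij (isSyz_kapY δ N κ H.fpL h) _ (kapX_g1 δ N κ)
      H.van hn
    rw [← Function.Bijective.of_comp_iff' (flY_bij δ H.fin W n)]
    have : flY δ N W n ∘ (tw δ N H.l0 W).d1 n =
        (fun e => e.comp (Ext.mk₀ ((ng1 δ).app W)) (add_zero n)) ∘ flX δ N W n := funext h1
    rw [this]
    exact h3.comp (flX_bij δ H.fin W n)

lemma Hyp.good_syz (H : Hyp δ N p) {W : ModuleCat.{u} (Lam δ)} {ν : ℕ}
    {κ : Ext (Zr δ N).real W ν} (h : IsSyz _ ν W κ) (hν : p + 2 ≤ ν) : Good δ N κ := by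
  have hH : ∀ t, t < p + 1 → (tw δ N H.l0 W).H (ν + t) ∧ (tw δ N H.l0 W).H (ν + t + 1) :=
    fun t _ => ⟨H.twH h _ (by omega), H.twH h _ (by omega)⟩
  have hB : ∀ t, p + 1 ≤ t → ∀ b : Ext (iYr δ N).real W (ν + t),
      ∃ c : k, b = c • ((seY δ N).les k W).pw (ν := ν) (kY δ N κ) t := by
    intro t ht b
    obtain ⟨y, rfl⟩ := h.post_surj H.van_iY (0 + t) (ν + t) (by omega) (by omega) b
    obtain ⟨c, rfl⟩ := H.baseY t y
    exact ⟨c, by rw [Ext.smul_comp, pw_comp]; rfl⟩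
  refine good_of δ N κ H.l0 H.hl (p + 1) hH ?_ hB ?_ ?_ ?_
  · intro t ht b
    obtain ⟨y, rfl⟩ := h.post_surj H.van_jX (0 + t) (ν + t) (by omega) (by omega) b
    obtain ⟨c, rfl⟩ := H.baseX t y
    exact ⟨c, by rw [Ext.smul_comp, pw_comp]; rfl⟩
  · intro t ht h0
    refine H.baseY_ne t (h.post_inj H.van_iY (0 + t) (ν + t) (by omega) (by omega) _ ?_)
    rw [pw_comp]
    exact h0
  · intro e he
    obtain ⟨m, rfl⟩ : ∃ m, ν = m + 1 := ⟨ν - 1, by omega⟩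
    obtain ⟨y, rfl⟩ := (seB δ N).ex3 W (add_comm 1 m) e he
    obtain ⟨a, rfl⟩ := (tw δ N H.l0 W).surj_neg H.hl _ _ (gam1_kX δ N κ) (gam2_kX δ N κ) (p + 1)
      hH hB (H.twH h _ (by omega)) (H.twH h _ (by omega)) y
    rw [tw_phi]
    exact (seB δ N).cls_f _ a
  · intro n hn e
    apply (injective_iff_map_eq_zero _).1 (flV_bij δ H.exa H.fin _ n).1
    rw [← Ext.comp_mk₀_id (flV δ N _ n e)]
    refine (h.map (GV δ) (fp_GV δ)).post_zero _ ?_ H.van (by omega) _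
    rw [Ext.comp_mk₀_id, ← Ext.mk₀_id_comp (κ.mapExactFunctor (GV δ)), id_GV_Z, Ext.mk₀_zero,
      Ext.zero_comp]

lemma Hyp.not_proj (H : Hyp δ N p) {W : ModuleCat.{u} (Lam δ)} {ν : ℕ}
    {κ : Ext (Zr δ N).real W ν} (h : IsSyz _ ν W κ) (hν : p + 2 ≤ ν) 
    (hW : Module.Finite (Lam δ) W) :
    ¬ Projective W := by
  intro hP
  refine (H.good_syz h hν).nm 0 ?_
  rw [Ext.comp_zero, H.van_iY ν (by omega) W ⟨hW, hP⟩ (kY δ N κ)]

namespace Good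

variable {W : ModuleCat.{u} (Lam δ)} {ν : ℕ} {κ : Ext (Zr δ N).real W ν} (G : Good δ N κ)

include G

omit [IsNoetherianRing D] in
lemma surj3 {n m l : ℕ} (h1 : 1 + n = m) (h2 : 1 + m = l) (hn : ν ≤ n)
    (e : Ext (Zr δ N).real W l) : ∃ y : Ext (TYr δ (δ.F.obj N)).real W n,
      (seZ δ N).cls.comp ((seV δ N).cls.comp y h1) h2 = e := by
  obtain ⟨z, rfl⟩ := (seZ δ N).delta_surj W h2 (G.zb l (by omega)) e
  obtain ⟨y, rfl⟩ := (seV δ N).delta_surj W h1 (G.jv m (by omega)) z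
  exact ⟨y, rfl⟩

omit [IsNoetherianRing D] in
lemma inj3 {n m l : ℕ} (h1 : 1 + n = m) (h2 : 1 + m = l) (hn : ν + 1 ≤ n)
    (y : Ext (TYr δ (δ.F.obj N)).real W n)
    (hy : (seZ δ N).cls.comp ((seV δ N).cls.comp y h1) h2 = 0) : y = 0 :=
  (seV δ N).delta_inj W h1 (G.jv n (by omega)) y
    ((seZ δ N).delta_inj W h2 (G.zb m (by omega)) _ hy)

lemma zero3 (H : Hyp δ N p) {n l : ℕ} (h : n + 2 = l) (hn : ν ≤ n)
    (h0 : ∀ y : Ext (δ.F.obj N) ((GY δ).obj W) n, y = 0) (e : Ext (Zr δ N).real W l) : e = 0 := by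
  obtain ⟨y, rfl⟩ := G.surj3 (n := n) rfl (by omega) hn e
  rw [(injective_iff_map_eq_zero _).1 (flY_bij δ H.finF W n).1 y (h0 _), Ext.comp_zero,
    Ext.comp_zero]

omit [IsNoetherianRing D] G in
lemma eps2_kY : (seV δ N).cls.comp ((Ext.mk₀ (abar δ N).real).comp (kY δ N κ) (zero_add ν))
    (add_comm 1 ν) = (Ext.mk₀ (iS δ N).real).comp ((seB δ N).cls.comp (kY δ N κ) (add_comm 1 ν))
      (zero_add _) :=
  (seV δ N).cls_nat' (seB δ N) _ _ _ (abar_gam δ N) (jj_qb δ N) _ _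

lemma zero2 (H : Hyp δ N p) (h0 : ∀ y : Ext (δ.F.obj N) ((GY δ).obj W) ν,
      ∃ c : k, y = c • (Ext.mk₀ (δ.a N)).comp (kapY δ N κ) (zero_add ν))
    (e : Ext (Zr δ N).real W (ν + 2)) : e = 0 := by
  obtain ⟨y, rfl⟩ := G.surj3 (add_comm 1 ν) (by omega) le_rfl e
  obtain ⟨c, hc⟩ := h0 (flY δ _ W ν y)
  rw [← flY_abar, ← flat_smul] at hc
  rw [(flY_bij δ H.finF W ν).1 hc, Ext.comp_smul, Ext.comp_smul, eps2_kY, (seZ δ N).cls_f,
    smul_zero]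

lemma sV_zero (H : Hyp δ N p) {m n : ℕ} (h : 1 + m = n) (hn : ν ≤ n + 1)
    (h0 : ∀ y : Ext (δ.F.obj N) ((GY δ).obj W) m, y = 0) (e : Ext (sVr δ N).real W n) : e = 0 :=
  (seV δ N).right_zero W h
    (fun y => (injective_iff_map_eq_zero _).1 (flY_bij δ H.finF W m).1 y (h0 _)) (G.jv n hn) e

omit [IsNoetherianRing D] G in
lemma inj1 (hs : ∀ e : Ext (sVr δ N).real W ν, e = 0) (e : Ext (Zr δ N).real W (ν + 1))
    (he : (Ext.mk₀ (qZ δ N).real).comp e (zero_add _) = 0) : e = 0 := by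
  obtain ⟨y, rfl⟩ := (seZ δ N).ex3 W (add_comm 1 ν) e he
  rw [hs y, Ext.comp_zero]

omit [IsNoetherianRing D] in
lemma le1 (hs : ∀ e : Ext (sVr δ N).real W ν, e = 0) : Le1 k (Ext (Zr δ N).real W (ν + 1)) :=
  (Le1.of_span _ G.zb1).of_inj (preL k (Ext.mk₀ (qZ δ N).real) W (zero_add _)).toAddMonoidHom
    (fun c x => Ext.comp_smul _ _ (zero_add _) _) (inj1 hs)

omit [IsNoetherianRing D] in
lemma zero1 (hs : ∀ e : Ext (sVr δ N).real W ν, e = 0)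
    (ha : (Ext.mk₀ (δ.a N)).comp (kapY δ N κ) (zero_add ν) ≠ 0)
    (e : Ext (Zr δ N).real W (ν + 1)) : e = 0 := by
  apply inj1 hs
  obtain ⟨c, hc⟩ := G.zb1 ((Ext.mk₀ (qZ δ N).real).comp e (zero_add _))
  have h1 := (seZ δ N).f_g e
  rw [hc, Ext.comp_smul, ← eps2_kY, ← Ext.comp_smul] at h1
  have h2 := (seV δ N).delta_inj W _ (G.jv ν (by omega)) _ h1
  rw [smul_eq_zero] at h2
  rcases h2 with h2 | h2
  · rw [hc, h2, zero_smul]
  · rw [← flY_abar, h2, map_zero] at ha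
    exact absurd rfl ha

end Good

lemma Good.span0 {W : ModuleCat.{u} (Lam δ)} {m : ℕ} {κ : Ext (Zr δ N).real W (m + 1)}
    (G : Good δ N κ) (hs : ∀ e : Ext (sVr δ N).real W m, e = 0)
    (e : Ext (Zr δ N).real W (m + 1)) : ∃ c : k, e = c • κ := by
  obtain ⟨c, hc⟩ := G.zb0 ((Ext.mk₀ (qZ δ N).real).comp e (zero_add _))
  refine ⟨c, sub_eq_zero.1 (Good.inj1 hs _ ?_)⟩
  rw [sub_eq_add_neg, Ext.comp_add, Ext.comp_neg, Ext.comp_smul, hc, add_neg_cancel]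

lemma Hyp.endo_Z (H : Hyp δ N p) (f : (Zr δ N).real ⟶ (Zr δ N).real) :
    ∃ c : k, f = c • 𝟙 _ := by
  obtain ⟨c, hc⟩ := H.good_self.zb0 ((Ext.mk₀ (qZ δ N).real).comp (Ext.mk₀ f) (zero_add _))
  refine ⟨c, (Ext.mk₀_bijective _ _).1 (sub_eq_zero.1 ((seZ δ N).g_inj0 _ ?_))⟩
  rw [sub_eq_add_neg, Ext.comp_add, Ext.comp_neg, Ext.mk₀_smul, Ext.comp_smul, hc, add_neg_cancel]

lemma Hyp.self_Z (H : Hyp δ N p) (ha : IsIso (δ.a N)) (n : ℕ) (hn : 0 < n)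
    (e : Ext (Zr δ N).real (Zr δ N).real n) : e = 0 := by
  have hk : kapY δ N (Ext.mk₀ (𝟙 (Zr δ N).real)) = Ext.mk₀ (Zr δ N).ofY := by
    rw [kapY, Ext.mapExactFunctor_mk₀, CategoryTheory.Functor.map_id, Ext.comp_mk₀_id]
  have hY := Rep.isIso_ofY (Zr δ N)
  obtain rfl | rfl | h3 : n = 1 ∨ n = 2 ∨ 3 ≤ n := by omega
  · refine H.good_self.zero1 (fun e => (seV δ N).g_inj0 e (H.good_self.jv 0 (by omega) _)) ?_ e
    rw [hk, Ext.mk₀_comp_mk₀, Ne, Ext.mk₀_eq_zero_iff]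
    intro h
    apply H.nz
    have : 𝟙 N = inv (δ.a N) ≫ (δ.a N ≫ (Zr δ N).ofY) ≫ inv (Zr δ N).ofY := by simp
    rw [this, h, zero_comp, comp_zero]
  · refine H.good_self.zero2 H (fun y => ?_) e
    obtain ⟨f, rfl⟩ := (Ext.mk₀_bijective _ _).2 y
    obtain ⟨c, hc⟩ := H.endo (inv (δ.a N) ≫ f ≫ inv (Zr δ N).ofY)
    refine ⟨c, ?_⟩
    rw [hk, Ext.mk₀_comp_mk₀, ← Ext.mk₀_smul]
    congr 1
    rw [IsIso.inv_comp_eq, IsIso.comp_inv_eq] at hc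
    rw [hc]
    simp
  · refine H.good_self.zero3 H (n := n - 2) (by omega) (by omega) (fun y => ?_) e
    have : y = (Ext.mk₀ (δ.a N)).comp ((Ext.mk₀ (inv (δ.a N))).comp y (zero_add _))
      (zero_add _) := by simp
    rw [this, ext_zero_of_iso _ hY (H.self _ (by omega)) ((Ext.mk₀ (inv (δ.a N))).comp y _),
      Ext.comp_zero]

end Vale.Agent.AR
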