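import Mathlib.Algebra.Module.LinearMap.Basic
import Mathlib.Algebra.Module.Submodule.Basic
import Mathlib.Algebra.Field.Basic
import Mathlib.Tactic.Module
import Mathlib.Tactic.Abel
import Mathlib.Tactic.FieldSimp
import Mathlib.Tactic.Ring
import Mathlib.Tactic.LinearCombination

/-! The weight argument, as a statement about exact couples of vector spaces. -/

universe u v

namespace Vale.Agent.AR

variable (k : Type v) [Field k]

/-- a long exact sequence `A n → D n → A n → A (n+1)` -/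
structure LES (A D : ℕ → Type u) [∀ n, AddCommGroup (A n)] [∀ n, Module k (A n)]
    [∀ n, AddCommGroup (D n)] [∀ n, Module k (D n)] where
  up : ∀ n, A n →ₗ[k] A (n + 1)
  res : ∀ n, A n →ₗ[k] D n
  tr : ∀ n, D n →ₗ[k] A n
  ex_res : ∀ n (a : A (n + 1)), res (n + 1) a = 0 → ∃ a', up n a' = a
  res_up : ∀ n (a : A n), res (n + 1) (up n a) = 0
  ex_up : ∀ n (a : A n), up n a = 0 → ∃ d, tr n d = a
  up_tr : ∀ n (d : D n), up n (tr n d) = 0
  ex_tr : ∀ n (d : D n), tr n d = 0 → ∃ a, res n a = d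
  tr_res : ∀ n (a : A n), tr n (res n a) = 0

variable {k}

section

variable {A D : ℕ → Type u} [∀ n, AddCommGroup (A n)] [∀ n, Module k (A n)]
    [∀ n, AddCommGroup (D n)] [∀ n, Module k (D n)] (L : LES k A D)

/-- iterated `up` -/
def LES.pw {ν : ℕ} (a : A ν) : (t : ℕ) → A (ν + t)
  | 0 => a
  | t + 1 => L.up (ν + t) (LES.pw a t)

/-- if `res ∘ tr` is exact then `res` is injective -/
lemma LES.res_inj (h0 : ∀ a : A 0, L.res 0 a = 0 → a = 0)
    (hx : ∀ n (d : D n), L.res n (L.tr n d) = 0 → ∃ d', L.res n (L.tr n d') = d) (n : ℕ) :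
    ∀ a : A n, L.res n a = 0 → a = 0 := by
  induction n with
  | zero => exact h0
  | succ n ih =>
    intro a ha
    obtain ⟨b, rfl⟩ := L.ex_res n a ha
    obtain ⟨d, hd⟩ := hx n (L.res n b) (by rw [L.tr_res, map_zero])
    have : b = L.tr n d := by
      rw [← sub_eq_zero]
      apply ih
      rw [map_sub, hd, sub_self]
    rw [this, L.up_tr]

lemma LES.span_pw (a : A 0) (h0 : ∀ b : A 0, ∃ c : k, b = c • a)
    (hD : ∀ n (d : D (n + 1)), d = 0) (t : ℕ) : ∀ b : A (0 + t), ∃ c : k, b = c • L.pw a t := by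
  induction t with
  | zero => exact h0
  | succ t ih =>
    intro b
    obtain ⟨b', rfl⟩ := L.ex_res (0 + t) b (hD _ _)
    obtain ⟨c, rfl⟩ := ih b'
    exact ⟨c, by rw [map_smul]; rfl⟩

lemma LES.pw_ne_zero (a : A 0) (ha : a ≠ 0) (h0 : ∀ d : D 0, L.tr 0 d = 0)
    (hD : ∀ n (d : D (n + 1)), d = 0) (t : ℕ) : L.pw a t ≠ 0 := by
  induction t with
  | zero => exact ha
  | succ t ih =>
    intro h
    obtain ⟨d, hd⟩ := L.ex_up (0 + t) _ h
    apply ih
    rw [← hd]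
    cases t with
    | zero => exact h0 d
    | succ t => rw [hD (0 + t) d, map_zero]

end

variable {A B AD BD : ℕ → Type u} [∀ n, AddCommGroup (A n)] [∀ n, Module k (A n)]
    [∀ n, AddCommGroup (B n)] [∀ n, Module k (B n)]
    [∀ n, AddCommGroup (AD n)] [∀ n, Module k (AD n)]
    [∀ n, AddCommGroup (BD n)] [∀ n, Module k (BD n)]

/-- two twisted morphisms of exact couples -/
structure Tw (lam : k) (LA : LES k A AD) (LB : LES k B BD) where
  g1 : ∀ n, A n →ₗ[k] B n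
  g2 : ∀ n, A n →ₗ[k] B n
  d1 : ∀ n, AD n →ₗ[k] BD n
  d2 : ∀ n, AD n →ₗ[k] BD n
  up1 : ∀ n a, LB.up n (g1 n a) = g1 (n + 1) (LA.up n a)
  up2 : ∀ n a, LB.up n (g2 n a) = lam • g2 (n + 1) (LA.up n a)
  tr1 : ∀ n d, g1 n (LA.tr n d) = LB.tr n (d1 n d)
  tr2 : ∀ n d, g2 n (LA.tr n d) = lam • LB.tr n (d2 n d)
  res1 : ∀ n a, LB.res n (g1 n a) = d1 n (LA.res n a)
  res2 : ∀ n a, LB.res n (g2 n a) = d2 n (LA.res n a)

namespace Tw

variable {lam : k} {LA : LES k A AD} {LB : LES k B BD} (T : Tw lam LA LB)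

/-- the twisted sums -/
def phi (j n : ℕ) : A n →ₗ[k] B n := T.g1 n + lam ^ j • T.g2 n

lemma phi_apply (j n : ℕ) (a : A n) : T.phi j n a = T.g1 n a + lam ^ j • T.g2 n a := rfl

/-- the hypothesis in degree `n` -/
def H (n : ℕ) : Prop := (∀ d, T.d2 n d = -T.d1 n d) ∧ Function.Bijective (T.d1 n)

lemma up_phi (j n : ℕ) (a : A n) : LB.up n (T.phi j n a) = T.phi (j + 1) (n + 1) (LA.up n a) := by
  simp only [phi_apply, map_add, map_smul, T.up1, T.up2]
  module

lemma phi_tr (j n : ℕ) (h : T.H n) (d : AD n) :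
    T.phi j n (LA.tr n d) = (1 - lam ^ (j + 1)) • LB.tr n (T.d1 n d) := by
  simp only [phi_apply, T.tr1, T.tr2, h.1, map_neg]
  module

lemma res_phi (j n : ℕ) (h : T.H n) (a : A n) :
    LB.res n (T.phi j n a) = (1 - lam ^ j) • T.d1 n (LA.res n a) := by
  simp only [phi_apply, map_add, map_smul, T.res1, T.res2, h.1]
  module

variable (hl : ∀ j : ℕ, lam ^ (j + 1) ≠ 1)

include hl in
lemma surj_step (j n : ℕ) (h0 : T.H n) (h1 : T.H (n + 1)) (s : B n)
    (h : ∀ b : B (n + 1), ∃ a, ∃ c : k, b = T.phi (j + 1) (n + 1) a + c • LB.up n s) (b : B n) :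
    ∃ a, ∃ c : k, b = T.phi j n a + c • s := by
  have hne : (1 - lam ^ (j + 1)) ≠ 0 := sub_ne_zero.2 (hl j).symm
  obtain ⟨a', c, ha'⟩ := h (LB.up n b)
  have h2 : LA.res (n + 1) a' = 0 := by
    have := congrArg (LB.res (n + 1)) ha'
    rw [LB.res_up, map_add, map_smul, LB.res_up, T.res_phi _ _ h1, smul_zero, add_zero, eq_comm,
      smul_eq_zero] at this
    exact h1.2.1 ((this.resolve_left hne).trans (map_zero _).symm)
  obtain ⟨a, rfl⟩ := LA.ex_res n a' h2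
  have h3 : LB.up n (b - T.phi j n a - c • s) = 0 := by
    rw [map_sub, map_sub, map_smul, T.up_phi, ha']
    abel
  obtain ⟨d, hd⟩ := LB.ex_up n _ h3
  obtain ⟨d', rfl⟩ := h0.2.2 d
  refine ⟨a + (1 - lam ^ (j + 1))⁻¹ • LA.tr n d', c, ?_⟩
  rw [map_add, map_smul, T.phi_tr _ _ h0, smul_smul, inv_mul_cancel₀ hne, one_smul, hd]
  abel

variable {ν : ℕ} (a0 : A ν) (b0 : B ν) (hg1 : T.g1 ν a0 = b0) (hg2 : T.g2 ν a0 = -b0)

include hg1 in
lemma g1_pw (t : ℕ) : T.g1 (ν + t) (LA.pw a0 t) = LB.pw b0 t := by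
  induction t with
  | zero => exact hg1
  | succ t ih =>
    change T.g1 (ν + t + 1) (LA.up _ _) = LB.up _ _
    rw [← T.up1, ih]

include hg2 in
lemma g2_pw (t : ℕ) : lam ^ t • T.g2 (ν + t) (LA.pw a0 t) = -LB.pw b0 t := by
  induction t with
  | zero => rw [pow_zero, one_smul]; exact hg2
  | succ t ih =>
    change lam ^ (t + 1) • T.g2 (ν + t + 1) (LA.up _ _) = -LB.up _ _
    rw [pow_succ, mul_smul, ← T.up2, ← map_smul, ih, map_neg]

include hg1 hg2 in
lemma phi_pw (j t : ℕ) :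
    lam ^ t • T.phi j (ν + t) (LA.pw a0 t) = (lam ^ t - lam ^ j) • LB.pw b0 t := by
  rw [phi_apply, T.g1_pw a0 b0 hg1, smul_add, smul_comm (lam ^ t) (lam ^ j),
    T.g2_pw a0 b0 hg2]
  module

variable (T0 : ℕ) (hH : ∀ t, t < T0 → T.H (ν + t) ∧ T.H (ν + t + 1))
  (hA : ∀ t, T0 ≤ t → ∀ a : A (ν + t), ∃ c : k, a = c • LA.pw a0 t)
  (hB : ∀ t, T0 ≤ t → ∀ b : B (ν + t), ∃ c : k, b = c • LB.pw b0 t)
  (hne : ∀ t, T0 ≤ t → LB.pw b0 t ≠ 0)

include hne in
lemma pw_ne (t : ℕ) : LB.pw b0 t ≠ 0 := by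
  intro h
  have : ∀ s, LB.pw b0 (t + s) = 0 := by
    intro s
    induction s with
    | zero => exact h
    | succ s ih =>
      change LB.up _ (LB.pw b0 (t + s)) = 0
      rw [ih, map_zero]
  exact hne (t + T0) (by omega) (this T0)

include hl hH hB in
lemma span (t : ℕ) : ∀ (j : ℕ) (b : B (ν + t)),
    ∃ a, ∃ c : k, b = T.phi j (ν + t) a + c • LB.pw b0 t := by
  have : ∀ d t, T0 ≤ t + d → ∀ (j : ℕ) (b : B (ν + t)),
      ∃ a, ∃ c : k, b = T.phi j (ν + t) a + c • LB.pw b0 t := by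
    intro d
    induction d with
    | zero =>
      intro t ht j b
      obtain ⟨c, hc⟩ := hB t ht b
      exact ⟨0, c, by simpa using hc⟩
    | succ d ih =>
      intro t ht j b
      by_cases h : T0 ≤ t + d
      · exact ih t h j b
      · have h' := hH t (by omega)
        exact T.surj_step hl j _ h'.1 h'.2 _ (ih (t + 1) (by omega) (j + 1)) b
  exact this T0 t (by omega)

include hl hH hA hB hne hg1 hg2 in
lemma ker (hl0 : lam ≠ 0) (t : ℕ) : ∀ (j : ℕ) (a : A (ν + t)),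
    T.phi j (ν + t) a = 0 → ∃ c : k, a = c • LA.pw a0 t := by
  have : ∀ d t, T0 ≤ t + d → ∀ (j : ℕ) (a : A (ν + t)),
      T.phi j (ν + t) a = 0 → ∃ c : k, a = c • LA.pw a0 t := by
    intro d
    induction d with
    | zero =>
      intro t ht j a _
      exact hA t ht a
    | succ d ih =>
      intro t ht j a ha
      by_cases h : T0 ≤ t + d
      · exact ih t h j a ha
      have h' := (hH t (by omega)).1
      have hne' : (1 - lam ^ (j + 1)) ≠ 0 := sub_ne_zero.2 (hl j).symm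
      obtain ⟨c, hc⟩ := ih (t + 1) (by omega) (j + 1) (LA.up (ν + t) a) (by
        change T.phi (j + 1) (ν + t + 1) _ = 0
        rw [← T.up_phi, ha, map_zero])
      have h1 : LA.up (ν + t) (a - c • LA.pw a0 t) = 0 := by
        rw [map_sub, map_smul]
        exact sub_eq_zero.2 hc
      obtain ⟨β, hβ⟩ := LA.ex_up _ _ h1
      have h2 : lam ^ t • T.phi j (ν + t) (LA.tr _ β) =
          -(c * (lam ^ t - lam ^ j)) • LB.pw b0 t := by
        rw [hβ, map_sub, map_smul, ha, smul_sub, smul_comm (lam ^ t) c,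
          T.phi_pw a0 b0 hg1 hg2]
        module
      have h3 : c * (lam ^ t - lam ^ j) = 0 := by
        have := congrArg (LB.up (ν + t)) h2
        rw [T.phi_tr _ _ h', map_smul, map_smul, map_smul, LB.up_tr, smul_zero, smul_zero,
          eq_comm, smul_eq_zero] at this
        exact neg_eq_zero.1 (this.resolve_right (pw_ne b0 T0 hne (t + 1)))
      rw [h3, neg_zero, zero_smul, T.phi_tr _ _ h', smul_eq_zero, smul_eq_zero] at h2
      have h4 := (h2.resolve_left (pow_ne_zero _ hl0)).resolve_left hne'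
      obtain ⟨b, hb⟩ := LB.ex_tr _ _ h4
      obtain ⟨a', c', ha'⟩ := T.span hl b0 T0 hH hB t (j + 1) b
      have h5 : ∃ a'' : A (ν + t), LB.res _ (LB.pw b0 t) = T.d1 _ (LA.res _ a'') := by
        cases t with
        | zero => exact ⟨a0, by rw [← T.res1]; exact congrArg _ hg1.symm⟩
        | succ t => exact ⟨0, by rw [map_zero, map_zero]; exact LB.res_up _ _⟩
      obtain ⟨a'', ha''⟩ := h5
      have h6 : β = LA.res _ ((1 - lam ^ (j + 1)) • a' + c' • a'') := by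
        apply h'.2.1
        rw [← hb, ha', map_add, map_smul, T.res_phi _ _ h', ha'']
        simp only [map_add, map_smul]
      refine ⟨c, ?_⟩
      rw [← sub_eq_zero, ← hβ, h6, LA.tr_res]
  exact this T0 t (by omega)

include hl hH hB hg1 hg2 in
lemma surj_pos (t : ℕ) (b : B (ν + (t + 1))) : ∃ a, T.phi 0 (ν + (t + 1)) a = b := by
  obtain ⟨a, c, h⟩ := T.span hl b0 T0 hH hB (t + 1) 0 b
  have hne' : lam ^ (t + 1) - lam ^ 0 ≠ 0 := by
    rw [pow_zero]; exact sub_ne_zero.2 (hl t)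
  refine ⟨a + (c * (lam ^ (t + 1) - lam ^ 0)⁻¹ * lam ^ (t + 1)) • LA.pw a0 (t + 1), ?_⟩
  rw [map_add, map_smul, mul_smul, T.phi_pw a0 b0 hg1 hg2, smul_smul, mul_assoc,
    inv_mul_cancel₀ hne', mul_one, h]

include hl hH hA hB hne hg1 hg2 in
lemma inj_pos (hl0 : lam ≠ 0) (t : ℕ) (a : A (ν + (t + 1))) (ha : T.phi 0 (ν + (t + 1)) a = 0) :
    a = 0 := by
  obtain ⟨c, rfl⟩ := T.ker hl a0 b0 hg1 hg2 T0 hH hA hB hne hl0 (t + 1) 0 a ha
  have hne' : lam ^ (t + 1) - lam ^ 0 ≠ 0 := by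
    rw [pow_zero]; exact sub_ne_zero.2 (hl t)
  have := congrArg (fun x => lam ^ (t + 1) • x) ha
  simp only [map_smul, smul_zero] at this
  rw [smul_comm, T.phi_pw a0 b0 hg1 hg2, smul_eq_zero, smul_eq_zero] at this
  rcases this with h | h | h
  · rw [h, zero_smul]
  · exact absurd h hne'
  · exact absurd h (pw_ne b0 T0 hne _)

include hA hne hg1 hg2 in
lemma not_mem_range (hl0 : lam ≠ 0) (a : A ν) : T.phi 0 ν a ≠ b0 := by
  intro h
  have : ∀ t, T.phi t (ν + t) (LA.pw a t) = LB.pw b0 t := by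
    intro t
    induction t with
    | zero => exact h
    | succ t ih =>
      change T.phi (t + 1) (ν + t + 1) (LA.up _ _) = LB.up _ _
      rw [← T.up_phi, ih]
  obtain ⟨c, hc⟩ := hA T0 le_rfl (LA.pw a T0)
  have h2 := this T0
  have h3 := T.phi_pw a0 b0 hg1 hg2 T0 T0
  rw [sub_self, zero_smul, smul_eq_zero] at h3
  rw [hc, map_smul, h3.resolve_left (pow_ne_zero _ hl0), smul_zero] at h2
  exact hne T0 le_rfl h2.symm

end Tw

lemma Tw.surj_neg {lam : k} {LA : LES k A AD} {LB : LES k B BD} (T : Tw lam LA LB)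
    (hl : ∀ j : ℕ, lam ^ (j + 1) ≠ 1) {m : ℕ} (a0 : A (m + 1)) (b0 : B (m + 1))
    (hg1 : T.g1 _ a0 = b0) (hg2 : T.g2 _ a0 = -b0) (T0 : ℕ)
    (hH : ∀ t, t < T0 → T.H (m + 1 + t) ∧ T.H (m + 1 + t + 1))
    (hB : ∀ t, T0 ≤ t → ∀ b : B (m + 1 + t), ∃ c : k, b = c • LB.pw b0 t)
    (h0 : T.H m) (h1 : T.H (m + 1)) (b : B m) : ∃ a, T.phi 0 m a = b := by
  have hne' : (1 - lam ^ (0 + 1)) ≠ 0 := sub_ne_zero.2 (hl 0).symm
  obtain ⟨a, c, h⟩ := T.surj_step hl 0 m h0 h1 0 (fun b => by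
    obtain ⟨a, c, h⟩ := T.span hl b0 T0 hH hB 0 (0 + 1) b
    refine ⟨a + (c * (1 - lam ^ (0 + 1))⁻¹) • a0, 0, ?_⟩
    have h2 : T.phi (0 + 1) (m + 1) a0 = (1 - lam ^ (0 + 1)) • b0 := by
      rw [T.phi_apply, hg1, hg2]
      module
    rw [map_add, map_smul, h2, smul_smul, mul_assoc, inv_mul_cancel₀ hne', mul_one, zero_smul,
      add_zero]
    exact h) b
  exact ⟨a, by simpa using h.symm⟩

end Vale.Agent.AR
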