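import Vale.Agent.P195.Mods
import Vale.Agent.P195.Weights

/-! The exact sequences between the basic modules. -/

open CategoryTheory Abelian Limits

universe u

set_option backward.isDefEq.respectTransparency false

namespace Vale.Agent.AR

variable {k : Type u} [Field k] {D : Type u} [Ring D] [Algebra k D] (δ : Dat k D)

variable (M : ModuleCat.{u} D)

/-- socle inclusion at `Y` -/
@[simps] def sigY : RepHom (iYr δ M) (TYr δ M) where
  fX := 0
  fV := 0
  fY := LinearMap.inr D M M
  xX := by simp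
  xY := by simp [Prod.ext_iff]
  g1 := by simp [Prod.ext_iff]
  g2 := by simp [Prod.ext_iff]
  r := by simp
  m := by simp [Prod.ext_iff]

/-- top projection at `Y` -/
@[simps] def piY : RepHom (TYr δ M) (iYr δ M) where
  fX := 0
  fV := 0
  fY := LinearMap.fst D M M
  xX := by simp
  xY := by simp
  g1 := by simp
  g2 := by simp
  r := by simp
  m := by simp

/-- socle inclusion at `X` -/
@[simps] def sigX : RepHom (jXr δ M) (TXr δ M) where
  fX := LinearMap.inr D M M
  fV := LinearMap.inr D M M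
  fY := LinearMap.inr D (M × M) (M × M) ∘ₗ (LinearMap.id.prodMap (tm δ M))
  xX := by simp [Prod.ext_iff]
  xY := by simp [Prod.ext_iff]
  g1 := by simp [Prod.ext_iff]
  g2 := by simp [Prod.ext_iff]
  r := by simp
  m := by simp [Prod.ext_iff, smul_smul, δ.t_comm]

/-- top projection at `X` -/
@[simps] def piX : RepHom (TXr δ M) (jXr δ M) where
  fX := LinearMap.fst D M M
  fV := LinearMap.fst D M M
  fY := LinearMap.fst D (M × M) (M × M)
  xX := by simp
  xY := by simp
  g1 := by simp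
  g2 := by simp
  r := by simp
  m := by simp

/-- first arrow -/
@[simps] def gam1 : RepHom (iYr δ M) (jXr δ M) where
  fX := 0
  fV := 0
  fY := LinearMap.inl D M M
  xX := by simp
  xY := by simp [Prod.ext_iff]
  g1 := by simp [Prod.ext_iff]
  g2 := by simp [Prod.ext_iff]
  r := by simp
  m := by simp [Prod.ext_iff]

/-- second arrow -/
@[simps] def gam2 : RepHom (iYr δ M) (jXr δ M) where
  fX := 0
  fV := 0
  fY := LinearMap.inr D M M
  xX := by simp
  xY := by simp [Prod.ext_iff]
  g1 := by simp [Prod.ext_iff]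
  g2 := by simp [Prod.ext_iff]
  r := by simp
  m := by simp [Prod.ext_iff]

/-- sum of the arrows -/
@[simps] def gam : RepHom (iYr δ M) (jXr δ M) where
  fX := 0
  fV := 0
  fY := LinearMap.inl D M M + LinearMap.inr D M M
  xX := by simp
  xY := by simp [Prod.ext_iff]
  g1 := by simp [Prod.ext_iff]
  g2 := by simp [Prod.ext_iff]
  r := by simp
  m := by simp [Prod.ext_iff]

/-- first arrow, induced version -/
@[simps] def gt1 : RepHom (TYr δ M) (TXr δ M) where
  fX := 0
  fV := 0
  fY := tg1 D M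
  xX := by simp [Prod.ext_iff]
  xY := by simp [Prod.ext_iff]
  g1 := by simp [Prod.ext_iff]
  g2 := by simp [Prod.ext_iff]
  r := by simp
  m := by simp [Prod.ext_iff]

/-- second arrow, induced version -/
@[simps] def gt2 : RepHom (TYr δ M) (TXr δ M) where
  fX := 0
  fV := 0
  fY := (LinearMap.inr D M M).prodMap (LinearMap.inr D M M)
  xX := by simp [Prod.ext_iff]
  xY := by simp [Prod.ext_iff]
  g1 := by simp [Prod.ext_iff]
  g2 := by simp [Prod.ext_iff]
  r := by simp
  m := by simp [Prod.ext_iff]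

/-- the quotient map onto the intermediate module -/
@[simps] def qb : RepHom (jXr δ M) (Zbr δ M) where
  fX := LinearMap.id
  fV := LinearMap.id
  fY := LinearMap.fst D M M - LinearMap.snd D M M
  xX := by simp
  xY := by simp
  g1 := by simp
  g2 := by simp
  r := by simp
  m := by simp

/-- inclusion of the `V` part -/
@[simps] def iS : RepHom (sVr δ M) (Zbr δ M) where
  fX := 0
  fV := LinearMap.id
  fY := 0
  xX := by simp
  xY := by simp
  g1 := by simp
  g2 := by simp
  r := by simp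
  m := by simp

/-- the quotient map onto the main module -/
@[simps] def qZ : RepHom (Zbr δ M) (Zr δ M) where
  fX := LinearMap.id
  fV := 0
  fY := LinearMap.id
  xX := by simp
  xY := by simp
  g1 := by simp
  g2 := by simp
  r := by simp
  m := by simp

/-- the `Y` part of `JV` -/
@[simps] def sJ : RepHom (TYr δ (δ.F.obj M)) (JVr δ M) where
  fX := 0
  fV := 0
  fY := LinearMap.id
  xX := by simp
  xY := by simp
  g1 := by simp
  g2 := by simp
  r := by simp
  m := by
    intro v l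
    rw [map_zero]
    simp

/-- the top of `JV` -/
@[simps] def pJ : RepHom (JVr δ M) (sVr δ M) where
  fX := 0
  fV := LinearMap.id
  fY := 0
  xX := by simp
  xY := by simp
  g1 := by simp
  g2 := by simp
  r := by simp
  m := by simp

/-- the map induced by `a` -/
@[simps] def abar : RepHom (TYr δ (δ.F.obj M)) (iYr δ M) where
  fX := 0
  fV := 0
  fY := (δ.a M).hom ∘ₗ LinearMap.fst D _ _
  xX := by simp
  xY := by simp
  g1 := by simp
  g2 := by simp
  r := by simp
  m := by simp

/-- the map `JV → jX` given by `r` -/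
@[simps] def jj : RepHom (JVr δ M) (jXr δ M) where
  fX := 0
  fV := LinearMap.id
  fY := (LinearMap.inl D M M + LinearMap.inr D M M) ∘ₗ (δ.a M).hom ∘ₗ LinearMap.fst D _ _
  xX := by simp
  xY := by simp [Prod.ext_iff]
  g1 := by simp [Prod.ext_iff]
  g2 := by simp [Prod.ext_iff]
  r := by simp
  m := by simp [Prod.ext_iff, δ.a_β]

/-- inclusion of the `Y` part -/
@[simps] def ioY : RepHom (iYr δ M) (Zr δ M) where
  fX := 0
  fV := 0
  fY := LinearMap.id
  xX := by simp
  xY := by simp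
  g1 := by simp
  g2 := by simp
  r := by simp
  m := by simp

lemma exact_zero_id {A B : Type u} [AddCommGroup A] [Module D A] [AddCommGroup B] [Module D B] :
    Function.Exact (0 : A →ₗ[D] B) (LinearMap.id : B →ₗ[D] B) :=
  fun b => ⟨fun h => ⟨0, h.symm⟩, fun ⟨_, h⟩ => h.symm⟩

lemma exact_id_zero {A B : Type u} [AddCommGroup A] [Module D A] [AddCommGroup B] [Module D B] :
    Function.Exact (LinearMap.id : B →ₗ[D] B) (0 : B →ₗ[D] A) :=
  fun b => ⟨fun _ => ⟨b, rfl⟩, fun _ => rfl⟩

lemma seY : SE (sigY δ M).real (piY δ M).real :=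
  RepHom.se _ _ (unit_inj _) (unit_exa _ _) (unit_surj _) (unit_inj _) (unit_exa _ _) (unit_surj _)
    LinearMap.inr_injective Function.Exact.inr_fst LinearMap.fst_surjective

lemma t_inv (hl : δ.lam ≠ 0) {M : Type u} [AddCommGroup M] [Module D M] (v : M) :
    algebraMap k D δ.lam⁻¹ • δ.t • v = v := by
  rw [smul_smul, Dat.t, ← map_mul, inv_mul_cancel₀ hl, map_one, one_smul]

lemma inv_t (hl : δ.lam ≠ 0) {M : Type u} [AddCommGroup M] [Module D M] (v : M) :
    δ.t • algebraMap k D δ.lam⁻¹ • v = v := by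
  rw [smul_smul, Dat.t, ← map_mul, mul_inv_cancel₀ hl, map_one, one_smul]

lemma seX (hl : δ.lam ≠ 0) : SE (sigX δ M).real (piX δ M).real := by
  refine RepHom.se _ _ LinearMap.inr_injective Function.Exact.inr_fst LinearMap.fst_surjective
    LinearMap.inr_injective Function.Exact.inr_fst LinearMap.fst_surjective ?_ ?_
    LinearMap.fst_surjective
  · intro a b h
    have h1 : a.1 = b.1 := congrArg (fun p => p.2.1) h
    have h2 : δ.t • a.2 = δ.t • b.2 := congrArg (fun p => p.2.2) h
    refine Prod.ext h1 ?_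
    rw [← t_inv δ hl a.2, h2, t_inv δ hl]
  · rintro ⟨a, b⟩
    refine ⟨fun h => ⟨(b.1, algebraMap k D δ.lam⁻¹ • b.2), ?_⟩, ?_⟩
    · refine Prod.ext h.symm (Prod.ext rfl (inv_t δ hl _))
    · rintro ⟨c, hc⟩
      rw [← hc]
      rfl

lemma seB : SE (gam δ M).real (qb δ M).real := by
  refine RepHom.se _ _ (unit_inj _) exact_zero_id Function.surjective_id
    (unit_inj _) exact_zero_id Function.surjective_id ?_ ?_ ?_
  · intro a b h
    simpa using congrArg Prod.fst h
  · rintro ⟨a, b⟩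
    refine ⟨fun h => ⟨a, ?_⟩, ?_⟩
    · have : a - b = 0 := h
      simp [Prod.ext_iff, sub_eq_zero.1 this]
    · rintro ⟨c, hc⟩
      rw [← hc]
      simp
  · intro a
    exact ⟨(a, 0), by simp⟩

lemma seZ : SE (iS δ M).real (qZ δ M).real :=
  RepHom.se _ _ (unit_inj _) exact_zero_id Function.surjective_id
    Function.injective_id exact_id_zero (unit_surj _)
    (unit_inj _) exact_zero_id Function.surjective_id

lemma seV : SE (sJ δ M).real (pJ δ M).real :=
  RepHom.se _ _ (unit_inj _) (unit_exa _ _) (unit_surj _)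
    (unit_inj _) exact_zero_id Function.surjective_id
    Function.injective_id exact_id_zero (unit_surj _)

lemma alg_smul_x {ρ : Rep δ} (c : k) (w : ρ.Car) :
    (algebraMap k (Lam δ) c • w).x = algebraMap k D c • w.x := by simp [Lam.algebraMap_eq]
lemma alg_smul_v {ρ : Rep δ} (c : k) (w : ρ.Car) :
    (algebraMap k (Lam δ) c • w).v = algebraMap k D c • w.v := by simp [Lam.algebraMap_eq]
lemma alg_smul_y {ρ : Rep δ} (c : k) (w : ρ.Car) :
    (algebraMap k (Lam δ) c • w).y = algebraMap k D c • w.y := by simp [Lam.algebraMap_eq]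

lemma gt1_piX : (gt1 δ M).real ≫ (piX δ M).real = (piY δ M).real ≫ (gam1 δ M).real :=
  real_hom_ext δ fun _ => ⟨rfl, rfl, rfl⟩

lemma gt2_piX : (gt2 δ M).real ≫ (piX δ M).real = (piY δ M).real ≫ (gam2 δ M).real :=
  real_hom_ext δ fun _ => ⟨rfl, rfl, rfl⟩

lemma gam1_sigX : (gam1 δ M).real ≫ (sigX δ M).real = (sigY δ M).real ≫ (gt1 δ M).real :=
  real_hom_ext δ fun _ => ⟨rfl, rfl, Prod.ext rfl (Prod.ext rfl (smul_zero δ.t))⟩

lemma gam2_sigX : (gam2 δ M).real ≫ (sigX δ M).real =
    (sigY δ M).real ≫ (δ.lam • (gt2 δ M).real) := by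
  refine real_hom_ext δ fun w => ⟨Eq.trans ?_ (alg_smul_x δ _ _).symm,
    Eq.trans ?_ (alg_smul_v δ _ _).symm, Eq.trans ?_ (alg_smul_y δ _ _).symm⟩
  · exact (smul_zero _).symm
  · exact (smul_zero _).symm
  · change (((0, 0), (0, δ.t • w.y)) : (M × M) × (M × M)) = δ.t • ((0, 0), (0, w.y))
    simp

lemma gam_eq : (gam δ M).real = (gam1 δ M).real + (gam2 δ M).real :=
  real_hom_ext δ fun _ => ⟨(add_zero _).symm, (add_zero _).symm, rfl⟩

lemma abar_gam : (abar δ M).real ≫ (gam δ M).real = (sJ δ M).real ≫ (jj δ M).real :=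
  real_hom_ext δ fun _ => ⟨rfl, rfl, rfl⟩

lemma jj_qb : (jj δ M).real ≫ (qb δ M).real = (pJ δ M).real ≫ (iS δ M).real :=
  real_hom_ext δ fun w => ⟨rfl, rfl, by
    change ((δ.a M).hom w.y.1 + 0) - (0 + (δ.a M).hom w.y.1) = 0
    simp⟩

/-- the projection `jX → Z` -/
def pX : (jXr δ M).real ⟶ (Zr δ M).real := (qb δ M).real ≫ (qZ δ M).real

lemma gam1_pX : (gam1 δ M).real ≫ pX δ M = (ioY δ M).real :=
  real_hom_ext δ fun _ => ⟨rfl, rfl, sub_zero _⟩

lemma gam2_pX : (gam2 δ M).real ≫ pX δ M = -(ioY δ M).real :=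
  real_hom_ext δ fun _ => ⟨neg_zero.symm, rfl, zero_sub _⟩

lemma eps2_abar : (seV δ M).cls.comp (Ext.mk₀ (abar δ M).real) (add_zero 1) =
    (Ext.mk₀ (iS δ M).real).comp (seB δ M).cls (zero_add 1) :=
  (seV δ M).cls_nat (seB δ M) _ _ _ (abar_gam δ M) (jj_qb δ M)

section les

variable {R : Type u} [Ring R] [Algebra k R]

omit [Algebra k R] in
lemma pre_pre {A B B' C W : ModuleCat.{u} R} {f : A ⟶ B} {g : B ⟶ C} {f' : A ⟶ B'} {g' : B' ⟶ C}
    (h : f ≫ g = f' ≫ g') {n : ℕ} (e : Ext C W n) :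
    (Ext.mk₀ f).comp ((Ext.mk₀ g).comp e (zero_add n)) (zero_add n) =
      (Ext.mk₀ f').comp ((Ext.mk₀ g').comp e (zero_add n)) (zero_add n) := by
  rw [Ext.mk₀_comp_mk₀_assoc, Ext.mk₀_comp_mk₀_assoc, h]

variable (k) in
/-- precomposition as a linear map -/
noncomputable def preL {A B : ModuleCat.{u} R} {a : ℕ} (α : Ext A B a) (W : ModuleCat.{u} R)
    {m n : ℕ} (h : a + m = n) : Ext B W m →ₗ[k] Ext A W n where
  toFun e := α.comp e h
  map_add' := by simp
  map_smul' := by simp

@[simp] lemma preL_apply {A B : ModuleCat.{u} R} {a : ℕ} (α : Ext A B a) (W : ModuleCat.{u} R)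
    {m n : ℕ} (h : a + m = n) (e : Ext B W m) : preL k α W h e = α.comp e h := rfl

variable (k) in
/-- the exact couple of a self extension -/
noncomputable def SE.les {A T : ModuleCat.{u} R} {σ : A ⟶ T} {π : T ⟶ A} (h : SE σ π)
    (W : ModuleCat.{u} R) : LES k (fun n => Ext A W n) (fun n => Ext T W n) where
  up n := preL k h.cls W (add_comm 1 n)
  res n := preL k (Ext.mk₀ π) W (zero_add n)
  tr n := preL k (Ext.mk₀ σ) W (zero_add n)
  ex_res n a ha := h.ex3 W (add_comm 1 n) a ha
  res_up n a := h.g_cls (add_comm 1 n) a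
  ex_up n a ha := h.ex1 W (add_comm 1 n) a ha
  up_tr n d := h.cls_f (add_comm 1 n) d
  ex_tr n d hd := h.ex2 W d hd
  tr_res n a := h.f_g a

lemma pw_comp {A T : ModuleCat.{u} R} {σ : A ⟶ T} {π : T ⟶ A} (h : SE σ π)
    {Z W : ModuleCat.{u} R} {ν : ℕ} (κ : Ext Z W ν) (a : Ext A Z 0) (t : ℕ) :
    ((h.les k Z).pw (ν := 0) a t).comp κ (by omega) =
      (h.les k W).pw (ν := ν) (a.comp κ (zero_add ν)) t := by
  induction t with
  | zero => rfl
  | succ t ih =>
    change (h.cls.comp ((h.les k Z).pw (ν := 0) a t) (add_comm 1 (0 + t))).comp κ _ =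
      h.cls.comp ((h.les k W).pw (ν := ν) (a.comp κ (zero_add ν)) t) (add_comm 1 (ν + t))
    rw [← ih]
    exact Ext.comp_assoc _ _ _ _ _ (by omega)

end les

/-- the twisted pair of morphisms of exact couples -/
noncomputable def tw (hl : δ.lam ≠ 0) (W : ModuleCat.{u} (Lam δ)) :
    Tw δ.lam ((seX δ M hl).les k W) ((seY δ M).les k W) where
  g1 n := preL k (Ext.mk₀ (gam1 δ M).real) W (zero_add n)
  g2 n := preL k (Ext.mk₀ (gam2 δ M).real) W (zero_add n)
  d1 n := preL k (Ext.mk₀ (gt1 δ M).real) W (zero_add n)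
  d2 n := preL k (Ext.mk₀ (gt2 δ M).real) W (zero_add n)
  up1 n a := (seY δ M).cls_nat' (seX δ M hl) _ _ _ (gam1_sigX δ M) (gt1_piX δ M) (add_comm 1 n) a
  up2 n a := by
    have := (seY δ M).cls_nat' (seX δ M hl) _ _ (δ.lam • (gam2 δ M).real) (gam2_sigX δ M)
      (by rw [Linear.smul_comp, Linear.comp_smul, gt2_piX]) (add_comm 1 n) a
    rw [Ext.mk₀_smul, Ext.smul_comp] at this
    exact this
  tr1 n d := pre_pre (gam1_sigX δ M) d
  tr2 n d := by
    have := pre_pre (f' := δ.lam • (sigY δ M).real) (g' := (gt2 δ M).real)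
      ((gam2_sigX δ M).trans (by rw [Linear.smul_comp, Linear.comp_smul])) d
    rw [Ext.mk₀_smul, Ext.smul_comp] at this
    exact this
  res1 n a := pre_pre (gt1_piX δ M).symm a
  res2 n a := pre_pre (gt2_piX δ M).symm a

lemma tw_phi (hl : δ.lam ≠ 0) (W : ModuleCat.{u} (Lam δ)) (n : ℕ)
    (a : Ext (jXr δ M).real W n) :
    (tw δ M hl W).phi 0 n a = (Ext.mk₀ (gam δ M).real).comp a (zero_add n) := by
  rw [Tw.phi_apply, pow_zero, one_smul, gam_eq, Ext.mk₀_add, Ext.add_comp]
  rfl

end Vale.Agent.AR
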