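import Vale.Agent.P195.Unreal

/-! The basic modules over the triangular algebra. -/

open CategoryTheory Abelian Limits

universe u

set_option backward.isDefEq.respectTransparency false

namespace Vale.Agent.AR

variable {k : Type u} [Field k] {D : Type u} [Ring D] [Algebra k D] (δ : Dat k D)

/-- the zero module -/
abbrev Z0 (D : Type u) [Ring D] : ModuleCat.{u} D := ModuleCat.of D PUnit.{u + 1}

/-- multiplication by the central scalar -/
@[simps] def tm (M : Type u) [AddCommGroup M] [Module D M] : M →ₗ[D] M where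
  toFun v := δ.t • v
  map_add' a b := smul_add _ _ _
  map_smul' d v := by simp [smul_smul, δ.t_comm]

/-- the square zero shift on `M × M` -/
@[simps] def sh (D : Type u) [Ring D] (M : Type u) [AddCommGroup M] [Module D M] :
    M × M →ₗ[D] M × M where
  toFun p := (0, p.1)
  map_add' a b := by simp
  map_smul' d v := by simp

/-- `v ↦ (l ↦ a(l) • g v)` -/
@[simps] def alm {V Y : Type u} [AddCommGroup V] [Module D V] [AddCommGroup Y] [Module D Y]
    (g : V →ₗ[D] Y) : V →+ (δ.L →ₗ[D] Y) where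
  toFun v := LinearMap.toSpanSingleton D Y (g v) ∘ₗ δ.al
  map_zero' := by ext; simp
  map_add' a b := by ext; simp

variable (M : ModuleCat.{u} D)

/-- induced from `D` at the vertex `Y` -/
abbrev TYr : Rep δ where
  X := Z0 D
  V := Z0 D
  Y := ModuleCat.of D (M × M)
  xX := 0
  xY := sh D M
  g1 := 0
  g2 := 0
  r := 0
  m := 0
  xX_xX := by simp
  xY_xY := by simp
  g1_x := by simp [Prod.ext_iff]
  g2_x := by simp [Prod.ext_iff]
  m_smul := by simp
  m_r := by simp

/-- induced from `D` at the vertex `V` -/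
abbrev JVr : Rep δ where
  X := Z0 D
  V := M
  Y := ModuleCat.of D (δ.F.obj M × δ.F.obj M)
  xX := 0
  xY := sh D _
  g1 := 0
  g2 := 0
  r := 0
  m := { toFun := fun v => LinearMap.inl D _ _ ∘ₗ δ.β M v
         map_zero' := by simp
         map_add' := fun a b => by simp [LinearMap.comp_add] }
  xX_xX := by simp
  xY_xY := by simp
  g1_x := by simp [Prod.ext_iff]
  g2_x := by simp [Prod.ext_iff]
  m_smul := by simp [δ.β_ra]
  m_r := by simp

/-- first arrow on the induced module -/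
@[simps] def tg1 (D : Type u) [Ring D] (M : Type u) [AddCommGroup M] [Module D M] :
    M × M →ₗ[D] (M × M) × (M × M) where
  toFun p := ((p.1, 0), (p.2, 0))
  map_add' a b := by simp
  map_smul' d v := by simp

/-- second arrow on the induced module -/
@[simps] def tg2 (M : Type u) [AddCommGroup M] [Module D M] :
    M × M →ₗ[D] (M × M) × (M × M) where
  toFun p := ((0, p.1), (0, δ.t • p.2))
  map_add' a b := by simp
  map_smul' d v := by simp [smul_smul, δ.t_comm]

/-- induced from `D` at the vertex `X` -/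
abbrev TXr : Rep δ where
  X := ModuleCat.of D (M × M)
  V := ModuleCat.of D (M × M)
  Y := ModuleCat.of D ((M × M) × (M × M))
  xX := sh D M
  xY := sh D _
  g1 := tg1 D M
  g2 := tg2 δ M
  r := LinearMap.id
  m := alm δ (tg1 D M + tg2 δ M)
  xX_xX := by simp
  xY_xY := by simp
  g1_x := by simp
  g2_x := by simp
  m_smul := by
    intro d v l
    simp only [alm_apply, LinearMap.comp_apply, LinearMap.toSpanSingleton_apply, map_smul,
      δ.al_ra, mul_smul]
  m_r := by simp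

/-- concentrated at `Y` -/
abbrev iYr : Rep δ where
  X := Z0 D
  V := Z0 D
  Y := M
  xX := 0
  xY := 0
  g1 := 0
  g2 := 0
  r := 0
  m := 0
  xX_xX := by simp
  xY_xY := by simp
  g1_x := by simp
  g2_x := by simp
  m_smul := by simp
  m_r := by simp

/-- concentrated at `V` -/
abbrev sVr : Rep δ where
  X := Z0 D
  V := M
  Y := Z0 D
  xX := 0
  xY := 0
  g1 := 0
  g2 := 0
  r := 0
  m := 0
  xX_xX := by simp
  xY_xY := by simp
  g1_x := by simp
  g2_x := by simp
  m_smul := by simp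
  m_r := by simp

/-- induced from `D[x]/x^2` at the vertex `X` -/
abbrev jXr : Rep δ where
  X := M
  V := M
  Y := ModuleCat.of D (M × M)
  xX := 0
  xY := 0
  g1 := LinearMap.inl D M M
  g2 := LinearMap.inr D M M
  r := LinearMap.id
  m := alm δ (LinearMap.inl D M M + LinearMap.inr D M M)
  xX_xX := by simp
  xY_xY := by simp
  g1_x := by simp
  g2_x := by simp
  m_smul := by simp [δ.al_ra, mul_smul]
  m_r := by simp

/-- the intermediate module -/
abbrev Zbr : Rep δ where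
  X := M
  V := M
  Y := M
  xX := 0
  xY := 0
  g1 := LinearMap.id
  g2 := -LinearMap.id
  r := LinearMap.id
  m := 0
  xX_xX := by simp
  xY_xY := by simp
  g1_x := by simp
  g2_x := by simp
  m_smul := by simp
  m_r := by simp

/-- the main module -/
abbrev Zr : Rep δ where
  X := M
  V := Z0 D
  Y := M
  xX := 0
  xY := 0
  g1 := LinearMap.id
  g2 := -LinearMap.id
  r := 0
  m := 0
  xX_xX := by simp
  xY_xY := by simp
  g1_x := by simp
  g2_x := by simp
  m_smul := by simp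
  m_r := by simp

section functors

variable {M} {M' : ModuleCat.{u} D} (f : M ⟶ M')

/-- functoriality -/
@[simps] def TYm : RepHom (TYr δ M) (TYr δ M') where
  fX := 0
  fV := 0
  fY := f.hom.prodMap f.hom
  xX := by simp
  xY := by simp
  g1 := by simp
  g2 := by simp
  r := by simp
  m := by simp

/-- functoriality -/
@[simps] def JVm : RepHom (JVr δ M) (JVr δ M') where
  fX := 0
  fV := f.hom
  fY := (δ.F.map f).hom.prodMap (δ.F.map f).hom
  xX := by simp
  xY := by simp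
  g1 := by simp
  g2 := by simp
  r := by simp
  m := by simp [δ.map_β]

/-- functoriality -/
@[simps] def TXm : RepHom (TXr δ M) (TXr δ M') where
  fX := f.hom.prodMap f.hom
  fV := f.hom.prodMap f.hom
  fY := (f.hom.prodMap f.hom).prodMap (f.hom.prodMap f.hom)
  xX := by simp
  xY := by simp
  g1 := by simp
  g2 := by simp
  r := by simp
  m := by simp

/-- functoriality -/
@[simps] def sVm : RepHom (sVr δ M) (sVr δ M') where
  fX := 0
  fV := f.hom
  fY := 0
  xX := by simp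
  xY := by simp
  g1 := by simp
  g2 := by simp
  r := by simp
  m := by simp

end functors

/-- extensionality for maps out of a realization -/
lemma real_hom_ext {ρ σ : Rep δ} {f g : ρ.real ⟶ σ.real}
    (h : ∀ w : ρ.Car, (f.hom w).x = (g.hom w).x ∧ (f.hom w).v = (g.hom w).v ∧
      (f.hom w).y = (g.hom w).y) : f = g :=
  ModuleCat.hom_ext (LinearMap.ext fun w => Rep.Car.ext (h w).1 (h w).2.1 (h w).2.2)

/-- the functor `TY` -/
def TY : ModuleCat.{u} D ⥤ ModuleCat.{u} (Lam δ) where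
  obj M := (TYr δ M).real
  map f := (TYm δ f).real
  map_id M := real_hom_ext δ fun w => ⟨rfl, rfl, rfl⟩
  map_comp f g := real_hom_ext δ fun w => ⟨rfl, rfl, rfl⟩

/-- the functor `JV` -/
def JV : ModuleCat.{u} D ⥤ ModuleCat.{u} (Lam δ) where
  obj M := (JVr δ M).real
  map f := (JVm δ f).real
  map_id M := real_hom_ext δ fun w => ⟨rfl, rfl, by
    change ((δ.F.map (𝟙 M)).hom.prodMap (δ.F.map (𝟙 M)).hom) w.y = _
    rw [δ.F.map_id]; rfl⟩
  map_comp f g := real_hom_ext δ fun w => ⟨rfl, rfl, by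
    change ((δ.F.map (f ≫ g)).hom.prodMap (δ.F.map (f ≫ g)).hom) w.y = _
    rw [δ.F.map_comp]; rfl⟩

/-- the functor `TX` -/
def TX : ModuleCat.{u} D ⥤ ModuleCat.{u} (Lam δ) where
  obj M := (TXr δ M).real
  map f := (TXm δ f).real
  map_id M := real_hom_ext δ fun w => ⟨rfl, rfl, rfl⟩
  map_comp f g := real_hom_ext δ fun w => ⟨rfl, rfl, rfl⟩

/-- the functor `sV` -/
def sV : ModuleCat.{u} D ⥤ ModuleCat.{u} (Lam δ) where
  obj M := (sVr δ M).real
  map f := (sVm δ f).real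
  map_id M := real_hom_ext δ fun w => ⟨rfl, rfl, rfl⟩
  map_comp f g := real_hom_ext δ fun w => ⟨rfl, rfl, rfl⟩

instance : (TY δ).Additive where
  map_add := real_hom_ext δ fun w => ⟨rfl, rfl, rfl⟩

instance : (JV δ).Additive where
  map_add := by
    intro A B f g
    refine real_hom_ext δ fun w => ⟨rfl, rfl, ?_⟩
    change ((δ.F.map (f + g)).hom.prodMap (δ.F.map (f + g)).hom) w.y = _
    rw [δ.F.map_add]
    rfl

instance : (TX δ).Additive where
  map_add := real_hom_ext δ fun w => ⟨rfl, rfl, rfl⟩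

instance : (sV δ).Additive where
  map_add := real_hom_ext δ fun w => ⟨rfl, rfl, rfl⟩

section exact

variable {A B C A' B' C' : Type u} [AddCommGroup A] [AddCommGroup B] [AddCommGroup C]
  [AddCommGroup A'] [AddCommGroup B'] [AddCommGroup C'] [Module D A] [Module D B] [Module D C]
  [Module D A'] [Module D B'] [Module D C']

omit [Algebra k D] in
lemma exact_prodMap {f : A →ₗ[D] B} {g : B →ₗ[D] C} {f' : A' →ₗ[D] B'} {g' : B' →ₗ[D] C'}
    (h : Function.Exact f g) (h' : Function.Exact f' g') :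
    Function.Exact (f.prodMap f') (g.prodMap g') := by
  rintro ⟨b, b'⟩
  constructor
  · intro hb
    obtain ⟨a, rfl⟩ := (h b).1 (congrArg Prod.fst hb)
    obtain ⟨a', rfl⟩ := (h' b').1 (congrArg Prod.snd hb)
    exact ⟨(a, a'), rfl⟩
  · rintro ⟨⟨a, a'⟩, h2⟩
    rw [← h2]
    exact Prod.ext (h.apply_apply_eq_zero a) (h'.apply_apply_eq_zero a')

end exact

lemma unit_inj {D : Type u} [Ring D] {B : Type u} [AddCommGroup B] [Module D B]
    (f : PUnit.{u + 1} →ₗ[D] B) : Function.Injective f := fun _ _ _ => rfl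
lemma unit_surj {D : Type u} [Ring D] {B : Type u} [AddCommGroup B] [Module D B]
    (f : B →ₗ[D] PUnit.{u + 1}) : Function.Surjective f := fun _ => ⟨0, rfl⟩
lemma unit_exa {D : Type u} [Ring D] {A C : Type u} [AddCommGroup A] [Module D A]
    [AddCommGroup C] [Module D C]
    (f : A →ₗ[D] PUnit.{u + 1}) (g : PUnit.{u + 1} →ₗ[D] C) : Function.Exact f g :=
  fun b => ⟨fun _ => ⟨0, rfl⟩, fun _ => (congrArg g (rfl : b = 0)).trans (map_zero g)⟩

lemma TY_exa : Exa (TY δ) := fun _ _ _ f g h =>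
  RepHom.se (TYm δ f) (TYm δ g) (unit_inj _) (unit_exa _ _) (unit_surj _)
    (unit_inj _) (unit_exa _ _) (unit_surj _)
    (h.inj.prodMap h.inj) (exact_prodMap h.exa h.exa) (h.surj.prodMap h.surj)

lemma JV_exa (hF : Exa δ.F) : Exa (JV δ) := fun _ _ _ f g h =>
  RepHom.se (JVm δ f) (JVm δ g) (unit_inj _) (unit_exa _ _) (unit_surj _)
    h.inj h.exa h.surj
    ((hF h).inj.prodMap (hF h).inj) (exact_prodMap (hF h).exa (hF h).exa)
    ((hF h).surj.prodMap (hF h).surj)

lemma TX_exa : Exa (TX δ) := fun _ _ _ f g h =>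
  RepHom.se (TXm δ f) (TXm δ g)
    (h.inj.prodMap h.inj) (exact_prodMap h.exa h.exa) (h.surj.prodMap h.surj)
    (h.inj.prodMap h.inj) (exact_prodMap h.exa h.exa) (h.surj.prodMap h.surj)
    ((h.inj.prodMap h.inj).prodMap (h.inj.prodMap h.inj))
    (exact_prodMap (exact_prodMap h.exa h.exa) (exact_prodMap h.exa h.exa))
    ((h.surj.prodMap h.surj).prodMap (h.surj.prodMap h.surj))

/-- unit at `X` -/
def etaX (M : ModuleCat.{u} D) : M ⟶ (GX δ).obj ((TX δ).obj M) :=
  ModuleCat.ofHom (LinearMap.inl D M M) ≫ (TXr δ M).ofX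
/-- unit at `V` -/
def etaV (M : ModuleCat.{u} D) : M ⟶ (GV δ).obj ((JV δ).obj M) := (JVr δ M).ofV
/-- unit at `Y` -/
def etaY (M : ModuleCat.{u} D) : M ⟶ (GY δ).obj ((TY δ).obj M) :=
  ModuleCat.ofHom (LinearMap.inl D M M) ≫ (TYr δ M).ofY

lemma etaX_nat ⦃M M' : ModuleCat.{u} D⦄ (f : M ⟶ M') :
    etaX δ M ≫ (GX δ).map ((TX δ).map f) = f ≫ etaX δ M' := by
  refine ModuleCat.hom_ext (LinearMap.ext fun w => Cor.ext (Rep.Car.ext ?_ ?_ ?_))
  · exact Prod.ext rfl (map_zero f.hom)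
  · exact map_zero (TXm δ f).fV
  · exact map_zero (TXm δ f).fY

lemma etaV_nat ⦃M M' : ModuleCat.{u} D⦄ (f : M ⟶ M') :
    etaV δ M ≫ (GV δ).map ((JV δ).map f) = f ≫ etaV δ M' := by
  refine ModuleCat.hom_ext (LinearMap.ext fun w => Cor.ext (Rep.Car.ext rfl rfl ?_))
  exact map_zero (JVm δ f).fY

lemma etaY_nat ⦃M M' : ModuleCat.{u} D⦄ (f : M ⟶ M') :
    etaY δ M ≫ (GY δ).map ((TY δ).map f) = f ≫ etaY δ M' := by
  refine ModuleCat.hom_ext (LinearMap.ext fun w => Cor.ext (Rep.Car.ext rfl rfl ?_))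
  exact Prod.ext rfl (map_zero f.hom)

section free

variable {R : Type u} [Ring R] (ι : D →ₙ+* R) (F : ModuleCat.{u} D ⥤ ModuleCat.{u} R)
  (η : ∀ M : ModuleCat.{u} D, M ⟶ (cor ι).obj (F.obj M))
  (lam : F.obj (ModuleCat.of D D) ⟶ ModuleCat.of R R)
  (h1 : ∀ z, lam.hom z • Cor.val ((η (ModuleCat.of D D)).hom 1) = z)
  (h2 : lam.hom (Cor.val ((η (ModuleCat.of D D)).hom 1)) = ι 1)

omit [Algebra k D] in
include h1 in
lemma fp_of_lam : FP (F.obj (ModuleCat.of D D)) := by
  refine FP.retract (rho _ (Cor.val ((η (ModuleCat.of D D)).hom 1))) lam ?_ FP.self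
  exact ModuleCat.hom_ext (LinearMap.ext h1)

omit [Algebra k D] in
include h1 h2 in
lemma flat_bij_of_lam (W : ModuleCat.{u} R) :
    Function.Bijective (flat F (cor ι) η (ModuleCat.of D D) W 0) := by
  constructor
  · rw [injective_iff_map_eq_zero]
    intro e he
    obtain ⟨f, rfl⟩ := (Ext.mk₀_bijective _ _).2 e
    rw [flat_mk₀, Ext.mk₀_eq_zero_iff] at he
    have h3 : f.hom (Cor.val ((η (ModuleCat.of D D)).hom 1)) = 0 :=
      congrArg (fun g : ModuleCat.of D D ⟶ (cor ι).obj W => Cor.val (g.hom 1)) he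
    rw [Ext.mk₀_eq_zero_iff]
    refine ModuleCat.hom_ext (LinearMap.ext fun z => ?_)
    rw [← h1 z, map_smul, h3, smul_zero]
    rfl
  · intro y
    obtain ⟨ψ, rfl⟩ := (Ext.mk₀_bijective _ _).2 y
    refine ⟨Ext.mk₀ (lam ≫ rho W (Cor.val (ψ.hom 1))), ?_⟩
    rw [flat_mk₀]
    congr 1
    apply ModuleCat.hom_ext
    apply LinearMap.ext_ring
    apply Cor.ext
    change lam.hom (Cor.val ((η (ModuleCat.of D D)).hom 1)) • Cor.val (ψ.hom 1) = _
    rw [h2, Cor.prop]

end free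

/-- `TX D → Λ` -/
def lamX : (TX δ).obj (ModuleCat.of D D) ⟶ ModuleCat.of (Lam δ) (Lam δ) := ModuleCat.ofHom
  { toFun := fun z : (TXr δ (ModuleCat.of D D)).Car =>
      (⟨z.x.1, z.x.2, 0, z.v.1, z.v.2, 0, 0, 0, 0, z.y.1.1, z.y.1.2, z.y.2.1, z.y.2.2⟩ : Lam δ)
    map_add' := fun a b => by ext <;> simp
    map_smul' := fun a b => by
      ext <;> simp [δ.t_comm, mul_assoc] <;> abel }

/-- `JV D → Λ` -/
def lamV : (JV δ).obj (ModuleCat.of D D) ⟶ ModuleCat.of (Lam δ) (Lam δ) := ModuleCat.ofHom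
  { toFun := fun z : (JVr δ (ModuleCat.of D D)).Car =>
      (⟨0, 0, z.v, 0, 0, 0, 0, z.y.1, z.y.2, 0, 0, 0, 0⟩ : Lam δ)
    map_add' := fun a b => by ext <;> simp
    map_smul' := fun a b => by
      ext <;> simp [Dat.ra] }

/-- `TY D → Λ` -/
def lamY : (TY δ).obj (ModuleCat.of D D) ⟶ ModuleCat.of (Lam δ) (Lam δ) := ModuleCat.ofHom
  { toFun := fun z : (TYr δ (ModuleCat.of D D)).Car =>
      (⟨0, 0, 0, 0, 0, z.y.1, z.y.2, 0, 0, 0, 0, 0, 0⟩ : Lam δ)
    map_add' := fun a b => by ext <;> simp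
    map_smul' := fun a b => by
      ext <;> simp }

lemma lamX_1 (z : (TXr δ (ModuleCat.of D D)).Car) :
    (lamX δ).hom z • Cor.val ((etaX δ (ModuleCat.of D D)).hom 1) = z := by
  change (⟨z.x.1, z.x.2, 0, z.v.1, z.v.2, 0, 0, 0, 0, z.y.1.1, z.y.1.2, z.y.2.1, z.y.2.2⟩ : Lam δ) •
    (⟨(1, 0), 0, 0⟩ : (TXr δ (ModuleCat.of D D)).Car) = z
  ext <;> simp

lemma lamV_1 (z : (JVr δ (ModuleCat.of D D)).Car) :
    (lamV δ).hom z • Cor.val ((etaV δ (ModuleCat.of D D)).hom 1) = z := by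
  change (⟨0, 0, z.v, 0, 0, 0, 0, z.y.1, z.y.2, 0, 0, 0, 0⟩ : Lam δ) •
    (⟨0, (1 : D), 0⟩ : (JVr δ (ModuleCat.of D D)).Car) = z
  have := δ.ra_one
  ext <;> simp_all [Dat.ra]

lemma lamY_1 (z : (TYr δ (ModuleCat.of D D)).Car) :
    (lamY δ).hom z • Cor.val ((etaY δ (ModuleCat.of D D)).hom 1) = z := by
  change (⟨0, 0, 0, 0, 0, z.y.1, z.y.2, 0, 0, 0, 0, 0, 0⟩ : Lam δ) •
    (⟨0, 0, (1, 0)⟩ : (TYr δ (ModuleCat.of D D)).Car) = z
  ext <;> simp

lemma fp_TX : FP ((TX δ).obj (ModuleCat.of D D)) := fp_of_lam _ _ (etaX δ) (lamX δ) (lamX_1 δ)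
lemma fp_JV : FP ((JV δ).obj (ModuleCat.of D D)) := fp_of_lam _ _ (etaV δ) (lamV δ) (lamV_1 δ)
lemma fp_TY : FP ((TY δ).obj (ModuleCat.of D D)) := fp_of_lam _ _ (etaY δ) (lamY δ) (lamY_1 δ)

/-- change of rings at `X` -/
noncomputable abbrev flX (M : ModuleCat.{u} D) (W : ModuleCat.{u} (Lam δ)) (n : ℕ) :=
  flat (TX δ) (GX δ) (etaX δ) M W n
/-- change of rings at `V` -/
noncomputable abbrev flV (M : ModuleCat.{u} D) (W : ModuleCat.{u} (Lam δ)) (n : ℕ) :=
  flat (JV δ) (GV δ) (etaV δ) M W n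
/-- change of rings at `Y` -/
noncomputable abbrev flY (M : ModuleCat.{u} D) (W : ModuleCat.{u} (Lam δ)) (n : ℕ) :=
  flat (TY δ) (GY δ) (etaY δ) M W n

variable [IsNoetherianRing D]

lemma flX_bij {M : ModuleCat.{u} D} (hM : Module.Finite D M) (W : ModuleCat.{u} (Lam δ))
    (n : ℕ) : Function.Bijective (flX δ M W n) :=
  flat_bij _ _ _ (etaX_nat δ) (TX_exa δ) (fp_TX δ)
    (flat_bij_of_lam _ _ (etaX δ) (lamX δ) (lamX_1 δ) rfl) W n hM

lemma flV_bij (hF : Exa δ.F) {M : ModuleCat.{u} D} (hM : Module.Finite D M)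
    (W : ModuleCat.{u} (Lam δ)) (n : ℕ) : Function.Bijective (flV δ M W n) :=
  flat_bij _ _ _ (etaV_nat δ) (JV_exa δ hF) (fp_JV δ)
    (flat_bij_of_lam _ _ (etaV δ) (lamV δ) (lamV_1 δ) rfl) W n hM

lemma flY_bij {M : ModuleCat.{u} D} (hM : Module.Finite D M) (W : ModuleCat.{u} (Lam δ))
    (n : ℕ) : Function.Bijective (flY δ M W n) :=
  flat_bij _ _ _ (etaY_nat δ) (TY_exa δ) (fp_TY δ)
    (flat_bij_of_lam _ _ (etaY δ) (lamY δ) (lamY_1 δ) rfl) W n hM

end Vale.Agent.AR
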