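import Vale.Agent.P195.Corner
import Mathlib.LinearAlgebra.TensorProduct.Tower
import Mathlib.LinearAlgebra.TensorProduct.Basis
import Mathlib.LinearAlgebra.TensorProduct.RightExactness
import Mathlib.RingTheory.TensorProduct.Finite
import Mathlib.RingTheory.Flat.Basic
import Mathlib.LinearAlgebra.Basis.VectorSpace

/-! A functorial syzygy and natural maps out of it. -/

open CategoryTheory Abelian Limits TensorProduct

universe u

set_option backward.isDefEq.respectTransparency false

namespace Vale.Agent.AR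

attribute [local instance] ModuleCat.moduleOfAlgebraModule
  ModuleCat.isScalarTower_of_algebra_moduleCat

section ker

variable {R S : Type u} [Ring R] [Ring S] {F G : ModuleCat.{u} R ⥤ ModuleCat.{u} S}

lemma nat_apply (τ : F ⟶ G) {A B : ModuleCat.{u} R} (f : A ⟶ B) (x : F.obj A) :
    (τ.app B).hom ((F.map f).hom x) = (G.map f).hom ((τ.app A).hom x) :=
  congrArg (fun φ : F.obj A ⟶ G.obj B => φ.hom x) (τ.naturality f)

/-- kernel of a natural transformation -/
def kerF (τ : F ⟶ G) : ModuleCat.{u} R ⥤ ModuleCat.{u} S where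
  obj W := ModuleCat.of S (LinearMap.ker (τ.app W).hom)
  map {W W'} f := ModuleCat.ofHom ((F.map f).hom.restrict (p := LinearMap.ker (τ.app W).hom)
    (q := LinearMap.ker (τ.app W').hom) (fun x hx => by
      rw [LinearMap.mem_ker] at hx ⊢
      rw [nat_apply, hx, map_zero]))
  map_id W := ModuleCat.hom_ext (LinearMap.ext fun x => Subtype.ext (by
    change (F.map (𝟙 W)).hom x.1 = x.1
    rw [F.map_id]; rfl))
  map_comp f g := ModuleCat.hom_ext (LinearMap.ext fun x => Subtype.ext (by
    change (F.map (f ≫ g)).hom x.1 = (F.map g).hom ((F.map f).hom x.1)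
    rw [F.map_comp]; rfl))

/-- inclusion of the kernel -/
def kerι (τ : F ⟶ G) : kerF τ ⟶ F where
  app W := ModuleCat.ofHom (LinearMap.ker (τ.app W).hom).subtype
  naturality _ _ _ := rfl

instance (τ : F ⟶ G) [F.Additive] : (kerF τ).Additive where
  map_add := by
    intro A B f g
    refine ModuleCat.hom_ext (LinearMap.ext fun x => Subtype.ext ?_)
    change (F.map (f + g)).hom x.1 = (F.map f).hom x.1 + (F.map g).hom x.1
    rw [F.map_add]; rfl

instance (k : Type u) [Field k] [Algebra k R] [Algebra k S] (τ : F ⟶ G) [F.Linear k] :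
    (kerF τ).Linear k where
  map_smul := by
    intro A B f c
    refine ModuleCat.hom_ext (LinearMap.ext fun x => Subtype.ext ?_)
    change (F.map (c • f)).hom x.1 = algebraMap k S c • (F.map f).hom x.1
    rw [Functor.map_smul]; rfl

lemma kerF_se (τ : F ⟶ G) (W : ModuleCat.{u} R) (hτ : Function.Surjective (τ.app W).hom) :
    SE ((kerι τ).app W) (τ.app W) := SE.ker _ hτ

lemma kerF_exa (τ : F ⟶ G) (hτ : ∀ W, Function.Surjective (τ.app W).hom) (hF : Exa F)
    (hG : Exa G) : Exa (kerF τ) := by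
  intro A B C f g h
  refine ⟨fun a b hab => Subtype.ext ((hF h).inj (congrArg Subtype.val hab)),
    fun b => ⟨fun hb => ?_, ?_⟩, fun c => ?_⟩
  · obtain ⟨a, ha⟩ := ((hF h).exa b.1).1 (congrArg Subtype.val hb)
    refine ⟨⟨a, ?_⟩, Subtype.ext ha⟩
    apply (hG h).inj
    rw [← nat_apply, ha, map_zero]
    exact b.2
  · rintro ⟨a, rfl⟩
    exact Subtype.ext ((hF h).exa.apply_apply_eq_zero a.1)
  · obtain ⟨b, hb⟩ := (hF h).surj c.1
    obtain ⟨a', ha'⟩ := ((hG h).exa ((τ.app B).hom b)).1 (by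
      rw [← nat_apply, hb]; exact c.2)
    obtain ⟨a, rfl⟩ := hτ A a'
    refine ⟨⟨b - (F.map f).hom a, ?_⟩, Subtype.ext ?_⟩
    · rw [LinearMap.mem_ker, map_sub, nat_apply, ha', sub_self]
    · change (F.map g).hom (b - (F.map f).hom a) = c.1
      rw [map_sub, hb, (hF h).exa.apply_apply_eq_zero a, sub_zero]

variable (F G) in
/-- product of two functors -/
def prodF : ModuleCat.{u} R ⥤ ModuleCat.{u} S where
  obj W := ModuleCat.of S (F.obj W × G.obj W)
  map f := ModuleCat.ofHom ((F.map f).hom.prodMap (G.map f).hom)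
  map_id W := by rw [F.map_id, G.map_id]; rfl
  map_comp f g := by rw [F.map_comp, G.map_comp]; rfl

instance [F.Additive] [G.Additive] : (prodF F G).Additive where
  map_add := by
    intro A B f g
    change ModuleCat.ofHom ((F.map (f + g)).hom.prodMap (G.map (f + g)).hom) = _
    rw [F.map_add, G.map_add]; rfl

instance (k : Type u) [Field k] [Algebra k R] [Algebra k S] [F.Linear k] [G.Linear k] :
    (prodF F G).Linear k where
  map_smul := by
    intro A B f c
    change ModuleCat.ofHom ((F.map (c • f)).hom.prodMap (G.map (c • f)).hom) = _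
    rw [Functor.map_smul, Functor.map_smul]; rfl

lemma prodF_exa (hF : Exa F) (hG : Exa G) : Exa (prodF F G) := by
  intro A B C f g h
  refine ⟨(hF h).inj.prodMap (hG h).inj, ?_, (hF h).surj.prodMap (hG h).surj⟩
  rintro ⟨b, b'⟩
  constructor
  · intro hb
    obtain ⟨a, rfl⟩ := ((hF h).exa b).1 (congrArg Prod.fst hb)
    obtain ⟨a', rfl⟩ := ((hG h).exa b').1 (congrArg Prod.snd hb)
    exact ⟨(a, a'), rfl⟩
  · rintro ⟨⟨a, a'⟩, h2⟩
    rw [← h2]
    exact Prod.ext ((hF h).exa.apply_apply_eq_zero a) ((hG h).exa.apply_apply_eq_zero a')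

lemma Exa.comp {T : Type u} [Ring T] {F : ModuleCat.{u} R ⥤ ModuleCat.{u} S}
    {G : ModuleCat.{u} S ⥤ ModuleCat.{u} T} (hF : Exa F) (hG : Exa G) : Exa (F ⋙ G) :=
  fun _ _ _ _ _ h => hG (hF h)

lemma Exa.id : Exa (𝟭 (ModuleCat.{u} R)) := fun _ _ _ _ _ h => h

/-- the difference map whose kernel is the pullback -/
def pbτ {J U C : ModuleCat.{u} R ⥤ ModuleCat.{u} S} (p : J ⟶ C) (c : U ⟶ C) : prodF J U ⟶ C where
  app W := ModuleCat.ofHom ((p.app W).hom.coprod (-(c.app W).hom))
  naturality W W' f := by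
    refine ModuleCat.hom_ext (LinearMap.ext fun x => ?_)
    change (p.app W').hom ((J.map f).hom x.1) + -(c.app W').hom ((U.map f).hom x.2) =
      (C.map f).hom ((p.app W).hom x.1 + -(c.app W).hom x.2)
    rw [nat_apply, nat_apply, map_add, map_neg]

section pb

variable {J U C : ModuleCat.{u} R ⥤ ModuleCat.{u} S} (p : J ⟶ C) (c : U ⟶ C)

/-- first projection of the pullback -/
def pb1 : kerF (pbτ p c) ⟶ J where
  app W := ModuleCat.ofHom (LinearMap.fst S _ _ ∘ₗ (LinearMap.ker ((pbτ p c).app W).hom).subtype)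
  naturality _ _ _ := rfl

/-- second projection of the pullback -/
def pb2 : kerF (pbτ p c) ⟶ U where
  app W := ModuleCat.ofHom (LinearMap.snd S _ _ ∘ₗ (LinearMap.ker ((pbτ p c).app W).hom).subtype)
  naturality _ _ _ := rfl

lemma pb_comm (W : ModuleCat.{u} R) : (pb1 p c).app W ≫ p.app W = (pb2 p c).app W ≫ c.app W :=
  ModuleCat.hom_ext (LinearMap.ext fun x => add_neg_eq_zero.1 x.2)

lemma pbτ_surj (W : ModuleCat.{u} R) (hp : Function.Surjective (p.app W).hom) :
    Function.Surjective ((pbτ p c).app W).hom := by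
  intro x
  obtain ⟨y, rfl⟩ := hp x
  refine ⟨(y, 0), ?_⟩
  change (p.app W).hom y + -(c.app W).hom 0 = _
  rw [map_zero, neg_zero, add_zero]

lemma pb_se (W : ModuleCat.{u} R) {Q : ModuleCat.{u} S} {q : Q ⟶ J.obj W} (h : SE q (p.app W)) :
    ∃ j : Q ⟶ (kerF (pbτ p c)).obj W, SE j ((pb2 p c).app W) := by
  refine ⟨ModuleCat.ofHom (LinearMap.codRestrict (LinearMap.ker ((pbτ p c).app W).hom)
    (LinearMap.inl S (J.obj W) (U.obj W) ∘ₗ q.hom) (fun x => ?_)), fun a b hab => ?_,
    fun b => ⟨fun hb => ?_, ?_⟩, fun x => ?_⟩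
  · change (p.app W).hom (q.hom x) + -(c.app W).hom 0 = 0
    rw [h.exa.apply_apply_eq_zero, map_zero, neg_zero, add_zero]
  · exact h.inj (congrArg (fun z => z.1.1) hab)
  · have h1 : b.1.2 = 0 := hb
    have h2 : (p.app W).hom b.1.1 + -(c.app W).hom b.1.2 = 0 := b.2
    rw [h1, map_zero, neg_zero, add_zero] at h2
    obtain ⟨a, ha⟩ := (h.exa _).1 h2
    exact ⟨a, Subtype.ext (Prod.ext ha h1.symm)⟩
  · rintro ⟨a, rfl⟩
    rfl
  · obtain ⟨y, hy⟩ := h.surj ((c.app W).hom x)
    exact ⟨⟨(y, x), add_neg_eq_zero.2 hy⟩, rfl⟩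

end pb

end ker

variable (k : Type u) [Field k] (D : Type u) [Ring D] [Algebra k D]

/-- the free module on the underlying vector space -/
noncomputable def Fr : ModuleCat.{u} D ⥤ ModuleCat.{u} D where
  obj W := ModuleCat.of D (D ⊗[k] W)
  map f := ModuleCat.ofHom ((f.hom.restrictScalars k).baseChange D)
  map_id W := ModuleCat.hom_ext LinearMap.baseChange_id
  map_comp f g := ModuleCat.hom_ext
    (LinearMap.baseChange_comp (f.hom.restrictScalars k) (g.hom.restrictScalars k))

instance : (Fr k D).Additive where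
  map_add {_ _ f g} := ModuleCat.hom_ext
    (LinearMap.baseChange_add (f.hom.restrictScalars k) (g.hom.restrictScalars k))

instance : (Fr k D).Linear k where
  map_smul f c := ModuleCat.hom_ext (AlgebraTensorModule.ext fun d x => by
    change d ⊗ₜ[k] (c • f.hom x) = algebraMap k D c • (d ⊗ₜ[k] f.hom x)
    rw [tmul_smul, algebraMap_smul])

lemma Fr_exa : Exa (Fr k D) := by
  intro A B C f g h
  refine ⟨?_, ?_, ?_⟩
  · exact Module.Flat.lTensor_preserves_injective_linearMap (M := D) (f.hom.restrictScalars k) h.inj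
  · exact lTensor_exact D (f := f.hom.restrictScalars k) (g := g.hom.restrictScalars k) h.exa h.surj
  · exact LinearMap.lTensor_surjective D (g := g.hom.restrictScalars k) h.surj

variable {k D}

lemma fp_Fr [Module.Finite k D] {W : ModuleCat.{u} D} (hW : Module.Finite D W) :
    FP ((Fr k D).obj W) := by
  have : Module.Finite k W := Module.Finite.trans D W
  exact ⟨inferInstanceAs (Module.Finite D (D ⊗[k] W)),
    (IsProjective.iff_projective (D ⊗[k] W)).1 inferInstance⟩

/-- the universal property of the free module -/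
noncomputable def frLift {W B : ModuleCat.{u} D} (φ : W →+ B)
    (hφ : ∀ (c : k) (x : W), φ (algebraMap k D c • x) = algebraMap k D c • φ x) :
    (Fr k D).obj W ⟶ B :=
  ModuleCat.ofHom (AlgebraTensorModule.lift (LinearMap.toSpanSingleton D (W →ₗ[k] B)
    { toFun := φ, map_add' := φ.map_add, map_smul' := hφ }))

lemma frLift_tmul {W B : ModuleCat.{u} D} (φ : W →+ B)
    (hφ : ∀ (c : k) (x : W), φ (algebraMap k D c • x) = algebraMap k D c • φ x) (d : D) (x : W) :
    (frLift φ hφ).hom (d ⊗ₜ[k] x) = d • φ x := rfl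

lemma Fr_hom_ext {W B : ModuleCat.{u} D} {f g : (Fr k D).obj W ⟶ B}
    (h : ∀ (d : D) (x : W), f.hom (d ⊗ₜ[k] x) = g.hom (d ⊗ₜ[k] x)) : f = g :=
  ModuleCat.hom_ext (AlgebraTensorModule.ext h)

variable (k D)

/-- the counit -/
noncomputable def frε : Fr k D ⟶ 𝟭 _ where
  app W := frLift (AddMonoidHom.id W) (fun _ _ => rfl)
  naturality _ _ f := Fr_hom_ext fun d x => (map_smul f.hom d x).symm

lemma frε_surj (W : ModuleCat.{u} D) : Function.Surjective ((frε k D).app W).hom :=
  fun x => ⟨(1 : D) ⊗ₜ[k] x, one_smul D x⟩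

/-- functorial syzygy -/
noncomputable def Om : ModuleCat.{u} D ⥤ ModuleCat.{u} D := kerF (frε k D)

instance : (Om k D).Additive := inferInstanceAs (kerF (frε k D)).Additive
instance : (Om k D).Linear k := inferInstanceAs ((kerF (frε k D)).Linear k)

lemma Om_exa : Exa (Om k D) := kerF_exa _ (frε_surj k D) (Fr_exa k D) Exa.id

variable {D}

/-- the inclusion of the syzygy -/
noncomputable def omι (W : ModuleCat.{u} D) : (Om k D).obj W ⟶ (Fr k D).obj W :=
  (kerι (frε k D)).app W

/-- the projection onto the module -/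
noncomputable def omπ (W : ModuleCat.{u} D) : (Fr k D).obj W ⟶ W := (frε k D).app W

lemma seOm (W : ModuleCat.{u} D) : SE (omι k W) (omπ k W) := kerF_se _ W (frε_surj k D W)

lemma fp_Om [Module.Finite k D] {W : ModuleCat.{u} D} (hW : FP W) : FP ((Om k D).obj W) :=
  (seOm k W).fp_left (fp_Fr hW.1) hW

lemma finite_Om [Module.Finite k D] [IsNoetherianRing D] {W : ModuleCat.{u} D}
    (hW : Module.Finite D W) : Module.Finite D ((Om k D).obj W) := by
  have := (fp_Fr (k := k) hW).1
  exact Module.Finite.of_injective _ (seOm k W).inj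

/-- natural short exact sequences with a natural linear section -/
structure NSE {R : Type u} [Ring R] (A C : ModuleCat.{u} R ⥤ ModuleCat.{u} D) where
  B : ModuleCat.{u} R → ModuleCat.{u} D
  Bm : ∀ {W W' : ModuleCat.{u} R}, (W ⟶ W') → (B W ⟶ B W')
  i : ∀ W, A.obj W ⟶ B W
  p : ∀ W, B W ⟶ C.obj W
  se : ∀ W, SE (i W) (p W)
  i_nat : ∀ {W W' : ModuleCat.{u} R} (f : W ⟶ W'), A.map f ≫ i W' = i W ≫ Bm f
  s : ∀ W, C.obj W →+ B W
  s_smul : ∀ W (c : k) x, s W (algebraMap k D c • x) = algebraMap k D c • s W x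
  p_s : ∀ W x, (p W).hom (s W x) = x
  s_nat : ∀ {W W' : ModuleCat.{u} R} (f : W ⟶ W') x, (Bm f).hom (s W x) = s W' ((C.map f).hom x)

variable {k}

lemma SE.mono {R : Type u} [Ring R] {A B C : ModuleCat.{u} R} {f : A ⟶ B} {g : B ⟶ C}
    (h : SE f g) : Mono f := (ModuleCat.mono_iff_injective f).2 h.inj

lemma SE.exists_lift {R : Type u} [Ring R] {A B C T : ModuleCat.{u} R} {f : A ⟶ B} {g : B ⟶ C}
    (h : SE f g) (ψ : T ⟶ B) (hψ : ψ ≫ g = 0) : ∃ l : T ⟶ A, l ≫ f = ψ := by
  have := h.mono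
  exact ⟨h.shortExact.exact.lift ψ hψ, h.shortExact.exact.lift_f ψ hψ⟩

namespace NSE

variable {R : Type u} [Ring R] {A C : ModuleCat.{u} R ⥤ ModuleCat.{u} D} (E : NSE k A C)
  {U : ModuleCat.{u} R ⥤ ModuleCat.{u} D} (c : U ⟶ C)

/-- precomposition with a functor -/
def pre {R' : Type u} [Ring R'] (P : ModuleCat.{u} R' ⥤ ModuleCat.{u} R) :
    NSE k (P ⋙ A) (P ⋙ C) where
  B W := E.B (P.obj W)
  Bm f := E.Bm (P.map f)
  i W := E.i _
  p W := E.p _
  se W := E.se _
  i_nat f := E.i_nat _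
  s W := E.s _
  s_smul W := E.s_smul _
  p_s W := E.p_s _
  s_nat f := E.s_nat _

/-- the lift to the middle terms -/
noncomputable def mid (W : ModuleCat.{u} R) : (Fr k D).obj (U.obj W) ⟶ E.B W :=
  frLift ((E.s W).comp (c.app W).hom.toAddMonoidHom) (fun a x => by
    change E.s W ((c.app W).hom _) = _ • E.s W ((c.app W).hom x)
    rw [map_smul, E.s_smul])

lemma mid_p (W : ModuleCat.{u} R) : E.mid c W ≫ E.p W = omπ k _ ≫ c.app W :=
  Fr_hom_ext fun d x => by
    change (E.p W).hom (d • E.s W ((c.app W).hom x)) = (c.app W).hom (d • x)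
    rw [map_smul, E.p_s, map_smul]

lemma mid_nat {W W' : ModuleCat.{u} R} (f : W ⟶ W') :
    (Fr k D).map (U.map f) ≫ E.mid c W' = E.mid c W ≫ E.Bm f :=
  Fr_hom_ext fun d x => by
    change d • E.s W' ((c.app W').hom ((U.map f).hom x)) =
      (E.Bm f).hom (d • E.s W ((c.app W).hom x))
    rw [map_smul, E.s_nat, nat_apply]

lemma ex_step (W : ModuleCat.{u} R) : ∃ l : (Om k D).obj (U.obj W) ⟶ A.obj W,
    l ≫ E.i W = omι k _ ≫ E.mid c W :=
  (E.se W).exists_lift _ (by
    rw [Category.assoc, mid_p, ← Category.assoc, (seOm k _).zero, zero_comp])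

/-- the natural map on syzygies -/
noncomputable def step : U ⋙ Om k D ⟶ A where
  app W := (E.ex_step c W).choose
  naturality W W' f := by
    have := (E.se W').mono
    rw [← cancel_mono (E.i W'), Category.assoc, Category.assoc, (E.ex_step c W').choose_spec,
      E.i_nat, ← Category.assoc, ← Category.assoc, (E.ex_step c W).choose_spec, Category.assoc,
      Category.assoc, ← E.mid_nat]
    rfl

lemma step_cls (W : ModuleCat.{u} R) {T : ModuleCat.{u} D} {m n : ℕ} (h : 1 + m = n)
    (y : Ext (A.obj W) T m) :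
    (seOm k (U.obj W)).cls.comp ((Ext.mk₀ ((E.step c).app W)).comp y (zero_add m)) h =
      (Ext.mk₀ (c.app W)).comp ((E.se W).cls.comp y h) (zero_add n) :=
  SE.cls_nat' _ _ _ (E.mid c W) _ (E.ex_step c W).choose_spec (E.mid_p c W) h y

end NSE

end Vale.Agent.AR
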