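import Vale.Agent.P195.Corner
import Mathlib.Algebra.Ring.MinimalAxioms
import Mathlib.LinearAlgebra.Span.Basic

/-! The triangular algebra attached to `(D, F, a)`. -/

open CategoryTheory Abelian Limits

universe u

set_option backward.isDefEq.respectTransparency false

namespace Vale.Agent.AR

variable (k : Type u) [Field k] (D : Type u) [Ring D] [Algebra k D]

/-- the map `D → M`, `d ↦ d • v` -/
def rho {D : Type u} [Ring D] (M : ModuleCat.{u} D) (v : M) : ModuleCat.of D D ⟶ M :=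
  ModuleCat.ofHom (LinearMap.toSpanSingleton D M v)

@[simp] lemma rho_hom {D : Type u} [Ring D] (M : ModuleCat.{u} D) (v : M) :
    (rho M v).hom = LinearMap.toSpanSingleton D M v := rfl

/-- input data: a scalar, an additive endofunctor and a natural map to the identity -/
structure Dat where
  lam : k
  F : ModuleCat.{u} D ⥤ ModuleCat.{u} D
  add : F.Additive
  lin : ∀ c : k, F.map (c • 𝟙 (ModuleCat.of D D)) = c • 𝟙 _
  a : ∀ M, F.obj M ⟶ M
  a_nat : ∀ ⦃M M' : ModuleCat.{u} D⦄ (f : M ⟶ M'), F.map f ≫ a M' = a M ≫ f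

variable {k D} (δ : Dat k D)

namespace Dat

instance : δ.F.Additive := δ.add

/-- the bimodule -/
abbrev L : ModuleCat.{u} D := δ.F.obj (ModuleCat.of D D)

/-- the twisting scalar in `D` -/
def t : D := algebraMap k D δ.lam

lemma t_comm (d : D) : δ.t * d = d * δ.t := Algebra.commutes _ _

/-- the bilinear map `L × M → F M` -/
def β (M : ModuleCat.{u} D) : M →+ (δ.L →ₗ[D] δ.F.obj M) where
  toFun v := (δ.F.map (rho M v)).hom
  map_zero' := by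
    have : rho M 0 = 0 := by ext; simp
    rw [this, δ.F.map_zero]; rfl
  map_add' v w := by
    have : rho M (v + w) = rho M v + rho M w := by ext; simp
    rw [this, δ.F.map_add]; rfl

/-- right action on `L` -/
def ra : D →+ (δ.L →ₗ[D] δ.L) := δ.β (ModuleCat.of D D)

/-- the map `L → D` -/
def al : δ.L →ₗ[D] D := (δ.a (ModuleCat.of D D)).hom

lemma map_β {M M' : ModuleCat.{u} D} (f : M ⟶ M') (v : M) (l : δ.L) :
    (δ.F.map f).hom (δ.β M v l) = δ.β M' (f.hom v) l := by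
  have : rho M v ≫ f = rho M' (f.hom v) := by ext; simp
  change (δ.F.map (rho M v) ≫ δ.F.map f).hom l = _
  rw [← δ.F.map_comp, this]; rfl

lemma β_ra (M : ModuleCat.{u} D) (v : M) (d : D) (l : δ.L) :
    δ.β M v (δ.ra d l) = δ.β M (d • v) l := δ.map_β (rho M v) d l

lemma a_β (M : ModuleCat.{u} D) (v : M) (l : δ.L) :
    (δ.a M).hom (δ.β M v l) = δ.al l • v := by
  change (δ.F.map (rho M v) ≫ δ.a M).hom l = _
  rw [δ.a_nat]; rfl

lemma ra_ra (d d' : D) (l : δ.L) : δ.ra d' (δ.ra d l) = δ.ra (d * d') l :=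
  δ.β_ra (ModuleCat.of D D) d' d l

lemma al_ra (d : D) (l : δ.L) : δ.al (δ.ra d l) = δ.al l * d := δ.a_β (ModuleCat.of D D) d l

lemma ra_one (l : δ.L) : δ.ra 1 l = l := by
  have : rho (ModuleCat.of D D) (1 : D) = 𝟙 _ := by ext; simp
  change (δ.F.map (rho (ModuleCat.of D D) (1 : D))).hom l = l
  rw [this, δ.F.map_id]; rfl

lemma ra_alg (c : k) (l : δ.L) : δ.ra (algebraMap k D c) l = algebraMap k D c • l := by
  have : rho (ModuleCat.of D D) (algebraMap k D c) = c • 𝟙 _ := by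
    ext; simp [Algebra.smul_def]
  change (δ.F.map (rho (ModuleCat.of D D) (algebraMap k D c))).hom l = _
  rw [this, δ.lin]; rfl

end Dat

/-- elements of the triangular algebra -/
@[ext]
structure Lam where
  a0 : D
  a1 : D
  v : D
  b0 : D
  b1 : D
  y0 : D
  y1 : D
  l0 : δ.L
  l1 : δ.L
  c1 : D
  c2 : D
  e1 : D
  e2 : D

namespace Lam

variable {δ}

@[simps] instance : Zero (Lam δ) := ⟨⟨0, 0, 0, 0, 0, 0, 0, 0, 0, 0, 0, 0, 0⟩⟩
@[simps] instance : One (Lam δ) := ⟨⟨1, 0, 1, 0, 0, 1, 0, 0, 0, 0, 0, 0, 0⟩⟩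
@[simps] instance : Add (Lam δ) := ⟨fun a b =>
  ⟨a.a0 + b.a0, a.a1 + b.a1, a.v + b.v, a.b0 + b.b0, a.b1 + b.b1, a.y0 + b.y0, a.y1 + b.y1,
    a.l0 + b.l0, a.l1 + b.l1, a.c1 + b.c1, a.c2 + b.c2, a.e1 + b.e1, a.e2 + b.e2⟩⟩
@[simps] instance : Neg (Lam δ) := ⟨fun a =>
  ⟨-a.a0, -a.a1, -a.v, -a.b0, -a.b1, -a.y0, -a.y1, -a.l0, -a.l1, -a.c1, -a.c2, -a.e1, -a.e2⟩⟩
@[simps] instance : Mul (Lam δ) := ⟨fun a b =>
  { a0 := a.a0 * b.a0
    a1 := a.a0 * b.a1 + a.a1 * b.a0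
    v := a.v * b.v
    b0 := a.v * b.b0 + a.b0 * b.a0
    b1 := a.v * b.b1 + a.b0 * b.a1 + a.b1 * b.a0
    y0 := a.y0 * b.y0
    y1 := a.y0 * b.y1 + a.y1 * b.y0
    l0 := a.y0 • b.l0 + δ.ra b.v a.l0
    l1 := a.y0 • b.l1 + a.y1 • b.l0 + δ.ra b.v a.l1
    c1 := a.y0 * b.c1 + δ.al a.l0 * b.b0 + a.c1 * b.a0
    c2 := a.y0 * b.c2 + δ.al a.l0 * b.b0 + a.c2 * b.a0
    e1 := a.y0 * b.e1 + a.y1 * b.c1 + δ.al a.l0 * b.b1 + δ.al a.l1 * b.b0 + a.c1 * b.a1 +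
      a.e1 * b.a0
    e2 := a.y0 * b.e2 + a.y1 * b.c2 + δ.al a.l0 * b.b1 * δ.t + δ.al a.l1 * b.b0 +
      a.c2 * b.a1 * δ.t + a.e2 * b.a0 }⟩

lemma mul_assoc' (a b c : Lam δ) : a * b * c = a * (b * c) := by
  ext <;> simp only [mul_a0, mul_a1, mul_v, mul_b0, mul_b1, mul_y0, mul_y1, mul_l0, mul_l1,
    mul_c1, mul_c2, mul_e1, mul_e2, map_add, map_smul, δ.al_ra, δ.ra_ra, smul_eq_mul, mul_add,
    add_mul, mul_assoc, smul_add, add_smul, mul_smul, δ.t_comm] <;> abel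

instance : Ring (Lam δ) := Ring.ofMinimalAxioms
  (fun a b c => by ext <;> simp [add_assoc])
  (fun a => by ext <;> simp)
  (fun a => by ext <;> simp)
  mul_assoc'
  (fun a => by ext <;> simp)
  (fun a => by ext <;> simp [δ.ra_one])
  (fun a b c => by ext <;> simp [mul_add, add_mul] <;> abel)
  (fun a b c => by ext <;> simp [add_mul, add_smul] <;> abel)

@[simp] lemma sub_def' (a b : Lam δ) : a - b = a + -b := sub_eq_add_neg a b

variable (δ)

/-- embedding at the vertex `X` -/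
@[simps] def iX : D →ₙ+* Lam δ where
  toFun d := ⟨d, 0, 0, 0, 0, 0, 0, 0, 0, 0, 0, 0, 0⟩
  map_mul' a b := by ext <;> simp
  map_zero' := by ext <;> simp
  map_add' a b := by ext <;> simp

/-- embedding at the vertex `V` -/
@[simps] def iV : D →ₙ+* Lam δ where
  toFun d := ⟨0, 0, d, 0, 0, 0, 0, 0, 0, 0, 0, 0, 0⟩
  map_mul' a b := by ext <;> simp
  map_zero' := by ext <;> simp
  map_add' a b := by ext <;> simp

/-- embedding at the vertex `Y` -/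
@[simps] def iY : D →ₙ+* Lam δ where
  toFun d := ⟨0, 0, 0, 0, 0, d, 0, 0, 0, 0, 0, 0, 0⟩
  map_mul' a b := by ext <;> simp
  map_zero' := by ext <;> simp
  map_add' a b := by ext <;> simp

/-- loop at `X` -/
@[simps] def xX : Lam δ := ⟨0, 1, 0, 0, 0, 0, 0, 0, 0, 0, 0, 0, 0⟩
/-- loop at `Y` -/
@[simps] def xY : Lam δ := ⟨0, 0, 0, 0, 0, 0, 1, 0, 0, 0, 0, 0, 0⟩
/-- first arrow `X → Y` -/
@[simps] def g1 : Lam δ := ⟨0, 0, 0, 0, 0, 0, 0, 0, 0, 1, 0, 0, 0⟩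
/-- second arrow `X → Y` -/
@[simps] def g2 : Lam δ := ⟨0, 0, 0, 0, 0, 0, 0, 0, 0, 0, 1, 0, 0⟩
/-- arrow `X → V` -/
@[simps] def r : Lam δ := ⟨0, 0, 0, 1, 0, 0, 0, 0, 0, 0, 0, 0, 0⟩
/-- arrows `V → Y` -/
@[simps] def mm : δ.L →+ Lam δ where
  toFun l := ⟨0, 0, 0, 0, 0, 0, 0, l, 0, 0, 0, 0, 0⟩
  map_zero' := by ext <;> simp
  map_add' a b := by ext <;> simp

/-- the structure map -/
@[simps] def alg : k →+* Lam δ where
  toFun c := ⟨algebraMap k D c, 0, algebraMap k D c, 0, 0, algebraMap k D c, 0, 0, 0, 0, 0, 0, 0⟩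
  map_mul' a b := by ext <;> simp
  map_one' := by ext <;> simp
  map_zero' := by ext <;> simp
  map_add' a b := by ext <;> simp

instance : Algebra k (Lam δ) := (alg δ).toAlgebra' (fun c a => by
  ext <;> simp [Algebra.commutes, δ.ra_alg])

lemma algebraMap_eq (c : k) : algebraMap k (Lam δ) c = alg δ c := rfl

lemma decX (d : Lam δ) : d * iX δ 1 = iX δ d.a0 + iX δ d.a1 * xX δ + iV δ d.b0 * r δ +
    iV δ d.b1 * (r δ * xX δ) + iY δ d.c1 * g1 δ + iY δ d.c2 * g2 δ +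
    iY δ d.e1 * (xY δ * g1 δ) + iY δ d.e2 * (xY δ * g2 δ) := by
  ext <;> simp

lemma decV (d : Lam δ) : d * iV δ 1 = iV δ d.v + mm δ d.l0 + xY δ * mm δ d.l1 := by
  ext <;> simp [δ.ra_one]

lemma decY (d : Lam δ) : d * iY δ 1 = iY δ d.y0 + iY δ d.y1 * xY δ := by
  ext <;> simp

lemma one_eq : (1 : Lam δ) = iX δ 1 + iV δ 1 + iY δ 1 := by
  ext <;> simp

end Lam

/-- representations: three modules with structure maps -/
structure Rep where
  X : ModuleCat.{u} D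
  V : ModuleCat.{u} D
  Y : ModuleCat.{u} D
  xX : X →ₗ[D] X
  xY : Y →ₗ[D] Y
  g1 : X →ₗ[D] Y
  g2 : X →ₗ[D] Y
  r : X →ₗ[D] V
  m : V →+ (δ.L →ₗ[D] Y)
  xX_xX : ∀ w, xX (xX w) = 0
  xY_xY : ∀ w, xY (xY w) = 0
  g1_x : ∀ w, g1 (xX w) = xY (g1 w)
  g2_x : ∀ w, g2 (xX w) = δ.t • xY (g2 w)
  m_smul : ∀ (d : D) v l, m (d • v) l = m v (δ.ra d l)
  m_r : ∀ w l, m (r w) l = δ.al l • (g1 w + g2 w)

namespace Rep

variable {δ} (ρ : Rep δ)

/-- the underlying type of the realization -/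
@[ext]
structure Car where
  x : ρ.X
  v : ρ.V
  y : ρ.Y

namespace Car

variable {ρ}

@[simps] instance : Zero ρ.Car := ⟨⟨0, 0, 0⟩⟩
@[simps] instance : Add ρ.Car := ⟨fun a b => ⟨a.x + b.x, a.v + b.v, a.y + b.y⟩⟩
@[simps] instance : Neg ρ.Car := ⟨fun a => ⟨-a.x, -a.v, -a.y⟩⟩

instance : AddCommGroup ρ.Car :=
  { AddGroup.ofLeftAxioms (G := ρ.Car) (fun a b c => by ext <;> simp [add_assoc])
      (fun a => by ext <;> simp) (fun a => by ext <;> simp) with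
    add_comm := fun a b => by ext <;> simp [add_comm] }

@[simp] lemma sub_x (a b : ρ.Car) : (a - b).x = a.x - b.x := by simp [sub_eq_add_neg]
@[simp] lemma sub_v (a b : ρ.Car) : (a - b).v = a.v - b.v := by simp [sub_eq_add_neg]
@[simp] lemma sub_y (a b : ρ.Car) : (a - b).y = a.y - b.y := by simp [sub_eq_add_neg]

@[simps] instance : SMul (Lam δ) ρ.Car := ⟨fun a w =>
  { x := a.a0 • w.x + a.a1 • ρ.xX w.x
    v := a.v • w.v + a.b0 • ρ.r w.x + a.b1 • ρ.r (ρ.xX w.x)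
    y := a.y0 • w.y + a.y1 • ρ.xY w.y + ρ.m w.v a.l0 + ρ.xY (ρ.m w.v a.l1) + a.c1 • ρ.g1 w.x +
      a.c2 • ρ.g2 w.x + a.e1 • ρ.xY (ρ.g1 w.x) + a.e2 • ρ.xY (ρ.g2 w.x) }⟩

lemma mul_smul' (a b : Lam δ) (w : ρ.Car) : (a * b) • w = a • b • w := by
  ext <;> simp only [smul_x, smul_v, smul_y, Lam.mul_a0, Lam.mul_a1, Lam.mul_v, Lam.mul_b0,
    Lam.mul_b1, Lam.mul_y0, Lam.mul_y1, Lam.mul_l0, Lam.mul_l1, Lam.mul_c1, Lam.mul_c2,
    Lam.mul_e1, Lam.mul_e2, map_add, map_smul, LinearMap.add_apply, ρ.xX_xX, ρ.xY_xY, ρ.g1_x,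
    ρ.g2_x, ρ.m_smul, ρ.m_r, δ.al_ra, smul_add, add_smul, mul_smul, smul_zero,
    add_zero] <;> abel

instance : Module (Lam δ) ρ.Car where
  one_smul w := by ext <;> simp
  mul_smul := mul_smul'
  smul_zero a := by ext <;> simp
  smul_add a b c := by ext <;> simp <;> abel
  add_smul a b c := by ext <;> simp [add_smul] <;> abel
  zero_smul a := by ext <;> simp

end Car

/-- the module attached to a representation -/
abbrev real : ModuleCat.{u} (Lam δ) := ModuleCat.of (Lam δ) ρ.Car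

end Rep

/-- morphisms of representations -/
structure RepHom {δ : Dat k D} (ρ σ : Rep δ) where
  fX : ρ.X →ₗ[D] σ.X
  fV : ρ.V →ₗ[D] σ.V
  fY : ρ.Y →ₗ[D] σ.Y
  xX : ∀ w, fX (ρ.xX w) = σ.xX (fX w)
  xY : ∀ w, fY (ρ.xY w) = σ.xY (fY w)
  g1 : ∀ w, fY (ρ.g1 w) = σ.g1 (fX w)
  g2 : ∀ w, fY (ρ.g2 w) = σ.g2 (fX w)
  r : ∀ w, fV (ρ.r w) = σ.r (fX w)
  m : ∀ v l, fY (ρ.m v l) = σ.m (fV v) l

namespace RepHom

variable {δ} {ρ σ τ : Rep δ} (f : RepHom ρ σ)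

/-- the induced module map -/
def real : ρ.real ⟶ σ.real := ModuleCat.ofHom
  { toFun := fun w => ⟨f.fX w.x, f.fV w.v, f.fY w.y⟩
    map_add' := fun a b => by ext <;> simp
    map_smul' := fun a w => by
      ext <;> simp [f.xX, f.xY, f.g1, f.g2, f.r, f.m] }

@[simp] lemma real_x (w : ρ.Car) : (f.real.hom w).x = f.fX w.x := rfl
@[simp] lemma real_v (w : ρ.Car) : (f.real.hom w).v = f.fV w.v := rfl
@[simp] lemma real_y (w : ρ.Car) : (f.real.hom w).y = f.fY w.y := rfl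

lemma se (g : RepHom σ τ)
    (iX : Function.Injective f.fX) (eX : Function.Exact f.fX g.fX) (sX : Function.Surjective g.fX)
    (iV : Function.Injective f.fV) (eV : Function.Exact f.fV g.fV) (sV : Function.Surjective g.fV)
    (iY : Function.Injective f.fY) (eY : Function.Exact f.fY g.fY)
    (sY : Function.Surjective g.fY) : SE f.real g.real := by
  refine ⟨fun a b h => ?_, fun b => ⟨fun h => ?_, ?_⟩, fun c => ?_⟩
  · exact Rep.Car.ext (iX (congrArg Rep.Car.x h)) (iV (congrArg Rep.Car.v h))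
      (iY (congrArg Rep.Car.y h))
  · obtain ⟨x, hx⟩ := (eX b.x).1 (congrArg Rep.Car.x h)
    obtain ⟨v, hv⟩ := (eV b.v).1 (congrArg Rep.Car.v h)
    obtain ⟨y, hy⟩ := (eY b.y).1 (congrArg Rep.Car.y h)
    exact ⟨⟨x, v, y⟩, Rep.Car.ext hx hv hy⟩
  · rintro ⟨a, rfl⟩
    exact Rep.Car.ext (eX.apply_apply_eq_zero _) (eV.apply_apply_eq_zero _)
      (eY.apply_apply_eq_zero _)
  · obtain ⟨x, hx⟩ := sX c.x
    obtain ⟨v, hv⟩ := sV c.v
    obtain ⟨y, hy⟩ := sY c.y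
    exact ⟨⟨x, v, y⟩, Rep.Car.ext hx hv hy⟩

end RepHom

end Vale.Agent.AR
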