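import Vale.Agent.P195.Main
import Vale.Agent.P195.Omega

/-! Natural extensions on modules over the triangular algebra. -/

open CategoryTheory Abelian Limits

universe u

set_option backward.isDefEq.respectTransparency false

namespace Vale.Agent.AR

variable {k : Type u} [Field k] {D : Type u} [Ring D] [Algebra k D] {δ : Dat k D}

lemma SE.comp_bij {R : Type u} [Ring R] {A B C C' : ModuleCat.{u} R} {f : A ⟶ B} {g : B ⟶ C}
    (h : SE f g) (e : C ⟶ C') (he : Function.Bijective e.hom) : SE f (g ≫ e) := by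
  refine ⟨h.inj, fun b => ?_, he.2.comp h.surj⟩
  rw [← h.exa b]
  exact ⟨fun hb => he.1 (hb.trans (map_zero _).symm), fun hb => by
    change e.hom (g.hom b) = 0
    rw [hb, map_zero]⟩

lemma unitSec_smul (W : ModuleCat.{u} (Lam δ)) (d : Lam δ) (w : W) :
    unitSec W (d • w) = d • unitSec W w := by
  apply (counit_bij W).1
  rw [counit_unitSec, map_smul (counit W).hom, counit_unitSec]

lemma unitSec_nat {W W' : ModuleCat.{u} (Lam δ)} (f : W ⟶ W') (w : W) :
    (unrealMap f).real.hom (unitSec W w) = unitSec W' (f.hom w) := by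
  apply (counit_bij W').1
  rw [counit_unitSec]
  change ((unrealMap f).real ≫ counit W').hom _ = _
  rw [counit_nat]
  change f.hom ((counit W).hom _) = _
  rw [counit_unitSec]

variable (δ) in
/-- the inverse twisted loop -/
@[simps] def xh {M : Type u} [AddCommGroup M] [Module D M] (x : M →ₗ[D] M) : M →ₗ[D] M where
  toFun v := algebraMap k D δ.lam⁻¹ • x v
  map_add' a b := by simp
  map_smul' d v := by simp [smul_smul, Algebra.commutes]

lemma map_xh {M M' : Type u} [AddCommGroup M] [Module D M] [AddCommGroup M'] [Module D M']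
    {x : M →ₗ[D] M} {x' : M' →ₗ[D] M'} (f : M →ₗ[D] M') (h : ∀ w, f (x w) = x' (f w)) (w : M) :
    f (xh δ x w) = xh δ x' (f w) := by simp [h]

namespace Rep

variable (ρ : Rep δ)

/-- extension by the `X` part placed at `V` -/
abbrev fl : Rep δ where
  X := ρ.X
  V := ModuleCat.of D (ρ.V × ρ.X)
  Y := ρ.Y
  xX := ρ.xX
  xY := ρ.xY
  g1 := ρ.g1
  g2 := ρ.g2
  r := ρ.r.prod LinearMap.id
  m := ρ.m.comp (AddMonoidHom.fst _ _)
  xX_xX := ρ.xX_xX
  xY_xY := ρ.xY_xY
  g1_x := ρ.g1_x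
  g2_x := ρ.g2_x
  m_smul d v l := ρ.m_smul d v.1 l
  m_r := ρ.m_r

/-- inclusion -/
def flI : RepHom (sVr δ ρ.X) ρ.fl where
  fX := 0
  fV := LinearMap.inr D _ _
  fY := 0
  xX := by simp
  xY := by simp
  g1 := by simp
  g2 := by simp
  r := by simp
  m := by simp

/-- projection -/
def flP : RepHom ρ.fl ρ where
  fX := LinearMap.id
  fV := LinearMap.fst D _ _
  fY := LinearMap.id
  xX _ := rfl
  xY _ := rfl
  g1 _ := rfl
  g2 _ := rfl
  r _ := rfl
  m _ _ := rfl

lemma fl_se : SE ρ.flI.real ρ.flP.real :=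
  RepHom.se _ _ (unit_inj _) exact_zero_id Function.surjective_id
    LinearMap.inr_injective Function.Exact.inr_fst LinearMap.fst_surjective
    (unit_inj _) exact_zero_id Function.surjective_id

/-- section -/
def flS : ρ.Car →+ ρ.fl.Car where
  toFun w := ⟨w.x, (w.v, 0), w.y⟩
  map_zero' := rfl
  map_add' a b := Rep.Car.ext rfl (Prod.ext rfl (add_zero _).symm) rfl

lemma flS_smul (c : k) (w : ρ.Car) :
    ρ.flS (algebraMap k (Lam δ) c • w) = algebraMap k (Lam δ) c • ρ.flS w := by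
  refine Rep.Car.ext ?_ ?_ ?_
  · exact (alg_smul_x δ c w).trans (alg_smul_x δ c (ρ.flS w)).symm
  · refine Eq.trans ?_ (alg_smul_v δ c (ρ.flS w)).symm
    exact Prod.ext (alg_smul_v δ c w) (smul_zero _).symm
  · exact (alg_smul_y δ c w).trans (alg_smul_y δ c (ρ.flS w)).symm

/-- the kernel of the sharp extension -/
abbrev Cr : Rep δ where
  X := Z0 D
  V := ρ.X
  Y := ρ.X
  xX := 0
  xY := xh δ ρ.xX
  g1 := 0
  g2 := 0
  r := 0
  m := alm δ LinearMap.id
  xX_xX := by simp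
  xY_xY := by simp [ρ.xX_xX]
  g1_x := by simp
  g2_x := by simp
  m_smul := by simp [δ.al_ra, mul_smul]
  m_r := by simp

/-- the sharp extension -/
abbrev shr (hl : δ.lam ≠ 0) : Rep δ where
  X := ρ.X
  V := ModuleCat.of D (ρ.V × ρ.X)
  Y := ModuleCat.of D (ρ.Y × ρ.X)
  xX := ρ.xX
  xY := ρ.xY.prodMap (xh δ ρ.xX)
  g1 := LinearMap.inl D _ _ ∘ₗ ρ.g1
  g2 := ρ.g2.prod LinearMap.id
  r := ρ.r.prod LinearMap.id
  m := { toFun := fun v => (ρ.m v.1).prod (alm δ LinearMap.id v.2)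
         map_zero' := by ext <;> simp
         map_add' := fun a b => by ext <;> simp }
  xX_xX := ρ.xX_xX
  xY_xY w := Prod.ext (ρ.xY_xY _) (by simp [ρ.xX_xX])
  g1_x w := Prod.ext (ρ.g1_x _) (by simp)
  g2_x w := Prod.ext (ρ.g2_x _) (inv_t δ hl _).symm
  m_smul d v l := Prod.ext (ρ.m_smul _ _ _) (by simp [δ.al_ra, mul_smul])
  m_r w l := Prod.ext (ρ.m_r _ _) (by simp)

variable (hl : δ.lam ≠ 0)

/-- inclusion -/
def shI : RepHom ρ.Cr (ρ.shr hl) where
  fX := 0
  fV := LinearMap.inr D _ _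
  fY := LinearMap.inr D _ _
  xX := by simp
  xY w := Prod.ext (map_zero ρ.xY).symm rfl
  g1 w := Prod.ext (map_zero ρ.g1).symm rfl
  g2 w := Prod.ext (map_zero ρ.g2).symm rfl
  r w := Prod.ext (map_zero ρ.r).symm rfl
  m v l := Prod.ext (by simp) rfl

/-- projection -/
def shP : RepHom (ρ.shr hl) ρ where
  fX := LinearMap.id
  fV := LinearMap.fst D _ _
  fY := LinearMap.fst D _ _
  xX _ := rfl
  xY _ := rfl
  g1 _ := rfl
  g2 _ := rfl
  r _ := rfl
  m _ _ := rfl

lemma sh_se : SE (ρ.shI hl).real (ρ.shP hl).real :=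
  RepHom.se _ _ (unit_inj _) exact_zero_id Function.surjective_id
    LinearMap.inr_injective Function.Exact.inr_fst LinearMap.fst_surjective
    LinearMap.inr_injective Function.Exact.inr_fst LinearMap.fst_surjective

/-- section -/
def shS : ρ.Car →+ (ρ.shr hl).Car where
  toFun w := ⟨w.x, (w.v, 0), (w.y, 0)⟩
  map_zero' := rfl
  map_add' a b :=
    Rep.Car.ext rfl (Prod.ext rfl (add_zero _).symm) (Prod.ext rfl (add_zero _).symm)

lemma shS_smul (c : k) (w : ρ.Car) :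
    ρ.shS hl (algebraMap k (Lam δ) c • w) = algebraMap k (Lam δ) c • ρ.shS hl w := by
  refine Rep.Car.ext ?_ ?_ ?_
  · exact (alg_smul_x δ c w).trans (alg_smul_x δ c (ρ.shS hl w)).symm
  · refine Eq.trans ?_ (alg_smul_v δ c (ρ.shS hl w)).symm
    exact Prod.ext (alg_smul_v δ c w) (smul_zero _).symm
  · refine Eq.trans ?_ (alg_smul_y δ c (ρ.shS hl w)).symm
    exact Prod.ext (alg_smul_y δ c w) (smul_zero _).symm

/-- the roof -/
abbrev Jr : Rep δ where
  X := Z0 D
  V := ρ.X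
  Y := ModuleCat.of D ((δ.F.obj ρ.X × δ.F.obj ρ.X) × ρ.X)
  xX := 0
  xY := (sh D _).prodMap (xh δ ρ.xX)
  g1 := 0
  g2 := 0
  r := 0
  m := { toFun := fun v => LinearMap.inl D _ _ ∘ₗ LinearMap.inl D _ _ ∘ₗ δ.β ρ.X v
         map_zero' := by simp
         map_add' := fun a b => by simp [LinearMap.comp_add] }
  xX_xX := by simp
  xY_xY w := Prod.ext rfl (by simp [ρ.xX_xX])
  g1_x := by simp [Prod.ext_iff]
  g2_x := by simp [Prod.ext_iff]
  m_smul := by simp [δ.β_ra]
  m_r := by simp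

/-- the map `(y0, y1) ↦ a y0 + x a y1` -/
@[simps!] def ev : δ.F.obj ρ.X × δ.F.obj ρ.X →ₗ[D] ρ.X :=
  ((δ.a ρ.X).hom).coprod (xh δ ρ.xX ∘ₗ (δ.a ρ.X).hom)

/-- left leg of the roof -/
def Jp : RepHom ρ.Jr ρ.Cr where
  fX := 0
  fV := LinearMap.id
  fY := ρ.ev.coprod LinearMap.id
  xX := by simp
  xY := by simp [ρ.xX_xX]
  g1 := by simp
  g2 := by simp
  r := by simp
  m := by simp [δ.a_β]

/-- right leg of the roof -/
def Ja : RepHom ρ.Jr ρ where
  fX := 0
  fV := 0
  fY := ρ.g2 ∘ₗ LinearMap.snd D _ _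
  xX := by simp
  xY := by simp [ρ.g2_x, t_inv δ hl]
  g1 := by simp
  g2 := by simp
  r := by simp
  m := by simp

/-- kernel of the left leg -/
def Jq : RepHom (TYr δ (δ.F.obj ρ.X)) ρ.Jr where
  fX := 0
  fV := 0
  fY := LinearMap.id.prod (-ρ.ev)
  xX := by simp
  xY := by simp [ρ.xX_xX]
  g1 := by simp [Prod.ext_iff]
  g2 := by simp [Prod.ext_iff]
  r := by simp
  m := by
    intro v l
    rw [map_zero]
    simp [Prod.ext_iff]

lemma J_se : SE ρ.Jq.real ρ.Jp.real := by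
  refine RepHom.se _ _ (unit_inj _) (unit_exa _ _) (unit_surj _)
    (unit_inj _) exact_zero_id Function.surjective_id
    (fun a b h => congrArg Prod.fst h) ?_ (fun w => ⟨(0, w), ?_⟩)
  · rintro ⟨a, b⟩
    refine ⟨fun h => ⟨a, Prod.ext rfl ?_⟩, ?_⟩
    · exact neg_eq_of_add_eq_zero_right h
    · rintro ⟨c, hc⟩
      rw [← hc]
      exact add_neg_cancel (ρ.ev c)
  · change ρ.ev 0 + w = w
    rw [map_zero, zero_add]

end Rep

namespace RepHom

variable {ρ σ : Rep δ} (f : RepHom ρ σ)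

/-- functoriality -/
def fl : RepHom ρ.fl σ.fl where
  fX := f.fX
  fV := f.fV.prodMap f.fX
  fY := f.fY
  xX := f.xX
  xY := f.xY
  g1 := f.g1
  g2 := f.g2
  r w := Prod.ext (f.r w) rfl
  m v l := f.m v.1 l

/-- functoriality -/
def Cm : RepHom ρ.Cr σ.Cr where
  fX := 0
  fV := f.fX
  fY := f.fX
  xX := by simp
  xY := map_xh _ f.xX
  g1 := by simp
  g2 := by simp
  r := by simp
  m := by simp

/-- functoriality -/
def shm (hl : δ.lam ≠ 0) : RepHom (ρ.shr hl) (σ.shr hl) where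
  fX := f.fX
  fV := f.fV.prodMap f.fX
  fY := f.fY.prodMap f.fX
  xX := f.xX
  xY w := Prod.ext (f.xY _) (map_xh _ f.xX _)
  g1 w := Prod.ext (f.g1 _) (map_zero f.fX)
  g2 w := Prod.ext (f.g2 _) rfl
  r w := Prod.ext (f.r w) rfl
  m v l := Prod.ext (f.m v.1 l) (map_smul f.fX _ _)

/-- functoriality -/
def Jm : RepHom ρ.Jr σ.Jr where
  fX := 0
  fV := f.fX
  fY := ((δ.F.map (ModuleCat.ofHom f.fX)).hom.prodMap
    (δ.F.map (ModuleCat.ofHom f.fX)).hom).prodMap f.fX
  xX := by simp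
  xY w := Prod.ext (Prod.ext (map_zero (δ.F.map (ModuleCat.ofHom f.fX)).hom) rfl)
    (map_xh _ f.xX _)
  g1 := by simp
  g2 := by simp
  r := by simp
  m v l := Prod.ext (Prod.ext (δ.map_β (ModuleCat.ofHom f.fX) v l)
    (map_zero (δ.F.map (ModuleCat.ofHom f.fX)).hom)) (map_zero f.fX)

end RepHom

variable (δ)

/-- the functor `C` -/
def Cf : ModuleCat.{u} (Lam δ) ⥤ ModuleCat.{u} (Lam δ) where
  obj W := (unreal δ W).Cr.real
  map f := (unrealMap f).Cm.real
  map_id W := real_hom_ext δ fun w => ⟨rfl, rfl, rfl⟩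
  map_comp f g := real_hom_ext δ fun w => ⟨rfl, rfl, rfl⟩

lemma Jm_y {W W' : ModuleCat.{u} (Lam δ)} (f : W ⟶ W') (w : (unreal δ W).Jr.Car) :
    ((unrealMap f).Jm.real.hom w).y = ((((GX δ ⋙ δ.F).map f).hom w.y.1.1,
      ((GX δ ⋙ δ.F).map f).hom w.y.1.2), ((GX δ).map f).hom w.y.2) := rfl

/-- the functor `J` -/
def Jf : ModuleCat.{u} (Lam δ) ⥤ ModuleCat.{u} (Lam δ) where
  obj W := (unreal δ W).Jr.real
  map f := (unrealMap f).Jm.real
  map_id W := real_hom_ext δ fun w => ⟨rfl, rfl, by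
    rw [Jm_y, CategoryTheory.Functor.map_id]; rfl⟩
  map_comp f g := real_hom_ext δ fun w => ⟨rfl, rfl, by
    rw [Jm_y, CategoryTheory.Functor.map_comp]; rfl⟩

instance : (Jf δ).Additive where
  map_add := by
    intro A B f g
    refine real_hom_ext δ fun w => ⟨rfl, rfl, ?_⟩
    refine (Jm_y δ (f + g) w).trans ?_
    rw [Functor.map_add]
    rfl

instance [δ.F.Linear k] : (Jf δ).Linear k where
  map_smul := by
    intro A B f c
    refine real_hom_ext δ fun w => ⟨rfl, ?_, ?_⟩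
    · refine Eq.trans ?_ (alg_smul_v δ c ((unrealMap f).Jm.real.hom w)).symm
      change ((GX δ).map (c • f)).hom w.v = _
      rw [Functor.map_smul]
      rfl
    · refine Eq.trans ?_ (alg_smul_y δ c ((unrealMap f).Jm.real.hom w)).symm
      refine (Jm_y δ (c • f) w).trans ?_
      rw [Functor.map_smul, Functor.map_smul]
      rfl

instance : (TY δ).Linear k where
  map_smul := by
    intro A B f c
    exact real_hom_ext δ fun w => ⟨rfl, rfl, (alg_smul_y δ c ((TYm δ f).real.hom w)).symm⟩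

lemma Cf_exa : Exa (Cf δ) := fun _ _ _ f g h =>
  have h' := cor_exa (Lam.iX δ) h
  RepHom.se (unrealMap f).Cm (unrealMap g).Cm (unit_inj _) (unit_exa _ _) (unit_surj _)
    h'.inj h'.exa h'.surj h'.inj h'.exa h'.surj

lemma Jf_exa (hF : Exa δ.F) : Exa (Jf δ) := fun _ _ _ f g h =>
  have h' := cor_exa (Lam.iX δ) h
  have h'' := hF h'
  RepHom.se (unrealMap f).Jm (unrealMap g).Jm (unit_inj _) (unit_exa _ _) (unit_surj _)
    h'.inj h'.exa h'.surj ((h''.inj.prodMap h''.inj).prodMap h'.inj)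
    (exact_prodMap (exact_prodMap h''.exa h''.exa) h'.exa)
    ((h''.surj.prodMap h''.surj).prodMap h'.surj)

lemma a_apply {M M' : ModuleCat.{u} D} (f : M ⟶ M') (x : δ.F.obj M) :
    (δ.a M').hom ((δ.F.map f).hom x) = f.hom ((δ.a M).hom x) :=
  congrArg (fun φ : δ.F.obj M ⟶ M' => φ.hom x) (δ.a_nat f)

/-- left leg, as a natural transformation -/
def Jpn : Jf δ ⟶ Cf δ where
  app W := (unreal δ W).Jp.real
  naturality W W' f := real_hom_ext δ fun w => ⟨rfl, rfl, by
    change ((δ.a _).hom ((δ.F.map ((GX δ).map f)).hom w.y.1.1) +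
      xh δ (unreal δ W').xX ((δ.a _).hom ((δ.F.map ((GX δ).map f)).hom w.y.1.2))) +
      ((GX δ).map f).hom w.y.2 = ((GX δ).map f).hom (((δ.a _).hom w.y.1.1 +
      xh δ (unreal δ W).xX ((δ.a _).hom w.y.1.2)) + w.y.2)
    rw [a_apply, a_apply, map_add, map_add, map_xh ((GX δ).map f).hom (unrealMap f).xX]⟩

/-- right leg, as a natural transformation -/
def Jan (hl : δ.lam ≠ 0) : Jf δ ⟶ 𝟭 _ where
  app W := ((unreal δ W).Ja hl).real ≫ counit W
  naturality W W' f := by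
    change (unrealMap f).Jm.real ≫ _ ≫ _ = (_ ≫ _) ≫ f
    rw [Category.assoc, ← counit_nat, ← Category.assoc, ← Category.assoc]
    congr 1
    exact real_hom_ext δ fun w => ⟨(map_zero (unrealMap f).fX).symm,
      (map_zero (unrealMap f).fV).symm, ((unrealMap f).g2 _).symm⟩

/-- the flat extension -/
def nseFl : NSE k (GX δ ⋙ sV δ) (𝟭 (ModuleCat.{u} (Lam δ))) where
  B W := (unreal δ W).fl.real
  Bm f := (unrealMap f).fl.real
  i W := (unreal δ W).flI.real
  p W := (unreal δ W).flP.real ≫ counit W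
  se W := (unreal δ W).fl_se.comp_bij _ (counit_bij W)
  i_nat f := real_hom_ext δ fun w => ⟨(map_zero (unrealMap f).fX).symm,
    Prod.ext (map_zero (unrealMap f).fV).symm rfl, (map_zero (unrealMap f).fY).symm⟩
  s W := (unreal δ W).flS.comp (unitSec W)
  s_smul W c x := by
    change (unreal δ W).flS (unitSec W (_ • x)) = _
    rw [unitSec_smul, Rep.flS_smul]
    rfl
  p_s W x := counit_unitSec W x
  s_nat {W W'} f x := by
    change _ = (unreal δ W').flS (unitSec W' (f.hom x))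
    rw [← unitSec_nat]
    exact Rep.Car.ext rfl (Prod.ext rfl (map_zero (unrealMap f).fX)) rfl

/-- the sharp extension -/
def nseSh (hl : δ.lam ≠ 0) : NSE k (Cf δ) (𝟭 (ModuleCat.{u} (Lam δ))) where
  B W := ((unreal δ W).shr hl).real
  Bm f := ((unrealMap f).shm hl).real
  i W := ((unreal δ W).shI hl).real
  p W := ((unreal δ W).shP hl).real ≫ counit W
  se W := ((unreal δ W).sh_se hl).comp_bij _ (counit_bij W)
  i_nat f := real_hom_ext δ fun w => ⟨(map_zero (unrealMap f).fX).symm,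
    Prod.ext (map_zero (unrealMap f).fV).symm rfl, Prod.ext (map_zero (unrealMap f).fY).symm rfl⟩
  s W := ((unreal δ W).shS hl).comp (unitSec W)
  s_smul W c x := by
    change (unreal δ W).shS hl (unitSec W (_ • x)) = _
    rw [unitSec_smul, Rep.shS_smul]
    rfl
  p_s W x := counit_unitSec W x
  s_nat {W W'} f x := by
    change _ = (unreal δ W').shS hl (unitSec W' (f.hom x))
    rw [← unitSec_nat]
    exact Rep.Car.ext rfl (Prod.ext rfl (map_zero (unrealMap f).fX))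
      (Prod.ext rfl (map_zero (unrealMap f).fX))

/-- the extension defining `sV` -/
def nseV : NSE k (δ.F ⋙ TY δ) (sV δ) where
  B M := (JVr δ M).real
  Bm f := (JVm δ f).real
  i M := (sJ δ M).real
  p M := (pJ δ M).real
  se M := seV δ M
  i_nat f := real_hom_ext δ fun w => ⟨rfl, (map_zero f.hom).symm, rfl⟩
  s M :=
    { toFun := fun w : (sVr δ M).Car => (⟨0, w.v, 0⟩ : (JVr δ M).Car)
      map_zero' := rfl
      map_add' := fun a b => Rep.Car.ext rfl rfl (add_zero _).symm }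
  s_smul M c x := Rep.Car.ext rfl
    ((alg_smul_v δ c x).trans (alg_smul_v δ c (⟨0, x.v, 0⟩ : (JVr δ M).Car)).symm)
    ((smul_zero _).symm.trans (alg_smul_y δ c (⟨0, x.v, 0⟩ : (JVr δ M).Car)).symm)
  p_s M x := rfl
  s_nat f x := Rep.Car.ext rfl rfl (map_zero (JVm δ f).fY)

/-- applying `TY` to a natural extension -/
def NSE.ty {R : Type u} [Ring R] {A C : ModuleCat.{u} R ⥤ ModuleCat.{u} D} (E : NSE k A C) :
    NSE k (A ⋙ TY δ) (C ⋙ TY δ) where
  B W := (TY δ).obj (E.B W)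
  Bm f := (TY δ).map (E.Bm f)
  i W := (TY δ).map (E.i W)
  p W := (TY δ).map (E.p W)
  se W := TY_exa δ (E.se W)
  i_nat f := by
    rw [Functor.comp_map, ← Functor.map_comp, E.i_nat, Functor.map_comp]
  s W :=
    { toFun := fun w : (TYr δ (C.obj W)).Car =>
        (⟨0, 0, (E.s W w.y.1, E.s W w.y.2)⟩ : (TYr δ (E.B W)).Car)
      map_zero' := Rep.Car.ext rfl rfl (Prod.ext (map_zero (E.s W)) (map_zero (E.s W)))
      map_add' := fun a b =>
        Rep.Car.ext rfl rfl (Prod.ext (map_add (E.s W) _ _) (map_add (E.s W) _ _)) }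
  s_smul W c x := Rep.Car.ext rfl rfl (by
    refine Eq.trans ?_ (alg_smul_y δ c
      (⟨0, 0, (E.s W x.y.1, E.s W x.y.2)⟩ : (TYr δ (E.B W)).Car)).symm
    change (E.s W (algebraMap k (Lam δ) c • x : (TYr δ (C.obj W)).Car).y.1,
      E.s W (algebraMap k (Lam δ) c • x : (TYr δ (C.obj W)).Car).y.2) = _
    rw [alg_smul_y]
    exact Prod.ext (E.s_smul W c _) (E.s_smul W c _))
  p_s W x := Rep.Car.ext rfl rfl (Prod.ext (E.p_s W _) (E.p_s W _))
  s_nat f x := Rep.Car.ext rfl rfl (Prod.ext (E.s_nat f _) (E.s_nat f _))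

/-- the map `TY M → ρ` given by a map `M → ρ.Y` -/
def TYlift {M : ModuleCat.{u} D} (ρ : Rep δ) (φ : M →ₗ[D] ρ.Y) : RepHom (TYr δ M) ρ where
  fX := 0
  fV := 0
  fY := φ.coprod (ρ.xY ∘ₗ φ)
  xX := by simp
  xY := by simp [ρ.xY_xY]
  g1 := by simp
  g2 := by simp
  r := by simp
  m := by simp

/-- the multiplication map -/
def mu : GX δ ⋙ δ.F ⋙ TY δ ⟶ 𝟭 _ where
  app W := (TYlift δ (unreal δ W) (δ.a _ ≫ (ng2 δ).app W).hom).real ≫ counit W
  naturality W W' f := by
    change (TYm δ (δ.F.map ((GX δ).map f))).real ≫ _ ≫ _ = (_ ≫ _) ≫ f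
    rw [Category.assoc, ← counit_nat, ← Category.assoc, ← Category.assoc]
    congr 1
    refine real_hom_ext δ fun w => ⟨(map_zero (unrealMap f).fX).symm,
      (map_zero (unrealMap f).fV).symm, ?_⟩
    change (unreal δ W').g2 ((δ.a _).hom ((δ.F.map ((GX δ).map f)).hom w.y.1)) +
      (unreal δ W').xY ((unreal δ W').g2 ((δ.a _).hom ((δ.F.map ((GX δ).map f)).hom w.y.2))) =
      (unrealMap f).fY ((unreal δ W).g2 ((δ.a _).hom w.y.1) +
        (unreal δ W).xY ((unreal δ W).g2 ((δ.a _).hom w.y.2)))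
    rw [a_apply, a_apply, map_add, (unrealMap f).xY, (unrealMap f).g2, (unrealMap f).g2]
    rfl

lemma etaY_mu (W : ModuleCat.{u} (Lam δ)) :
    etaY δ _ ≫ (GY δ).map ((mu δ).app W) = δ.a _ ≫ (ng2 δ).app W := by
  refine ModuleCat.hom_ext (LinearMap.ext fun w => Cor.ext ?_)
  change (0 : W) + 0 + (Cor.val ((δ.a _ ≫ (ng2 δ).app W).hom w) +
    Lam.xY δ • Cor.val ((δ.a _ ≫ (ng2 δ).app W).hom 0)) = _
  rw [map_zero]
  simp

end Vale.Agent.AR
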