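import Vale.Agent.P195.Sharp

/-! The special endofunctor realizing a natural class of degree three. -/

open CategoryTheory Abelian Limits

universe u

set_option backward.isDefEq.respectTransparency false

namespace Vale.Agent.AR

variable {k : Type u} [Field k] {D : Type u} [Ring D] [Algebra k D]

lemma Exa.finite {R S : Type u} [Ring R] [Ring S] {G : ModuleCat.{u} R ⥤ ModuleCat.{u} S}
    [G.Additive] (hG : Exa G) (h : FP (G.obj (ModuleCat.of R R))) {M : ModuleCat.{u} R}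
    (hM : Module.Finite R M) : Module.Finite S (G.obj M) := by
  obtain ⟨n, f, hf⟩ := Module.Finite.exists_fin' R M
  have hP : FP (ModuleCat.of R (Fin n → R)) := ⟨inferInstanceAs (Module.Finite R (Fin n → R)),
    (IsProjective.iff_projective (Fin n → R)).1 inferInstance⟩
  have := (FP.map G h hP).1
  exact Module.Finite.of_surjective _ (hG (SE.ker (N := M) (ModuleCat.ofHom f) hf)).surj

attribute [local instance] ModuleCat.moduleOfAlgebraModule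
  ModuleCat.isScalarTower_of_algebra_moduleCat in
lemma Rep.finite_real [Module.Finite k D] {δ : Dat k D} (ρ : Rep δ) (hX : Module.Finite D ρ.X)
    (hV : Module.Finite D ρ.V) (hY : Module.Finite D ρ.Y) : Module.Finite (Lam δ) ρ.real := by
  have : Module.Finite k ρ.X := Module.Finite.trans D _
  have : Module.Finite k ρ.V := Module.Finite.trans D _
  have : Module.Finite k ρ.Y := Module.Finite.trans D _
  let _ : Module k ρ.Car := ModuleCat.moduleOfAlgebraModule ρ.real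
  have : IsScalarTower k (Lam δ) ρ.Car := ModuleCat.isScalarTower_of_algebra_moduleCat ρ.real
  let φ : (ρ.X × ρ.V × ρ.Y) →ₗ[k] ρ.Car :=
    { toFun := fun p => ⟨p.1, p.2.1, p.2.2⟩
      map_add' := fun a b => rfl
      map_smul' := fun c b => Rep.Car.ext (alg_smul_x δ c (⟨b.1, b.2.1, b.2.2⟩ : ρ.Car)).symm
        (alg_smul_v δ c (⟨b.1, b.2.1, b.2.2⟩ : ρ.Car)).symm
        (alg_smul_y δ c (⟨b.1, b.2.1, b.2.2⟩ : ρ.Car)).symm }
  have : Module.Finite k ρ.Car :=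
    Module.Finite.of_surjective φ fun w => ⟨(w.x, w.v, w.y), rfl⟩
  exact Module.Finite.of_restrictScalars_finite k (Lam δ) ρ.Car

section nv

variable (δ : Dat k D) (hl : δ.lam ≠ 0) (N : ModuleCat.{u} D)

/-- universal property of `jX` -/
def jXlift (σ : Rep δ) (f : N →ₗ[D] σ.X) (hx : ∀ c, σ.xX (f c) = 0) : RepHom (jXr δ N) σ where
  fX := f
  fV := σ.r ∘ₗ f
  fY := (σ.g1 ∘ₗ f).coprod (σ.g2 ∘ₗ f)
  xX := by simp [hx]
  xY w := by
    have h1 : σ.xY (σ.g1 (f w.1)) = 0 := by rw [← σ.g1_x, hx, map_zero]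
    have h2 : σ.xY (σ.g2 (f w.2)) = 0 := by
      rw [← t_inv δ hl (σ.xY _), ← σ.g2_x, hx, map_zero, smul_zero]
    simp [h1, h2]
  g1 := by simp
  g2 := by simp
  r := by simp
  m := by simp [σ.m_r]

/-- the map `iY N → J ρ` -/
def chi (ρ : Rep δ) (f : N →ₗ[D] ρ.X) (hx : ∀ c, ρ.xX (f c) = 0) : RepHom (iYr δ N) ρ.Jr where
  fX := 0
  fV := 0
  fY := LinearMap.inr D _ _ ∘ₗ f
  xX := by simp
  xY := by simp [hx, Prod.ext_iff]
  g1 := by simp [Prod.ext_iff]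
  g2 := by simp [Prod.ext_iff]
  r := by simp
  m := by
    intro v l
    rw [map_zero]
    simp [Prod.ext_iff]

lemma nonvanish {W' U : ModuleCat.{u} (Lam δ)} (θ : (Zr δ N).real ⟶ W') {ν n : ℕ}
    (κ : Ext W' U ν) (y : Ext ((Cf δ).obj W') U ν)
    (hy : (Ext.mk₀ ((Jpn δ).app W')).comp y (zero_add ν) =
      (Ext.mk₀ ((Jan δ hl).app W')).comp κ (zero_add ν)) (hn : 1 + ν = n)
    (h0 : ((nseSh δ hl).se W').cls.comp y hn = 0) :
    ∃ a : Ext (jXr δ N).real U ν, (Ext.mk₀ (gam δ N).real).comp a (zero_add ν) =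
      kY δ N ((Ext.mk₀ θ).comp κ (zero_add ν)) := by
  obtain ⟨z, rfl⟩ := ((nseSh δ hl).se W').ex1 U hn y h0
  let f : N →ₗ[D] (unreal δ W').X := ((Zr δ N).ofX ≫ (GX δ).map θ).hom
  have hx : ∀ c, (unreal δ W').xX (f c) = 0 := by
    intro c
    apply Cor.ext
    change Lam.xX δ • θ.hom (⟨c, 0, 0⟩ : (Zr δ N).Car) = 0
    rw [← map_smul, show Lam.xX δ • (⟨c, 0, 0⟩ : (Zr δ N).Car) = 0 by ext <;> simp, map_zero]
  have h1 : (gam δ N).real ≫ (jXlift δ hl N ((unreal δ W').shr hl) f hx).real =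
      (chi δ N _ f hx).real ≫ (Jpn δ).app W' ≫ (nseSh δ hl).i W' := by
    refine real_hom_ext δ fun w => ⟨map_zero f, ?_, Prod.ext ?_ ?_⟩
    · exact map_zero (((unreal δ W').shr hl).r ∘ₗ f)
    · apply Cor.ext
      change Lam.g1 δ • θ.hom (⟨w.y + 0, 0, 0⟩ : (Zr δ N).Car) +
        Lam.g2 δ • θ.hom (⟨0 + w.y, 0, 0⟩ : (Zr δ N).Car) = 0
      rw [← map_smul, ← map_smul, ← map_add, show Lam.g1 δ • (⟨w.y + 0, 0, 0⟩ : (Zr δ N).Car) +
        Lam.g2 δ • (⟨0 + w.y, 0, 0⟩ : (Zr δ N).Car) = 0 by ext <;> simp, map_zero]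
    · change 0 + f (0 + w.y) = (unreal δ W').ev 0 + f w.y
      rw [map_zero, zero_add w.y]
  have h2 : (chi δ N _ f hx).real ≫ (Jan δ hl).app W' = -((ioY δ N).real ≫ θ) := by
    refine ModuleCat.hom_ext (LinearMap.ext fun w => ?_)
    change (0 : W') + 0 + Lam.g2 δ • θ.hom (⟨w.y, 0, 0⟩ : (Zr δ N).Car) =
      -θ.hom (⟨0, 0, w.y⟩ : (Zr δ N).Car)
    rw [← map_smul, ← map_neg, add_zero, zero_add]
    congr 1
    ext <;> simp
  refine ⟨-(Ext.mk₀ (jXlift δ hl N ((unreal δ W').shr hl) f hx).real).comp z (zero_add ν), ?_⟩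
  rw [Ext.comp_neg, Ext.mk₀_comp_mk₀_assoc, h1, ← Ext.mk₀_comp_mk₀_assoc,
    ← Ext.mk₀_comp_mk₀_assoc, hy, Ext.mk₀_comp_mk₀_assoc, h2, Ext.mk₀_neg, Ext.neg_comp, neg_neg,
    kY, Ext.mk₀_comp_mk₀_assoc]

/-- comparison with the flat extension -/
def zbFl : RepHom (Zbr δ N) (unreal δ (Zr δ N).real).fl where
  fX := (Zr δ N).ofX.hom
  fV := LinearMap.inr D _ _ ∘ₗ (Zr δ N).ofX.hom
  fY := (Zr δ N).ofY.hom
  xX w := by
    apply Cor.ext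
    change (⟨0, 0, 0⟩ : (Zr δ N).Car) = Lam.xX δ • (⟨w, 0, 0⟩ : (Zr δ N).Car)
    ext <;> simp
  xY w := by
    apply Cor.ext
    change (⟨0, 0, 0⟩ : (Zr δ N).Car) = Lam.xY δ • (⟨0, 0, w⟩ : (Zr δ N).Car)
    ext <;> simp
  g1 w := by
    apply Cor.ext
    change (⟨0, 0, w⟩ : (Zr δ N).Car) = Lam.g1 δ • (⟨w, 0, 0⟩ : (Zr δ N).Car)
    ext <;> simp
  g2 w := by
    apply Cor.ext
    change (⟨0, 0, -w⟩ : (Zr δ N).Car) = Lam.g2 δ • (⟨w, 0, 0⟩ : (Zr δ N).Car)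
    ext <;> simp
  r w := by
    refine Prod.ext (Cor.ext ?_) rfl
    change (0 : (Zr δ N).Car) = Lam.r δ • (⟨w, 0, 0⟩ : (Zr δ N).Car)
    ext <;> simp
  m v l := by
    apply Cor.ext
    change (⟨0, 0, 0⟩ : (Zr δ N).Car) = Lam.mm δ l • (0 : (Zr δ N).Car)
    rw [smul_zero]
    rfl

lemma fl_cls {U : ModuleCat.{u} (Lam δ)} {m n : ℕ} (h : 1 + m = n)
    (y : Ext ((sV δ).obj ((GX δ).obj (Zr δ N).real)) U m) :
    (seZ δ N).cls.comp ((Ext.mk₀ ((sV δ).map (Zr δ N).ofX)).comp y (zero_add m)) h =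
      ((nseFl δ).se (Zr δ N).real).cls.comp y h := by
  refine (SE.cls_nat' (seZ δ N) ((nseFl δ).se (Zr δ N).real) _ (zbFl δ N).real (𝟙 _) ?_ ?_
    h y).trans (Ext.mk₀_id_comp _)
  · exact real_hom_ext δ fun w => ⟨(map_zero (Zr δ N).ofX.hom).symm, rfl,
      (map_zero (Zr δ N).ofY.hom).symm⟩
  · refine ModuleCat.hom_ext (LinearMap.ext fun w => ?_)
    change (⟨w.x, 0, 0⟩ : (Zr δ N).Car) + 0 + ⟨0, 0, w.y⟩ = ⟨w.x, 0, w.y⟩
    ext <;> simp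

lemma v_cls {M M' : ModuleCat.{u} D} (f : M ⟶ M') {U : ModuleCat.{u} (Lam δ)} {m n : ℕ}
    (h : 1 + m = n) (y : Ext ((TY δ).obj (δ.F.obj M')) U m) :
    (seV δ M).cls.comp ((Ext.mk₀ ((TY δ).map (δ.F.map f))).comp y (zero_add m)) h =
      (Ext.mk₀ ((sV δ).map f)).comp ((seV δ M').cls.comp y h) (zero_add n) :=
  SE.cls_nat' (seV δ M) (seV δ M') _ (JVm δ f).real _ ((nseV δ).i_nat f)
    (real_hom_ext δ fun _ => ⟨rfl, rfl, rfl⟩) h y

end nv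

section special

variable (δ : Dat k D) (hl : δ.lam ≠ 0) (ε : Dat k (Lam δ))

/-- third syzygy -/
noncomputable abbrev U3 : ModuleCat.{u} (Lam ε) ⥤ ModuleCat.{u} (Lam ε) :=
  ((𝟭 _ ⋙ Om k (Lam ε)) ⋙ Om k (Lam ε)) ⋙ Om k (Lam ε)

/-- first map -/
noncomputable def c1 : 𝟭 _ ⋙ Om k (Lam ε) ⟶ GX ε ⋙ sV ε := (nseFl ε).step (𝟙 _)

/-- second map -/
noncomputable def c2 : (𝟭 _ ⋙ Om k (Lam ε)) ⋙ Om k (Lam ε) ⟶ GX ε ⋙ ε.F ⋙ TY ε :=
  ((nseV ε).pre (GX ε)).step (c1 δ ε)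

/-- the third natural extension -/
def E3 : NSE k (GX ε ⋙ ε.F ⋙ Cf δ ⋙ TY ε) (GX ε ⋙ ε.F ⋙ TY ε) :=
  NSE.ty ε ((nseSh δ hl).pre (GX ε ⋙ ε.F))

/-- third map -/
noncomputable def c3 : U3 δ ε ⟶ GX ε ⋙ ε.F ⋙ Cf δ ⋙ TY ε := (E3 δ hl ε).step (c2 δ ε)

/-- the left leg of the roof -/
def pJT : GX ε ⋙ ε.F ⋙ Jf δ ⋙ TY ε ⟶ GX ε ⋙ ε.F ⋙ Cf δ ⋙ TY ε where
  app W := (TY ε).map ((Jpn δ).app (ε.F.obj ((GX ε).obj W)))
  naturality W W' f := by
    change (TY ε).map ((Jf δ).map _) ≫ _ = _ ≫ (TY ε).map ((Cf δ).map _)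
    rw [← Functor.map_comp, ← Functor.map_comp, (Jpn δ).naturality]

/-- the right leg of the roof -/
def aJT : GX ε ⋙ ε.F ⋙ Jf δ ⋙ TY ε ⟶ GX ε ⋙ ε.F ⋙ TY ε where
  app W := (TY ε).map ((Jan δ hl).app (ε.F.obj ((GX ε).obj W)))
  naturality W W' f := by
    change (TY ε).map ((Jf δ).map _) ≫ _ = _ ≫ (TY ε).map _
    rw [← Functor.map_comp, ← Functor.map_comp, (Jan δ hl).naturality]
    rfl

/-- the special functor -/
noncomputable def LL : ModuleCat.{u} (Lam ε) ⥤ ModuleCat.{u} (Lam ε) :=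
  kerF (pbτ (pJT δ ε) (c3 δ hl ε))

instance : (LL δ hl ε).Additive := inferInstanceAs (kerF (pbτ (pJT δ ε) (c3 δ hl ε))).Additive

instance [δ.F.Linear k] [ε.F.Linear k] : (LL δ hl ε).Linear k :=
  inferInstanceAs ((kerF (pbτ (pJT δ ε) (c3 δ hl ε))).Linear k)

/-- the natural map to the identity -/
noncomputable def aL : LL δ hl ε ⟶ 𝟭 _ := pb1 (pJT δ ε) (c3 δ hl ε) ≫ aJT δ hl ε ≫ mu ε

/-- the projection to the third syzygy -/
noncomputable def bL : LL δ hl ε ⟶ U3 δ ε := pb2 (pJT δ ε) (c3 δ hl ε)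

/-- the special data -/
noncomputable def spDat [δ.F.Linear k] [ε.F.Linear k] (lam : k) : Dat k (Lam ε) where
  lam := lam
  F := LL δ hl ε
  add := inferInstance
  lin c := by rw [Functor.map_smul, CategoryTheory.Functor.map_id]
  a M := (aL δ hl ε).app M
  a_nat _ _ f := (aL δ hl ε).naturality f

lemma pJT_se (W : ModuleCat.{u} (Lam ε)) :
    SE ((TY ε).map (unreal δ (ε.F.obj ((GX ε).obj W))).Jq.real) ((pJT δ ε).app W) :=
  TY_exa ε (Rep.J_se _)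

lemma U3_exa : Exa (U3 δ ε) :=
  ((Exa.id.comp (Om_exa _ _)).comp (Om_exa _ _)).comp (Om_exa _ _)

lemma LL_exa (h1 : Exa δ.F) (h2 : Exa ε.F) : Exa (LL δ hl ε) :=
  kerF_exa _ (fun W => pbτ_surj _ _ W (pJT_se δ ε W).surj)
    (prodF_exa ((cor_exa _).comp (h2.comp ((Jf_exa δ h1).comp (TY_exa ε)))) (U3_exa δ ε))
    ((cor_exa _).comp (h2.comp ((Cf_exa δ).comp (TY_exa ε))))

lemma bL_se (W : ModuleCat.{u} (Lam ε))
    (h : FP (δ.F.obj ((GX δ).obj (ε.F.obj ((GX ε).obj W))))) :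
    ∃ (Q : ModuleCat.{u} (Lam ε)) (j : Q ⟶ (LL δ hl ε).obj W), FP Q ∧ SE j ((bL δ hl ε).app W) := by
  obtain ⟨j, hj⟩ := pb_se (pJT δ ε) (c3 δ hl ε) W (pJT_se δ ε W)
  exact ⟨_, j, FP.map (TY ε) (fp_TY ε) (FP.map (TY δ) (fp_TY δ) h), hj⟩

variable [Module.Finite k (Lam ε)]

lemma fp_LL (h1 : FP δ.L) (h2 : FP ε.L) : FP ((LL δ hl ε).obj (ModuleCat.of _ (Lam ε))) := by
  obtain ⟨Q, j, hQ, hj⟩ := bL_se δ hl ε (ModuleCat.of _ (Lam ε))
    (FP.map δ.F h1 (FP.map (GX δ) (fp_GX δ) (FP.map ε.F h2 (fp_GX ε))))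
  exact hj.fp_mid hQ (fp_Om k (fp_Om k (fp_Om k FP.self)))

variable [IsNoetherianRing (Lam ε)]

lemma finite_U3 {W : ModuleCat.{u} (Lam ε)} (hW : Module.Finite (Lam ε) W) :
    Module.Finite (Lam ε) ((U3 δ ε).obj W) :=
  finite_Om k (finite_Om k (finite_Om k hW))

lemma isSyz_U3 {W : ModuleCat.{u} (Lam ε)} (hW : Module.Finite (Lam ε) W) :
    ∃ κ : Ext W ((U3 δ ε).obj W) 3, IsSyz W 3 _ κ :=
  ⟨_, IsSyz.succ 2 _ _ _ _ _ (seOm k _) (fp_Fr (finite_Om k (finite_Om k hW))) _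
    (IsSyz.succ 1 _ _ _ _ _ (seOm k _) (fp_Fr (finite_Om k hW)) _
      (IsSyz.succ 0 _ _ _ _ _ (seOm k _) (fp_Fr hW) _ (IsSyz.zero W (𝟙 W) inferInstance)))⟩

variable {W : ModuleCat.{u} (Lam ε)} (hW : Module.Finite (Lam ε) W)
  (h : FP (δ.F.obj ((GX δ).obj (ε.F.obj ((GX ε).obj W)))))

include hW h

lemma finite_LL : Module.Finite (Lam ε) ((LL δ hl ε).obj W) := by
  obtain ⟨Q, j, hQ, hj⟩ := bL_se δ hl ε W h
  exact hj.finite_mid hQ.1 (finite_U3 δ ε hW)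

lemma LL_zero {U : ModuleCat.{u} (Lam ε)} {n m : ℕ} (hn : 0 < n) (hm : 3 + n = m)
    (h0 : ∀ e : Ext W U m, e = 0) (e : Ext ((LL δ hl ε).obj W) U n) : e = 0 := by
  obtain ⟨Q, j, hQ, hj⟩ := bL_se δ hl ε W h
  obtain ⟨κ, hκ⟩ := isSyz_U3 δ ε hW
  exact hj.mid_zero U (ext_zero_of_proj hQ.2 hn)
    (fun y => hκ.pre_inj U n m hn hm y (h0 _)) e

lemma LL_le1 {U : ModuleCat.{u} (Lam ε)} {n m : ℕ} (hn : 0 < n) (hm : 3 + n = m)
    (h0 : Le1 k (Ext W U m)) : Le1 k (Ext ((LL δ hl ε).obj W) U n) := by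
  obtain ⟨Q, j, hQ, hj⟩ := bL_se δ hl ε W h
  obtain ⟨κ, hκ⟩ := isSyz_U3 δ ε hW
  refine (h0.of_inj (preL k κ U hm).toAddMonoidHom (fun c x => Ext.comp_smul _ _ hm _)
    (fun y hy => hκ.pre_inj U n m hn hm y hy)).of_surj
    (preL k (Ext.mk₀ ((bL δ hl ε).app W)) U (zero_add n)).toAddMonoidHom
    (fun c x => Ext.comp_smul _ _ (zero_add n) _) (fun y => ?_)
  exact hj.ex2 U y (ext_zero_of_proj hQ.2 hn _)

end special

end Vale.Agent.AR
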