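import Vale.Agent.P195.Ring

/-! Corner functors of the triangular algebra; passing from modules to representations. -/

open CategoryTheory Abelian Limits

universe u

set_option backward.isDefEq.respectTransparency false

namespace Vale.Agent.AR

variable {k : Type u} [Field k] {D : Type u} [Ring D] [Algebra k D] (δ : Dat k D)

/-- corner at `X` -/
abbrev GX : ModuleCat.{u} (Lam δ) ⥤ ModuleCat.{u} D := cor (Lam.iX δ)
/-- corner at `V` -/
abbrev GV : ModuleCat.{u} (Lam δ) ⥤ ModuleCat.{u} D := cor (Lam.iV δ)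
/-- corner at `Y` -/
abbrev GY : ModuleCat.{u} (Lam δ) ⥤ ModuleCat.{u} D := cor (Lam.iY δ)

instance : (GX δ).Linear k := cor_linear _ k (fun c => by ext <;> simp [Lam.algebraMap_eq])
instance : (GV δ).Linear k := cor_linear _ k (fun c => by ext <;> simp [Lam.algebraMap_eq])
instance : (GY δ).Linear k := cor_linear _ k (fun c => by ext <;> simp [Lam.algebraMap_eq])

/-- action of the loop at `X` -/
def nxX : GX δ ⟶ GX δ := corMul _ _ (Lam.xX δ) (fun d => by ext <;> simp)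
/-- action of the loop at `Y` -/
def nxY : GY δ ⟶ GY δ := corMul _ _ (Lam.xY δ) (fun d => by ext <;> simp)
/-- action of `g1` -/
def ng1 : GX δ ⟶ GY δ := corMul _ _ (Lam.g1 δ) (fun d => by ext <;> simp)
/-- action of `g2` -/
def ng2 : GX δ ⟶ GY δ := corMul _ _ (Lam.g2 δ) (fun d => by ext <;> simp)
/-- action of `r` -/
def nr : GX δ ⟶ GV δ := corMul _ _ (Lam.r δ) (fun d => by ext <;> simp)

section vals

variable {δ} (W : ModuleCat.{u} (Lam δ))

@[simp] lemma nxX_val (w : (GX δ).obj W) :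
    Cor.val (((nxX δ).app W).hom w) = Lam.xX δ • Cor.val w := rfl
@[simp] lemma nxY_val (w : (GY δ).obj W) :
    Cor.val (((nxY δ).app W).hom w) = Lam.xY δ • Cor.val w := rfl
@[simp] lemma ng1_val (w : (GX δ).obj W) :
    Cor.val (((ng1 δ).app W).hom w) = Lam.g1 δ • Cor.val w := rfl
@[simp] lemma ng2_val (w : (GX δ).obj W) :
    Cor.val (((ng2 δ).app W).hom w) = Lam.g2 δ • Cor.val w := rfl
@[simp] lemma nr_val (w : (GX δ).obj W) :
    Cor.val (((nr δ).app W).hom w) = Lam.r δ • Cor.val w := rfl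

end vals

/-- action of the arrows `V → Y` -/
def nm (W : ModuleCat.{u} (Lam δ)) : (GV δ).obj W →+ (δ.L →ₗ[D] (GY δ).obj W) where
  toFun v :=
    { toFun := fun l => Cor.mk (Lam.mm δ l • Cor.val v) (by
        rw [smul_smul]; congr 1; ext <;> simp)
      map_add' := fun a b => by
        apply Cor.ext
        change Lam.mm δ (a + b) • Cor.val v = Lam.mm δ a • Cor.val v + Lam.mm δ b • Cor.val v
        rw [map_add, add_smul]
      map_smul' := fun a b => by
        apply Cor.ext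
        change Lam.mm δ (a • b) • Cor.val v = Lam.iY δ a • Lam.mm δ b • Cor.val v
        rw [smul_smul]; congr 1; ext <;> simp }
  map_zero' := by
    ext l; apply Cor.ext
    exact smul_zero _
  map_add' a b := by
    ext l; apply Cor.ext
    exact smul_add _ _ _

@[simp] lemma nm_val (W : ModuleCat.{u} (Lam δ)) (v : (GV δ).obj W) (l : δ.L) :
    Cor.val (nm δ W v l) = Lam.mm δ l • Cor.val v := rfl

/-- the representation attached to a module -/
abbrev unreal (W : ModuleCat.{u} (Lam δ)) : Rep δ where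
  X := (GX δ).obj W
  V := (GV δ).obj W
  Y := (GY δ).obj W
  xX := ((nxX δ).app W).hom
  xY := ((nxY δ).app W).hom
  g1 := ((ng1 δ).app W).hom
  g2 := ((ng2 δ).app W).hom
  r := ((nr δ).app W).hom
  m := nm δ W
  xX_xX w := by
    apply Cor.ext
    change Lam.xX δ • Lam.xX δ • Cor.val w = 0
    rw [smul_smul, show Lam.xX δ * Lam.xX δ = 0 by ext <;> simp, zero_smul]
  xY_xY w := by
    apply Cor.ext
    change Lam.xY δ • Lam.xY δ • Cor.val w = 0
    rw [smul_smul, show Lam.xY δ * Lam.xY δ = 0 by ext <;> simp, zero_smul]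
  g1_x w := by
    apply Cor.ext
    change Lam.g1 δ • Lam.xX δ • Cor.val w = Lam.xY δ • Lam.g1 δ • Cor.val w
    rw [smul_smul, smul_smul]; congr 1; ext <;> simp
  g2_x w := by
    apply Cor.ext
    change Lam.g2 δ • Lam.xX δ • Cor.val w = Lam.iY δ δ.t • Lam.xY δ • Lam.g2 δ • Cor.val w
    rw [smul_smul, smul_smul, smul_smul]; congr 1; ext <;> simp
  m_smul d v l := by
    apply Cor.ext
    change Lam.mm δ l • Lam.iV δ d • Cor.val v = Lam.mm δ (δ.ra d l) • Cor.val v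
    rw [smul_smul]; congr 1; ext <;> simp
  m_r w l := by
    apply Cor.ext
    change Lam.mm δ l • Lam.r δ • Cor.val w =
      Lam.iY δ (δ.al l) • (Lam.g1 δ • Cor.val w + Lam.g2 δ • Cor.val w)
    rw [smul_smul, ← add_smul, smul_smul]; congr 1; ext <;> simp

variable {δ}

/-- functoriality of `unreal` -/
def unrealMap {W W' : ModuleCat.{u} (Lam δ)} (f : W ⟶ W') : RepHom (unreal δ W) (unreal δ W') where
  fX := ((GX δ).map f).hom
  fV := ((GV δ).map f).hom
  fY := ((GY δ).map f).hom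
  xX _ := Cor.ext (map_smul f.hom _ _)
  xY _ := Cor.ext (map_smul f.hom _ _)
  g1 _ := Cor.ext (map_smul f.hom _ _)
  g2 _ := Cor.ext (map_smul f.hom _ _)
  r _ := Cor.ext (map_smul f.hom _ _)
  m _ _ := Cor.ext (map_smul f.hom _ _)

/-- the comparison map -/
def counit (W : ModuleCat.{u} (Lam δ)) : (unreal δ W).real ⟶ W := ModuleCat.ofHom
  { toFun := fun w => Cor.val w.x + Cor.val w.v + Cor.val w.y
    map_add' := fun a b => by
      change (Cor.val a.x + Cor.val b.x) + (Cor.val a.v + Cor.val b.v) +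
        (Cor.val a.y + Cor.val b.y) = _
      abel
    map_smul' := fun d w => by
      have hx : d • Cor.val w.x = (d * Lam.iX δ 1) • Cor.val w.x := by rw [mul_smul, Cor.prop]
      have hv : d • Cor.val w.v = (d * Lam.iV δ 1) • Cor.val w.v := by rw [mul_smul, Cor.prop]
      have hy : d • Cor.val w.y = (d * Lam.iY δ 1) • Cor.val w.y := by rw [mul_smul, Cor.prop]
      rw [RingHom.id_apply, smul_add, smul_add, hx, hv, hy, Lam.decX, Lam.decV, Lam.decY]
      simp only [add_smul, mul_smul]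
      change (Lam.iX δ d.a0 • Cor.val w.x + Lam.iX δ d.a1 • Lam.xX δ • Cor.val w.x) +
        (Lam.iV δ d.v • Cor.val w.v + Lam.iV δ d.b0 • Lam.r δ • Cor.val w.x +
          Lam.iV δ d.b1 • Lam.r δ • Lam.xX δ • Cor.val w.x) +
        (Lam.iY δ d.y0 • Cor.val w.y + Lam.iY δ d.y1 • Lam.xY δ • Cor.val w.y +
          Lam.mm δ d.l0 • Cor.val w.v + Lam.xY δ • Lam.mm δ d.l1 • Cor.val w.v +
          Lam.iY δ d.c1 • Lam.g1 δ • Cor.val w.x + Lam.iY δ d.c2 • Lam.g2 δ • Cor.val w.x +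
          Lam.iY δ d.e1 • Lam.xY δ • Lam.g1 δ • Cor.val w.x +
          Lam.iY δ d.e2 • Lam.xY δ • Lam.g2 δ • Cor.val w.x) = _
      abel }

lemma counit_apply (W : ModuleCat.{u} (Lam δ)) (w : (unreal δ W).Car) :
    (counit W).hom w = Cor.val w.x + Cor.val w.v + Cor.val w.y := rfl

/-- additive section of the comparison map -/
def unitSec (W : ModuleCat.{u} (Lam δ)) : W →+ (unreal δ W).Car where
  toFun w := ⟨Cor.proj _ W w, Cor.proj _ W w, Cor.proj _ W w⟩
  map_zero' := by ext <;> simp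
  map_add' a b := by ext <;> simp

lemma counit_unitSec (W : ModuleCat.{u} (Lam δ)) (w : W) :
    (counit W).hom (unitSec W w) = w := by
  change Lam.iX δ 1 • w + Lam.iV δ 1 • w + Lam.iY δ 1 • w = w
  rw [← add_smul, ← add_smul, ← Lam.one_eq, one_smul]

lemma orth {W : ModuleCat.{u} (Lam δ)} {ι : D →ₙ+* Lam δ} (w : Cor ι W) (e : Lam δ)
    (h : e * ι 1 = 0) : e • w.val = 0 := by
  rw [← w.prop, smul_smul, h, zero_smul]

lemma unitSec_counit (W : ModuleCat.{u} (Lam δ)) (w : (unreal δ W).Car) :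
    unitSec W ((counit W).hom w) = w := by
  apply Rep.Car.ext <;> apply Cor.ext
  · change Lam.iX δ 1 • (Cor.val w.x + Cor.val w.v + Cor.val w.y) = Cor.val w.x
    rw [smul_add, smul_add, Cor.prop, orth w.v _ (by ext <;> simp), orth w.y _ (by ext <;> simp)]
    simp
  · change Lam.iV δ 1 • (Cor.val w.x + Cor.val w.v + Cor.val w.y) = Cor.val w.v
    rw [smul_add, smul_add, Cor.prop, orth w.x _ (by ext <;> simp), orth w.y _ (by ext <;> simp)]
    simp
  · change Lam.iY δ 1 • (Cor.val w.x + Cor.val w.v + Cor.val w.y) = Cor.val w.y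
    rw [smul_add, smul_add, Cor.prop, orth w.x _ (by ext <;> simp), orth w.v _ (by ext <;> simp)]
    simp

lemma counit_bij (W : ModuleCat.{u} (Lam δ)) : Function.Bijective (counit W).hom :=
  ⟨Function.LeftInverse.injective (unitSec_counit W),
    Function.RightInverse.surjective (counit_unitSec W)⟩

lemma counit_nat {W W' : ModuleCat.{u} (Lam δ)} (f : W ⟶ W') :
    (unrealMap f).real ≫ counit W' = counit W ≫ f := by
  apply ModuleCat.hom_ext
  apply LinearMap.ext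
  intro w
  change f.hom (Cor.val w.x) + f.hom (Cor.val w.v) + f.hom (Cor.val w.y) =
    f.hom (Cor.val w.x + Cor.val w.v + Cor.val w.y)
  rw [map_add, map_add]

namespace Rep

variable (ρ : Rep δ)

/-- `ρ.X → e_X ρ` -/
def ofX : ρ.X ⟶ (GX δ).obj ρ.real := ModuleCat.ofHom
  { toFun := fun w => Cor.mk (W := ρ.real) ⟨w, 0, 0⟩ (by ext <;> simp)
    map_add' := fun a b => by apply Cor.ext; ext <;> simp
    map_smul' := fun a b => by apply Cor.ext; ext <;> simp }

/-- `ρ.V → e_V ρ` -/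
def ofV : ρ.V ⟶ (GV δ).obj ρ.real := ModuleCat.ofHom
  { toFun := fun w => Cor.mk (W := ρ.real) ⟨0, w, 0⟩ (by ext <;> simp)
    map_add' := fun a b => by apply Cor.ext; ext <;> simp
    map_smul' := fun a b => by apply Cor.ext; ext <;> simp }

/-- `ρ.Y → e_Y ρ` -/
def ofY : ρ.Y ⟶ (GY δ).obj ρ.real := ModuleCat.ofHom
  { toFun := fun w => Cor.mk (W := ρ.real) ⟨0, 0, w⟩ (by ext <;> simp)
    map_add' := fun a b => by apply Cor.ext; ext <;> simp
    map_smul' := fun a b => by apply Cor.ext; ext <;> simp }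

@[simp] lemma ofX_val (w : ρ.X) : Cor.val (ρ.ofX.hom w) = (⟨w, 0, 0⟩ : ρ.Car) := rfl
@[simp] lemma ofV_val (w : ρ.V) : Cor.val (ρ.ofV.hom w) = (⟨0, w, 0⟩ : ρ.Car) := rfl
@[simp] lemma ofY_val (w : ρ.Y) : Cor.val (ρ.ofY.hom w) = (⟨0, 0, w⟩ : ρ.Car) := rfl

/-- `e_X ρ → ρ.X` -/
def toX : (GX δ).obj ρ.real ⟶ ρ.X := ModuleCat.ofHom
  { toFun := fun w => Rep.Car.x (Cor.val w)
    map_add' := fun a b => rfl
    map_smul' := fun a b => by
      change (Lam.iX δ a • (Cor.val b : ρ.Car)).x = _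
      simp }

/-- `e_V ρ → ρ.V` -/
def toV : (GV δ).obj ρ.real ⟶ ρ.V := ModuleCat.ofHom
  { toFun := fun w => Rep.Car.v (Cor.val w)
    map_add' := fun a b => rfl
    map_smul' := fun a b => by
      change (Lam.iV δ a • (Cor.val b : ρ.Car)).v = _
      simp }

/-- `e_Y ρ → ρ.Y` -/
def toY : (GY δ).obj ρ.real ⟶ ρ.Y := ModuleCat.ofHom
  { toFun := fun w => Rep.Car.y (Cor.val w)
    map_add' := fun a b => rfl
    map_smul' := fun a b => by
      change (Lam.iY δ a • (Cor.val b : ρ.Car)).y = _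
      simp }

@[simp] lemma toX_apply (w : (GX δ).obj ρ.real) : ρ.toX.hom w = Rep.Car.x (Cor.val w) := rfl
@[simp] lemma toV_apply (w : (GV δ).obj ρ.real) : ρ.toV.hom w = Rep.Car.v (Cor.val w) := rfl
@[simp] lemma toY_apply (w : (GY δ).obj ρ.real) : ρ.toY.hom w = Rep.Car.y (Cor.val w) := rfl

lemma valX (w : (GX δ).obj ρ.real) : Cor.val w = (⟨Rep.Car.x (Cor.val w), 0, 0⟩ : ρ.Car) := by
  conv_lhs => rw [← Cor.prop w]
  ext <;> simp

lemma valV (w : (GV δ).obj ρ.real) : Cor.val w = (⟨0, Rep.Car.v (Cor.val w), 0⟩ : ρ.Car) := by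
  conv_lhs => rw [← Cor.prop w]
  ext <;> simp

lemma valY (w : (GY δ).obj ρ.real) : Cor.val w = (⟨0, 0, Rep.Car.y (Cor.val w)⟩ : ρ.Car) := by
  conv_lhs => rw [← Cor.prop w]
  ext <;> simp

lemma ofX_toX : ρ.ofX ≫ ρ.toX = 𝟙 _ := rfl
lemma ofV_toV : ρ.ofV ≫ ρ.toV = 𝟙 _ := rfl
lemma ofY_toY : ρ.ofY ≫ ρ.toY = 𝟙 _ := rfl

lemma toX_ofX : ρ.toX ≫ ρ.ofX = 𝟙 _ :=
  ModuleCat.hom_ext (LinearMap.ext fun w => Cor.ext (ρ.valX w).symm)
lemma toV_ofV : ρ.toV ≫ ρ.ofV = 𝟙 _ :=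
  ModuleCat.hom_ext (LinearMap.ext fun w => Cor.ext (ρ.valV w).symm)
lemma toY_ofY : ρ.toY ≫ ρ.ofY = 𝟙 _ :=
  ModuleCat.hom_ext (LinearMap.ext fun w => Cor.ext (ρ.valY w).symm)

lemma isIso_ofX : IsIso ρ.ofX := ⟨ρ.toX, ρ.ofX_toX, ρ.toX_ofX⟩
lemma isIso_ofV : IsIso ρ.ofV := ⟨ρ.toV, ρ.ofV_toV, ρ.toV_ofV⟩
lemma isIso_ofY : IsIso ρ.ofY := ⟨ρ.toY, ρ.ofY_toY, ρ.toY_ofY⟩

end Rep

section regular

variable (δ)

lemma fp_GX : FP ((GX δ).obj (ModuleCat.of (Lam δ) (Lam δ))) := by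
  refine FP.retract (A := ModuleCat.of D (D × D)) (ModuleCat.ofHom
    { toFun := fun p => Cor.mk (W := ModuleCat.of (Lam δ) (Lam δ))
        (⟨p.1, p.2, 0, 0, 0, 0, 0, 0, 0, 0, 0, 0, 0⟩ : Lam δ) (by ext <;> simp)
      map_add' := fun a b => by apply Cor.ext; ext <;> simp
      map_smul' := fun a b => by apply Cor.ext; ext <;> simp }) (ModuleCat.ofHom
    { toFun := fun w => (Lam.a0 (Cor.val w), Lam.a1 (Cor.val w))
      map_add' := fun a b => rfl
      map_smul' := fun a b => by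
        change (((Lam.iX δ a * Cor.val b : Lam δ)).a0, ((Lam.iX δ a * Cor.val b : Lam δ)).a1) = _
        simp }) ?_ (FP.prod FP.self FP.self)
  apply ModuleCat.hom_ext
  apply LinearMap.ext
  intro w
  apply Cor.ext
  change _ = Cor.val w
  conv_rhs => rw [← Cor.prop w]
  ext <;> simp <;> rfl

lemma fp_GV : FP ((GV δ).obj (ModuleCat.of (Lam δ) (Lam δ))) := by
  refine FP.retract (A := ModuleCat.of D (D × D × D)) (ModuleCat.ofHom
    { toFun := fun p => Cor.mk (W := ModuleCat.of (Lam δ) (Lam δ))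
        (⟨0, 0, p.1, p.2.1, p.2.2, 0, 0, 0, 0, 0, 0, 0, 0⟩ : Lam δ) (by ext <;> simp)
      map_add' := fun a b => by apply Cor.ext; ext <;> simp
      map_smul' := fun a b => by apply Cor.ext; ext <;> simp }) (ModuleCat.ofHom
    { toFun := fun w => (Lam.v (Cor.val w), Lam.b0 (Cor.val w), Lam.b1 (Cor.val w))
      map_add' := fun a b => rfl
      map_smul' := fun a b => by
        change (((Lam.iV δ a * Cor.val b : Lam δ)).v, ((Lam.iV δ a * Cor.val b : Lam δ)).b0,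
          ((Lam.iV δ a * Cor.val b : Lam δ)).b1) = _
        simp }) ?_ (FP.prod FP.self (FP.prod FP.self FP.self))
  apply ModuleCat.hom_ext
  apply LinearMap.ext
  intro w
  apply Cor.ext
  change _ = Cor.val w
  conv_rhs => rw [← Cor.prop w]
  ext <;> simp <;> rfl

lemma fp_GY (hL : FP δ.L) : FP ((GY δ).obj (ModuleCat.of (Lam δ) (Lam δ))) := by
  refine FP.retract (A := ModuleCat.of D (D × D × δ.L × δ.L × D × D × D × D)) (ModuleCat.ofHom
    { toFun := fun p => Cor.mk (W := ModuleCat.of (Lam δ) (Lam δ))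
        (⟨0, 0, 0, 0, 0, p.1, p.2.1, p.2.2.1, p.2.2.2.1, p.2.2.2.2.1, p.2.2.2.2.2.1,
          p.2.2.2.2.2.2.1, p.2.2.2.2.2.2.2⟩ : Lam δ) (by ext <;> simp)
      map_add' := fun a b => by apply Cor.ext; ext <;> simp
      map_smul' := fun a b => by apply Cor.ext; ext <;> simp }) (ModuleCat.ofHom
    { toFun := fun w => (Lam.y0 (Cor.val w), Lam.y1 (Cor.val w), Lam.l0 (Cor.val w),
        Lam.l1 (Cor.val w), Lam.c1 (Cor.val w), Lam.c2 (Cor.val w), Lam.e1 (Cor.val w),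
        Lam.e2 (Cor.val w))
      map_add' := fun a b => rfl
      map_smul' := fun a b => by
        change (((Lam.iY δ a * Cor.val b : Lam δ)).y0, ((Lam.iY δ a * Cor.val b : Lam δ)).y1,
          ((Lam.iY δ a * Cor.val b : Lam δ)).l0, ((Lam.iY δ a * Cor.val b : Lam δ)).l1,
          ((Lam.iY δ a * Cor.val b : Lam δ)).c1, ((Lam.iY δ a * Cor.val b : Lam δ)).c2,
          ((Lam.iY δ a * Cor.val b : Lam δ)).e1, ((Lam.iY δ a * Cor.val b : Lam δ)).e2) = _
        simp }) ?_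
    (FP.prod FP.self (FP.prod FP.self (FP.prod hL (FP.prod hL (FP.prod FP.self (FP.prod FP.self
      (FP.prod FP.self FP.self)))))))
  apply ModuleCat.hom_ext
  apply LinearMap.ext
  intro w
  apply Cor.ext
  change _ = Cor.val w
  conv_rhs => rw [← Cor.prop w]
  ext <;> simp <;> rfl

lemma contr_X : ∃ s : (GX δ).obj (ModuleCat.of (Lam δ) (Lam δ)) ⟶
    (GX δ).obj (ModuleCat.of (Lam δ) (Lam δ)),
    (nxX δ).app _ ≫ s + s ≫ (nxX δ).app _ = 𝟙 _ := by
  refine ⟨ModuleCat.ofHom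
    { toFun := fun w => Cor.mk (W := ModuleCat.of (Lam δ) (Lam δ))
        (⟨Lam.a1 (Cor.val w), 0, 0, 0, 0, 0, 0, 0, 0, 0, 0, 0, 0⟩ : Lam δ) (by ext <;> simp)
      map_add' := fun a b => by apply Cor.ext; ext <;> simp
      map_smul' := fun a b => by apply Cor.ext; ext <;> simp }, ?_⟩
  apply ModuleCat.hom_ext
  apply LinearMap.ext
  intro w
  apply Cor.ext
  change (⟨Lam.a1 (Lam.xX δ * Cor.val w), 0, 0, 0, 0, 0, 0, 0, 0, 0, 0, 0, 0⟩ : Lam δ) +
    Lam.xX δ * ⟨Lam.a1 (Cor.val w), 0, 0, 0, 0, 0, 0, 0, 0, 0, 0, 0, 0⟩ = Cor.val w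
  conv_rhs => rw [← Cor.prop w]
  ext <;> simp

lemma contr_Y : ∃ s : (GY δ).obj (ModuleCat.of (Lam δ) (Lam δ)) ⟶
    (GY δ).obj (ModuleCat.of (Lam δ) (Lam δ)),
    (nxY δ).app _ ≫ s + s ≫ (nxY δ).app _ = 𝟙 _ := by
  refine ⟨ModuleCat.ofHom
    { toFun := fun w => Cor.mk (W := ModuleCat.of (Lam δ) (Lam δ))
        (⟨0, 0, 0, 0, 0, Lam.y1 (Cor.val w), 0, Lam.l1 (Cor.val w), 0, Lam.e1 (Cor.val w),
          Lam.e2 (Cor.val w), 0, 0⟩ : Lam δ) (by ext <;> simp)
      map_add' := fun a b => by apply Cor.ext; ext <;> simp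
      map_smul' := fun a b => by apply Cor.ext; ext <;> simp }, ?_⟩
  apply ModuleCat.hom_ext
  apply LinearMap.ext
  intro w
  apply Cor.ext
  change (⟨0, 0, 0, 0, 0, Lam.y1 (Lam.xY δ * Cor.val w), 0, Lam.l1 (Lam.xY δ * Cor.val w), 0,
    Lam.e1 (Lam.xY δ * Cor.val w), Lam.e2 (Lam.xY δ * Cor.val w), 0, 0⟩ : Lam δ) +
    Lam.xY δ * ⟨0, 0, 0, 0, 0, Lam.y1 (Cor.val w), 0, Lam.l1 (Cor.val w), 0, Lam.e1 (Cor.val w),
          Lam.e2 (Cor.val w), 0, 0⟩ = Cor.val w
  conv_rhs => rw [← Cor.prop w]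
  ext <;> simp

lemma Lam.finite [Module.Finite k D] (hL : Module.Finite D δ.L) : Module.Finite k (Lam δ) := by
  let : Module k δ.L := Module.compHom δ.L (algebraMap k D)
  have : IsScalarTower k D δ.L :=
    ⟨fun c d l => by rw [Algebra.smul_def, mul_smul]; rfl⟩
  have : Module.Finite k δ.L := Module.Finite.trans D δ.L
  let φ : ((Fin 11 → D) × δ.L × δ.L) →ₗ[k] Lam δ :=
    { toFun := fun p => ⟨p.1 0, p.1 1, p.1 2, p.1 3, p.1 4, p.1 5, p.1 6, p.2.1, p.2.2, p.1 7,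
        p.1 8, p.1 9, p.1 10⟩
      map_add' := fun a b => by ext <;> simp
      map_smul' := fun c b => by
        rw [RingHom.id_apply, Algebra.smul_def, Lam.algebraMap_eq]
        ext <;> simp [Algebra.smul_def] }
  refine Module.Finite.of_surjective φ fun d => ⟨(![d.a0, d.a1, d.v, d.b0, d.b1, d.y0, d.y1,
    d.c1, d.c2, d.e1, d.e2], d.l0, d.l1), ?_⟩
  rfl

end regular

end Vale.Agent.AR
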